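import Vale.Agent.H14.CD.Defs

/-! Row A1: averaging over translates. -/

namespace P230
open MeasureTheory Metric Finset
open scoped ENNReal

theorem avg_cube_volume {n : ℕ} (R : ℝ) (hR : 0 ≤ R) :
    volume (cube n R) = ENNReal.ofReal ((2 * R) ^ n) := by
  have h := PiLp.volume_preserving_ofLp (ι := Fin n)
  have e : cube n R = (WithLp.ofLp : E n → (Fin n → ℝ)) ⁻¹'
      (Set.Icc (fun _ => -R) (fun _ => R)) := by
    ext x
    simp only [cube, Set.mem_setOf_eq, Set.mem_preimage, Set.mem_Icc, Pi.le_def, abs_le]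
    constructor
    · intro h; exact ⟨fun i => (h i).1, fun i => (h i).2⟩
    · intro h i; exact ⟨h.1 i, h.2 i⟩
  rw [e, h.measure_preimage measurableSet_Icc.nullMeasurableSet, Real.volume_Icc_pi]
  rw [← ENNReal.ofReal_prod_of_nonneg (fun i _ => by linarith)]
  congr 1
  rw [Finset.prod_const, Finset.card_univ, Fintype.card_fin]
  congr 1; ring

theorem avg_cube_measurable {n : ℕ} (R : ℝ) : MeasurableSet (cube n R) := by
  have e : cube n R = (WithLp.ofLp : E n → (Fin n → ℝ)) ⁻¹'
      (Set.Icc (fun _ => -R) (fun _ => R)) := by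
    ext x
    simp only [cube, Set.mem_setOf_eq, Set.mem_preimage, Set.mem_Icc, Pi.le_def, abs_le]
    constructor
    · intro h; exact ⟨fun i => (h i).1, fun i => (h i).2⟩
    · intro h i; exact ⟨h.1 i, h.2 i⟩
  rw [e]
  exact (PiLp.volume_preserving_ofLp (ι := Fin n)).measurable measurableSet_Icc

theorem avg_abs_le_norm {n : ℕ} (v : E n) (i : Fin n) : |v i| ≤ ‖v‖ := by
  have := PiLp.norm_apply_le v i
  simpa using this

theorem avg_cube_bounded {n : ℕ} (R : ℝ) : Bornology.IsBounded (cube n R) := by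
  have e : cube n R = (PiLp.homeomorph 2 (fun _ : Fin n => ℝ)) ⁻¹'
      (Set.Icc (fun _ => -R) (fun _ => R)) := by
    ext x
    simp only [cube, Set.mem_setOf_eq, Set.mem_preimage, Set.mem_Icc, Pi.le_def, abs_le]
    constructor
    · intro h; exact ⟨fun i => (h i).1, fun i => (h i).2⟩
    · intro h i; exact ⟨h.1 i, h.2 i⟩
  have hc : IsCompact (cube n R) := by
    rw [e]
    exact (Homeomorph.isCompact_preimage _).2 isCompact_Icc
  exact hc.isBounded

theorem avg_countable {n : ℕ} {X : Set (E n)} (hX : LocFinite X) : X.Countable := by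
  have : X = ⋃ k : ℕ, X ∩ closedBall 0 (k : ℝ) := by
    ext x
    simp only [Set.mem_iUnion, Set.mem_inter_iff, mem_closedBall, dist_zero_right]
    constructor
    · intro h
      obtain ⟨k, hk⟩ := exists_nat_ge ‖x‖
      exact ⟨k, h, hk⟩
    · rintro ⟨k, h, _⟩; exact h
  rw [this]
  exact Set.countable_iUnion fun k => (hX _ isBounded_closedBall).countable

/-- the limit `((2R+4)/(2R))^n → 1` in the form needed. -/
theorem avg_ratio (n : ℕ) : ∀ᶠ R : ℝ in Filter.atTop, (2 * R + 4) ^ n < 2 * (2 * R) ^ n := by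
  have h1 : Filter.Tendsto (fun R : ℝ => (1 + 2 / R) ^ n) Filter.atTop (nhds ((1 + 0) ^ n)) := by
    refine Filter.Tendsto.pow ?_ n
    exact tendsto_const_nhds.add (tendsto_const_nhds.div_atTop Filter.tendsto_id)
  rw [add_zero, one_pow] at h1
  have h2 := h1.eventually (gt_mem_nhds (show (1 : ℝ) < 2 by norm_num))
  filter_upwards [h2, Filter.eventually_gt_atTop 0] with R hR hR0
  have : (2 * R + 4) = (1 + 2 / R) * (2 * R) := by field_simp; ring
  rw [this, mul_pow]
  have : 0 < (2 * R) ^ n := by positivity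
  nlinarith

/-- If `Σ_{p ∈ X} Ψ (w - p) > 2 D ∫ Ψ` for all `w`, integrate over `Q_R`:
`2 D (2R)^n ∫ Ψ ≤ ∫_{Q_R} ≤ #(X ∩ Q_{R+2}) ∫ Ψ ≤ D (2R+4)^n ∫ Ψ` for large `R`. -/
theorem averaging {n : ℕ} (hn : 1 ≤ n) (X : Set (E n)) (hX : LocFinite X) (D : ℝ) (hD : 0 < D)
    (hdens : upperDensity X < ENNReal.ofReal D) (Ψ : E n → ℝ≥0∞) (hΨ : Measurable Ψ)
    (hsupp : ∀ v, 2 < ‖v‖ → Ψ v = 0) (hpos : ∫⁻ v, Ψ v ≠ 0) (hfin : ∫⁻ v, Ψ v ≠ ⊤) :
    ∃ w : E n, ∑' p : X, Ψ (w - p) ≤ 2 * ENNReal.ofReal D * ∫⁻ v, Ψ v := by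
  by_contra hcon
  push Not at hcon
  have hcount := avg_countable hX
  have : Countable X := hcount.to_subtype
  set I := ∫⁻ v, Ψ v with hI
  -- eventually the count is small
  have h1 := Filter.eventually_lt_of_limsup_lt hdens
  have h2 : ∀ᶠ R : ℝ in Filter.atTop,
      ((X ∩ cube n (R + 2)).encard : ℝ≥0∞) / ENNReal.ofReal ((2 * (R + 2)) ^ n)
        < ENNReal.ofReal D :=
    (Filter.tendsto_atTop_add_const_right Filter.atTop (2 : ℝ) Filter.tendsto_id).eventually h1
  obtain ⟨R, hR, hR2, hR0⟩ := (h2.and ((avg_ratio n).and (Filter.eventually_gt_atTop 0))).exists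
  have hRp : 0 < (2 * (R + 2)) ^ n := by positivity
  -- lower bound
  have hlow : 2 * ENNReal.ofReal D * I * volume (cube n R)
      ≤ ∫⁻ w in cube n R, ∑' p : X, Ψ (w - p) := by
    rw [← setLIntegral_const]
    exact lintegral_mono fun w => (hcon w).le
  -- swap
  have hswap : ∫⁻ w in cube n R, ∑' p : X, Ψ (w - p)
      = ∑' p : X, ∫⁻ w in cube n R, Ψ (w - p) := by
    rw [lintegral_tsum]
    intro p
    exact (hΨ.comp (measurable_id.sub_const _)).aemeasurable
  have hterm : ∀ p : X, ∫⁻ w in cube n R, Ψ (w - p)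
      ≤ (cube n (R + 2)).indicator (fun _ => I) (p : E n) := by
    intro p
    by_cases hp : (p : E n) ∈ cube n (R + 2)
    · rw [Set.indicator_of_mem hp]
      refine (setLIntegral_le_lintegral _ _).trans (le_of_eq ?_)
      exact lintegral_sub_right_eq_self Ψ (p : E n)
    · rw [Set.indicator_of_notMem hp]
      refine le_of_eq ?_
      rw [setLIntegral_congr_fun (g := fun _ => 0) (avg_cube_measurable R)]
      · simp
      · intro w hw
        apply hsupp
        simp only [cube, Set.mem_setOf_eq, not_forall, not_le] at hp hw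
        obtain ⟨i, hi⟩ := hp
        have h3 := avg_abs_le_norm (w - (p : E n)) i
        have h4 := hw i
        have h5 : |(p : E n) i| ≤ |(w - p) i| + |w i| := by
          have : (p : E n) i = w i - (w - (p : E n)) i := by simp
          rw [this]
          have := abs_sub (w i) ((w - (p : E n)) i)
          simpa [add_comm] using this
        linarith
  have hfinite : (X ∩ cube n (R + 2)).Finite := hX _ (avg_cube_bounded _)
  have hsum : ∑' p : X, (cube n (R + 2)).indicator (fun _ => I) (p : E n)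
      = ((X ∩ cube n (R + 2)).encard : ℝ≥0∞) * I := by
    have e1 : ∑' p : X, (cube n (R + 2)).indicator (fun _ => I) (p : E n)
        = ∑' p : E n, (X ∩ cube n (R + 2)).indicator (fun _ => I) p := by
      rw [tsum_subtype X ((cube n (R + 2)).indicator (fun _ => I))]
      congr 1
      funext p
      rw [Set.indicator_indicator]
    rw [e1, ← tsum_subtype (X ∩ cube n (R + 2)) (fun _ => I), ENNReal.tsum_const]
    congr 1
  have hall : 2 * ENNReal.ofReal D * I * volume (cube n R)
      ≤ ((X ∩ cube n (R + 2)).encard : ℝ≥0∞) * I := by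
    rw [← hsum]
    refine hlow.trans ?_
    rw [hswap]
    exact ENNReal.tsum_le_tsum hterm
  have hN : ((X ∩ cube n (R + 2)).encard : ℝ≥0∞)
      < ENNReal.ofReal D * ENNReal.ofReal ((2 * (R + 2)) ^ n) := by
    rwa [ENNReal.div_lt_iff (Or.inl (by simpa using hRp)) (Or.inl ENNReal.ofReal_ne_top)] at hR
  rw [avg_cube_volume R hR0.le] at hall
  have h6 : 2 * ENNReal.ofReal D * I * ENNReal.ofReal ((2 * R) ^ n)
      = (2 * ENNReal.ofReal D * ENNReal.ofReal ((2 * R) ^ n)) * I := by ring
  rw [h6] at hall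
  have h7 := (ENNReal.mul_le_mul_iff_left hpos hfin).1 hall
  have h8 := h7.trans_lt hN
  rw [show (2 : ℝ≥0∞) = ENNReal.ofReal 2 by simp, ← ENNReal.ofReal_mul (by norm_num),
    ← ENNReal.ofReal_mul (by positivity), ← ENNReal.ofReal_mul (by positivity),
    ENNReal.ofReal_lt_ofReal_iff (by positivity)] at h8
  have e2 : 2 * (R + 2) = 2 * R + 4 := by ring
  rw [e2] at h8
  nlinarith

end P230
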