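import Vale.Agent.H14.CD.Defs

/-! Row B1: basic facts of the finite Bernoulli model. -/

namespace P230
open Finset

variable {ι : Type*} [Fintype ι] [DecidableEq ι]

theorem wt_nonneg (p : ι → ℝ) (h0 : ∀ c, 0 ≤ p c) (h1 : ∀ c, p c ≤ 1) (ω : Finset ι) :
    0 ≤ wt p ω := by
  unfold wt
  exact mul_nonneg (prod_nonneg fun c _ => h0 c) (prod_nonneg fun c _ => by linarith [h1 c])

theorem sum_wt (p : ι → ℝ) : ∑ ω : Finset ι, wt p ω = 1 := by
  have h := Finset.prod_add (fun c => p c) (fun c => 1 - p c) (univ : Finset ι)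
  have h1 : ∏ c : ι, (p c + (1 - p c)) = 1 := by
    apply prod_eq_one; intro c _; ring
  rw [h1, powerset_univ] at h
  rw [h]
  apply sum_congr rfl
  intro ω _
  rw [wt, compl_eq_univ_sdiff]

theorem Pr_nonneg (p : ι → ℝ) (h0 : ∀ c, 0 ≤ p c) (h1 : ∀ c, p c ≤ 1) (A : Finset ι → Prop) :
    0 ≤ Pr p A := by
  unfold Pr
  apply sum_nonneg
  intro ω _
  split_ifs
  · exact wt_nonneg p h0 h1 ω
  · exact le_rfl

theorem Pr_mono (p : ι → ℝ) (h0 : ∀ c, 0 ≤ p c) (h1 : ∀ c, p c ≤ 1) (A B : Finset ι → Prop)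
    (h : ∀ ω, A ω → B ω) : Pr p A ≤ Pr p B := by
  unfold Pr
  apply sum_le_sum
  intro ω _
  have := wt_nonneg p h0 h1 ω
  by_cases hA : A ω
  · simp [hA, h ω hA]
  · simp only [hA, if_false]
    split_ifs
    · exact this
    · exact le_rfl

theorem Pr_compl (p : ι → ℝ) (A : Finset ι → Prop) : Pr p (fun ω => ¬ A ω) = 1 - Pr p A := by
  have h : Pr p (fun ω => ¬ A ω) + Pr p A = 1 := by
    unfold Pr
    rw [← sum_add_distrib, ← sum_wt p]
    apply sum_congr rfl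
    intro ω _
    by_cases hA : A ω <;> simp [hA]
  linarith

theorem Pr_le_one (p : ι → ℝ) (h0 : ∀ c, 0 ≤ p c) (h1 : ∀ c, p c ≤ 1) (A : Finset ι → Prop) :
    Pr p A ≤ 1 := by
  have h := Pr_nonneg p h0 h1 (fun ω => ¬ A ω)
  rw [Pr_compl] at h
  linarith

theorem Pr_union {κ : Type*} (p : ι → ℝ) (h0 : ∀ c, 0 ≤ p c) (h1 : ∀ c, p c ≤ 1) (s : Finset κ)
    (A : κ → Finset ι → Prop) :
    Pr p (fun ω => ∃ k ∈ s, A k ω) ≤ ∑ k ∈ s, Pr p (A k) := by
  classical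
  unfold Pr
  rw [sum_comm]
  apply sum_le_sum
  intro ω _
  have hw := wt_nonneg p h0 h1 ω
  by_cases hA : ∃ k ∈ s, A k ω
  · rw [if_pos hA]
    obtain ⟨k, hk, hkA⟩ := hA
    have h2 : ∀ k ∈ s, (0:ℝ) ≤ (if A k ω then wt p ω else 0) := by
      intro k _
      split_ifs
      · exact hw
      · exact le_rfl
    refine le_trans (le_of_eq ?_) (single_le_sum h2 hk)
    simp [hkA]
  · rw [if_neg hA]
    apply sum_nonneg
    intro k _
    split_ifs
    · exact hw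
    · exact le_rfl

theorem pm_nonneg (m : ι → ℝ) (hm : ∀ c, 0 ≤ m c) (c : ι) : 0 ≤ pm m c := by
  unfold pm
  have : Real.exp (-(m c)) ≤ 1 := by
    rw [Real.exp_le_one_iff]; linarith [hm c]
  linarith

theorem pm_le_one (m : ι → ℝ) (c : ι) : pm m c ≤ 1 := by
  unfold pm
  linarith [Real.exp_pos (-(m c))]

theorem pm_le (m : ι → ℝ) (c : ι) : pm m c ≤ m c := by
  unfold pm
  linarith [Real.add_one_le_exp (-(m c))]

end P230
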