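import Vale.Agent.H14.CD.BernA

/-! Row B2: Harris (FKG) inequality. -/

namespace P230
open Finset

variable {ι : Type*} [Fintype ι] [DecidableEq ι]

theorem BernB_wt_eq (p : ι → ℝ) (ω : Finset ι) :
    wt p ω = ∏ c, if c ∈ ω then p c else 1 - p c := by
  rw [wt, ← prod_mul_prod_compl ω (fun c => if c ∈ ω then p c else 1 - p c)]
  congr 1
  · apply prod_congr rfl; intro c hc; rw [if_pos hc]
  · apply prod_congr rfl; intro c hc; rw [if_neg (mem_compl.mp hc)]

theorem harris (p : ι → ℝ) (h0 : ∀ c, 0 ≤ p c) (h1 : ∀ c, p c ≤ 1) (A B : Finset ι → Prop)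
    (hA : ∀ ω ω', ω ⊆ ω' → A ω → A ω') (hB : ∀ ω ω', ω ⊆ ω' → B ω → B ω') :
    Pr p A * Pr p B ≤ Pr p (fun ω => A ω ∧ B ω) := by
  classical
  have h := fkg (α := Finset ι) (β := ℝ) (f := fun ω => if A ω then 1 else 0)
    (g := fun ω => if B ω then 1 else 0) (μ := wt p)
    (fun w => wt_nonneg p h0 h1 w) ?_ ?_ ?_ ?_ ?_
  · rw [sum_wt, one_mul] at h
    refine le_trans (le_of_eq ?_) (le_trans h (le_of_eq ?_))
    · unfold Pr
      congr 1
      · apply sum_congr rfl; intro ω _; by_cases h1 : A ω <;> simp [h1]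
      · apply sum_congr rfl; intro ω _; by_cases h1 : B ω <;> simp [h1]
    · unfold Pr
      apply sum_congr rfl
      intro ω _
      by_cases h1 : A ω <;> by_cases h2 : B ω <;> simp [h1, h2]
  · intro w; dsimp only; split_ifs <;> simp
  · intro w; dsimp only; split_ifs <;> simp
  · intro w w' hw
    dsimp only
    by_cases h1 : A w
    · simp [h1, hA w w' hw h1]
    · simp only [h1, if_false]; split_ifs <;> norm_num
  · intro w w' hw
    dsimp only
    by_cases h1 : B w
    · simp [h1, hB w w' hw h1]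
    · simp only [h1, if_false]; split_ifs <;> norm_num
  · intro a b
    simp only [BernB_wt_eq]
    rw [← prod_mul_distrib, ← prod_mul_distrib]
    apply le_of_eq
    apply prod_congr rfl
    intro c _
    simp only [inf_eq_inter, sup_eq_union, mem_inter, mem_union]
    by_cases h1 : c ∈ a <;> by_cases h2 : c ∈ b <;> simp [h1, h2, mul_comm]

theorem harris_prod {κ : Type*} (p : ι → ℝ) (h0 : ∀ c, 0 ≤ p c) (h1 : ∀ c, p c ≤ 1)
    (s : Finset κ) (A : κ → Finset ι → Prop)
    (hA : ∀ k ∈ s, ∀ ω ω', ω ⊆ ω' → A k ω → A k ω') :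
    ∏ k ∈ s, Pr p (A k) ≤ Pr p (fun ω => ∀ k ∈ s, A k ω) := by
  classical
  induction s using Finset.induction_on with
  | empty =>
    have : Pr p (fun ω => ∀ k ∈ (∅ : Finset κ), A k ω) = 1 := by
      unfold Pr
      rw [← sum_wt p]
      apply sum_congr rfl
      intro ω _
      simp
    rw [prod_empty]; exact this.ge
  | insert i s hi ih =>
    rw [prod_insert hi]
    calc Pr p (A i) * ∏ j ∈ s, Pr p (A j) ≤ Pr p (A i) * Pr p (fun ω => ∀ k ∈ s, A k ω) :=
          mul_le_mul_of_nonneg_left (ih fun k hk => hA k (mem_insert_of_mem hk))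
            (Pr_nonneg p h0 h1 _)
      _ ≤ Pr p (fun ω => A i ω ∧ ∀ k ∈ s, A k ω) :=
          harris p h0 h1 _ _ (hA i (mem_insert_self i s))
            (fun ω ω' h hω k hk => hA k (mem_insert_of_mem hk) ω ω' h (hω k hk))
      _ ≤ _ := by
          apply Pr_mono p h0 h1
          rintro ω ⟨h2, h3⟩ k hk
          rcases mem_insert.mp hk with rfl | hk
          · exact h2
          · exact h3 k hk

end P230
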