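import Vale.Agent.H14.CD.BernB

/-! Row B3: hitting probabilities. -/

namespace P230
open Finset

variable {ι : Type*} [Fintype ι] [DecidableEq ι]

theorem Pr_not_hit (m : ι → ℝ) (Z : Finset ι) :
    Pr (pm m) (fun ω => ∀ c ∈ ω, c ∉ Z) = Real.exp (-∑ c ∈ Z, m c) := by
  classical
  have h1 : ∏ c, ((if c ∈ Z then 0 else pm m c) + (1 - pm m c)) = Real.exp (-∑ c ∈ Z, m c) := by
    rw [← sum_neg_distrib, Real.exp_sum]
    have h2 : ∀ c, ((if c ∈ Z then 0 else pm m c) + (1 - pm m c))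
        = if c ∈ Z then Real.exp (-(m c)) else 1 := by
      intro c
      unfold pm
      split_ifs <;> ring
    simp only [h2]
    rw [prod_ite_mem, univ_inter]
  rw [← h1, prod_add]
  unfold Pr
  rw [powerset_univ]
  refine sum_congr rfl fun ω _ => ?_
  by_cases h : ∀ c ∈ ω, c ∉ Z
  · rw [if_pos h]
    unfold wt
    rw [compl_eq_univ_sdiff]
    congr 1
    exact prod_congr rfl fun c hc => by rw [if_neg (h c hc)]
  · rw [if_neg h]
    push Not at h
    obtain ⟨c, hc, hcZ⟩ := h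
    rw [prod_eq_zero hc (by rw [if_pos hcZ]), zero_mul]

theorem Pr_hit (m : ι → ℝ) (Z : Finset ι) :
    Pr (pm m) (fun ω => ∃ c ∈ ω, c ∈ Z) = 1 - Real.exp (-∑ c ∈ Z, m c) := by
  rw [← Pr_not_hit, ← Pr_compl]
  congr 1
  funext ω
  simp

theorem hit_all {κ : Type*} (m : ι → ℝ) (hm : ∀ c, 0 ≤ m c) (I : Finset κ) (Z : κ → Finset ι)
    (a : κ → ℝ) (ha : ∀ i ∈ I, 0 ≤ a i)
    (h : ∀ i ∈ I, Real.exp (-(a i)) ≤ ∑ c ∈ Z i, m c) :
    Real.exp (-∑ i ∈ I, (a i + 1)) ≤ Pr (pm m) (fun ω => ∀ i ∈ I, ∃ c ∈ ω, c ∈ Z i) := by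
  refine le_trans ?_ (harris_prod (pm m) (pm_nonneg m hm) (pm_le_one m) I
    (fun i ω => ∃ c ∈ ω, c ∈ Z i) ?_)
  · rw [← sum_neg_distrib, Real.exp_sum]
    refine prod_le_prod (fun i _ => (Real.exp_pos _).le) fun i hi => ?_
    rw [Pr_hit]
    have h1 := h i hi
    have h2 := ha i hi
    set x := ∑ c ∈ Z i, m c
    set y := Real.exp (-(a i)) with hy
    have hy1 : y ≤ 1 := Real.exp_le_one_iff.2 (by linarith)
    have hy0 : 0 < y := Real.exp_pos _
    have e1 : Real.exp (-(a i + 1)) = y * Real.exp (-1) := by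
      rw [hy, ← Real.exp_add]; congr 1; ring
    have e2 : Real.exp (-x) ≤ Real.exp (-y) := Real.exp_le_exp.2 (by linarith)
    -- `exp (-y) ≤ 1 - y + y^2/2`, so `1 - exp(-y) ≥ y/2 ≥ y e^{-1}`
    have e3 : Real.exp (-y) ≤ 1 - y / 2 := by
      have h3 : 1 + y ≤ Real.exp y := by linarith [Real.add_one_le_exp y]
      have h4 : Real.exp (-y) ≤ 1 / (1 + y) := by
        rw [Real.exp_neg, ← one_div]
        exact one_div_le_one_div_of_le (by linarith) h3
      refine h4.trans ?_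
      rw [div_le_iff₀ (by linarith)]
      nlinarith
    have e4 : Real.exp (-1) ≤ 1 / 2 := by
      rw [Real.exp_neg, ← one_div]
      exact one_div_le_one_div_of_le (by norm_num) (by linarith [Real.add_one_le_exp (1 : ℝ)])
    rw [e1]
    nlinarith
  · intro i _ ω ω' hω ⟨c, hc, hcZ⟩
    exact ⟨c, hω hc, hcZ⟩

end P230
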