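import Vale.Agent.H14.CD.BernA
import Vale.Agent.H28.P230.Bern

/-! Row B4: independence of events with disjoint supports. -/

namespace P230
open Finset

variable {ι : Type*} [Fintype ι] [DecidableEq ι]

theorem BernD_wt_eq (p : ι → ℝ) (ω : Finset ι) :
    wt p ω = Vale.Agent.H28.P230.wt p ω := by
  unfold Vale.Agent.H28.P230.wt Vale.Agent.H28.P230.wtOn
  rw [wt, ← prod_mul_prod_compl ω (fun c => if c ∈ ω then p c else 1 - p c)]
  congr 1
  · apply prod_congr rfl; intro c hc; rw [if_pos hc]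
  · apply prod_congr rfl; intro c hc; rw [if_neg (mem_compl.mp hc)]

theorem BernD_Pr_eq (p : ι → ℝ) (A : Finset ι → Prop) :
    Pr p A = Vale.Agent.H28.P230.Pr p A := by
  unfold Pr Vale.Agent.H28.P230.Pr Vale.Agent.H28.P230.Ex
  apply sum_congr rfl
  intro ω _
  rw [BernD_wt_eq]
  by_cases h : A ω <;> simp [h]

/-- two events -/
theorem BernD_two (p : ι → ℝ) (C D : Finset ι) (hCD : Disjoint C D) (A B : Finset ι → Prop)
    (hA : ∀ ω ω', ω ∩ C = ω' ∩ C → (A ω ↔ A ω'))
    (hB : ∀ ω ω', ω ∩ D = ω' ∩ D → (B ω ↔ B ω')) :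
    Pr p (fun ω => A ω ∧ B ω) = Pr p A * Pr p B := by
  classical
  rw [BernD_Pr_eq, BernD_Pr_eq, BernD_Pr_eq]
  unfold Vale.Agent.H28.P230.Pr
  rw [← Vale.Agent.H28.P230.Ex_mul_of_disjoint p (A := C) (B := D) ?_ ?_ hCD]
  · refine congrArg _ ?_
    funext ω
    by_cases h1 : A ω <;> by_cases h2 : B ω <;> simp [h1, h2]
  · intro ω ω' h
    have := hA ω ω' h
    simp only [this]
  · intro ω ω' h
    have := hB ω ω' h
    simp only [this]

/-- two events -/
theorem indep_two (p : ι → ℝ) (D : Finset ι) (A B : Finset ι → Prop)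
    (hA : ∀ ω ω', ω ∩ D = ω' ∩ D → (A ω ↔ A ω'))
    (hB : ∀ ω ω', ω ∩ Dᶜ = ω' ∩ Dᶜ → (B ω ↔ B ω')) :
    Pr p (fun ω => A ω ∧ B ω) = Pr p A * Pr p B :=
  BernD_two p D Dᶜ disjoint_compl_right A B hA hB

/-- Events `A k` depending only on `ω ∩ D k` with pairwise disjoint `D k` are independent. -/
theorem indep_prod {κ : Type*} (p : ι → ℝ) (s : Finset κ) (D : κ → Finset ι)
    (hD : ∀ k ∈ s, ∀ l ∈ s, k ≠ l → Disjoint (D k) (D l)) (A : κ → Finset ι → Prop)
    (hA : ∀ k ∈ s, ∀ ω ω', ω ∩ D k = ω' ∩ D k → (A k ω ↔ A k ω')) :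
    Pr p (fun ω => ∀ k ∈ s, A k ω) = ∏ k ∈ s, Pr p (A k) := by
  classical
  induction s using Finset.induction_on with
  | empty =>
    rw [prod_empty]
    unfold Pr
    rw [← sum_wt p]
    apply sum_congr rfl
    intro ω _
    simp
  | insert i s hi ih =>
    rw [prod_insert hi, ← ih (fun k hk l hl => hD k (mem_insert_of_mem hk) l (mem_insert_of_mem hl))
      (fun k hk => hA k (mem_insert_of_mem hk))]
    rw [← indep_two p (D i) (A i) (fun ω => ∀ k ∈ s, A k ω) (hA i (mem_insert_self i s))]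
    · congr 1
      funext ω
      simp
    · intro ω ω' h
      have key : ∀ k ∈ s, ω ∩ D k = ω' ∩ D k := by
        intro k hk
        have hdis := hD i (mem_insert_self i s) k (mem_insert_of_mem hk)
          (fun h' => hi (h' ▸ hk))
        have hsub : D k ⊆ (D i)ᶜ := by
          intro x hx
          rw [mem_compl]
          exact fun h' => (Finset.disjoint_left.mp hdis) h' hx
        calc ω ∩ D k = (ω ∩ (D i)ᶜ) ∩ D k := by rw [inter_assoc, inter_eq_right.mpr hsub]
          _ = (ω' ∩ (D i)ᶜ) ∩ D k := by rw [h]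
          _ = ω' ∩ D k := by rw [inter_assoc, inter_eq_right.mpr hsub]
      constructor
      · intro h1 k hk
        exact (hA k (mem_insert_of_mem hk) ω ω' (key k hk)).mp (h1 k hk)
      · intro h1 k hk
        exact (hA k (mem_insert_of_mem hk) ω ω' (key k hk)).mpr (h1 k hk)

end P230
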