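import Vale.Agent.H14.CD.BernB
import Vale.Agent.H14.CD.BernD

/-! Row B5: correlation of two hitting events. -/

namespace P230
open Finset

variable {ι : Type*} [Fintype ι] [DecidableEq ι]

open Vale.Agent.H28.P230 in
/-- conditional probability of the hitting event given the open cells `T` in `H` -/
theorem BernE_cond {κ : Type*} (p : ι → ℝ) (h0 : ∀ c, 0 ≤ p c) (h1 : ∀ c, p c ≤ 1)
    (I : Finset κ) (Z : κ → Finset ι) (B : ℝ) (hB : 1 ≤ B)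
    (hI : ∀ c, 1 ≤ B * Pr p (fun ω => ∀ i ∈ I, c ∈ Z i → ∃ g ∈ ω, g ∈ Z i))
    (H T : Finset ι) :
    Pr p (fun ω => ∀ i ∈ I, ∃ g ∈ (ω \ H) ∪ T, g ∈ Z i) ≤
      B ^ T.card * Pr p (fun ω => ∀ i ∈ I, ∃ g ∈ ω, g ∈ Z i) := by
  classical
  set ET : Finset ι → Prop := fun ω => ∀ i ∈ I, Disjoint T (Z i) → ∃ g ∈ ω, g ∈ Z i with hET
  set G : ι → Finset ι → Prop := fun c ω => ∀ i ∈ I, c ∈ Z i → ∃ g ∈ ω, g ∈ Z i with hG
  have s1 : Pr p (fun ω => ∀ i ∈ I, ∃ g ∈ (ω \ H) ∪ T, g ∈ Z i) ≤ Pr p ET := by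
    apply Pr_mono p h0 h1
    intro ω hω i hi hd
    obtain ⟨g, hg, hgZ⟩ := hω i hi
    rcases mem_union.mp hg with hg | hg
    · exact ⟨g, (mem_sdiff.mp hg).1, hgZ⟩
    · exact absurd hgZ (Finset.disjoint_left.mp hd hg)
  have hETmono : ∀ ω ω', ω ⊆ ω' → ET ω → ET ω' := by
    intro ω ω' h hω i hi hd
    obtain ⟨g, hg, hgZ⟩ := hω i hi hd
    exact ⟨g, h hg, hgZ⟩
  have hGmono : ∀ c ω ω', ω ⊆ ω' → G c ω → G c ω' := by
    intro c ω ω' h hω i hi hd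
    obtain ⟨g, hg, hgZ⟩ := hω i hi hd
    exact ⟨g, h hg, hgZ⟩
  have s2 : Pr p ET * ∏ c ∈ T, Pr p (G c) ≤ Pr p (fun ω => ∀ i ∈ I, ∃ g ∈ ω, g ∈ Z i) := by
    calc Pr p ET * ∏ c ∈ T, Pr p (G c)
        ≤ Pr p ET * Pr p (fun ω => ∀ c ∈ T, G c ω) :=
          mul_le_mul_of_nonneg_left (harris_prod p h0 h1 T G (fun c _ => hGmono c))
            (Pr_nonneg p h0 h1 _)
      _ ≤ Pr p (fun ω => ET ω ∧ ∀ c ∈ T, G c ω) :=
          harris p h0 h1 _ _ hETmono (fun ω ω' h hω c hc => hGmono c ω ω' h (hω c hc))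
      _ ≤ _ := by
          apply Pr_mono p h0 h1
          rintro ω ⟨hω1, hω2⟩ i hi
          by_cases hd : Disjoint T (Z i)
          · exact hω1 i hi hd
          · rw [Finset.not_disjoint_iff] at hd
            obtain ⟨c, hcT, hcZ⟩ := hd
            exact hω2 c hcT i hi hcZ
  have s3 : 1 ≤ B ^ T.card * ∏ c ∈ T, Pr p (G c) := by
    rw [← prod_const, ← prod_mul_distrib]
    exact Finset.prod_le_prod (fun _ _ => zero_le_one) (fun c _ => hI c) |>.trans' (by simp)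
  have hPT : 0 ≤ Pr p ET := Pr_nonneg p h0 h1 _
  calc Pr p (fun ω => ∀ i ∈ I, ∃ g ∈ (ω \ H) ∪ T, g ∈ Z i) ≤ Pr p ET := s1
    _ = Pr p ET * 1 := (mul_one _).symm
    _ ≤ Pr p ET * (B ^ T.card * ∏ c ∈ T, Pr p (G c)) := mul_le_mul_of_nonneg_left s3 hPT
    _ = B ^ T.card * (Pr p ET * ∏ c ∈ T, Pr p (G c)) := by ring
    _ ≤ _ := mul_le_mul_of_nonneg_left s2 (pow_nonneg (by linarith) _)

open Classical in
theorem corr_le {κ κ' : Type*} (p : ι → ℝ) (h0 : ∀ c, 0 ≤ p c) (h1 : ∀ c, p c ≤ 1)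
    (I : Finset κ) (I' : Finset κ') (Z : κ → Finset ι) (Z' : κ' → Finset ι) (B : ℝ) (hB : 1 ≤ B)
    (hI : ∀ c, 1 ≤ B * Pr p (fun ω => ∀ i ∈ I, c ∈ Z i → ∃ g ∈ ω, g ∈ Z i))
    (hI' : ∀ c, 1 ≤ B * Pr p (fun ω => ∀ i ∈ I', c ∈ Z' i → ∃ g ∈ ω, g ∈ Z' i)) :
    Pr p (fun ω => (∀ i ∈ I, ∃ g ∈ ω, g ∈ Z i) ∧ (∀ i ∈ I', ∃ g ∈ ω, g ∈ Z' i)) ≤
      Pr p (fun ω => ∀ i ∈ I, ∃ g ∈ ω, g ∈ Z i) * Pr p (fun ω => ∀ i ∈ I', ∃ g ∈ ω, g ∈ Z' i) *
        Real.exp (B ^ 2 * ∑ c ∈ univ.filter (fun c => (∃ i ∈ I, c ∈ Z i) ∧ (∃ i ∈ I', c ∈ Z' i)),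
          p c) := by
  set H : Finset ι := univ.filter (fun c => (∃ i ∈ I, c ∈ Z i) ∧ (∃ i ∈ I', c ∈ Z' i)) with hH
  set A : Finset ι → Prop := fun ω => ∀ i ∈ I, ∃ g ∈ ω, g ∈ Z i with hA
  set A' : Finset ι → Prop := fun ω => ∀ i ∈ I', ∃ g ∈ ω, g ∈ Z' i with hA'
  have hPA : 0 ≤ Pr p A := Pr_nonneg p h0 h1 _
  have hPA' : 0 ≤ Pr p A' := Pr_nonneg p h0 h1 _
  -- splitting
  have hsplit : Pr p (fun ω => A ω ∧ A' ω) = ∑ T ∈ H.powerset, Vale.Agent.H28.P230.wtOn p H T *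
      Pr p (fun ω => A ((ω \ H) ∪ T) ∧ A' ((ω \ H) ∪ T)) := by
    rw [BernD_Pr_eq]
    unfold Vale.Agent.H28.P230.Pr
    rw [Vale.Agent.H28.P230.Ex_split p H]
    apply sum_congr rfl
    intro T _
    rw [BernD_Pr_eq]
    rfl
  -- independence given `T`
  have hind : ∀ T : Finset ι, Pr p (fun ω => A ((ω \ H) ∪ T) ∧ A' ((ω \ H) ∪ T)) =
      Pr p (fun ω => A ((ω \ H) ∪ T)) * Pr p (fun ω => A' ((ω \ H) ∪ T)) := by
    intro T
    apply BernD_two p (univ.filter (fun c => c ∉ H ∧ ∃ i ∈ I, c ∈ Z i))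
      (univ.filter (fun c => c ∉ H ∧ ∃ i ∈ I', c ∈ Z' i))
    · rw [Finset.disjoint_left]
      intro c hc hc'
      simp only [mem_filter, mem_univ, true_and] at hc hc'
      apply hc.1
      rw [hH]
      simp only [mem_filter, mem_univ, true_and]
      exact ⟨hc.2, hc'.2⟩
    · intro ω ω' h
      have key : ∀ g, ∀ i ∈ I, g ∈ Z i → (g ∈ (ω \ H) ∪ T ↔ g ∈ (ω' \ H) ∪ T) := by
        intro g i hi hg
        have h2 : g ∈ ω ∩ univ.filter (fun c => c ∉ H ∧ ∃ i ∈ I, c ∈ Z i) ↔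
            g ∈ ω' ∩ univ.filter (fun c => c ∉ H ∧ ∃ i ∈ I, c ∈ Z i) := by rw [h]
        simp only [mem_inter, mem_filter, mem_univ, true_and] at h2
        have h3 : ∃ i ∈ I, g ∈ Z i := ⟨i, hi, hg⟩
        simp only [mem_union, mem_sdiff]
        constructor
        · rintro (h4 | h4)
          · exact Or.inl ⟨(h2.mp ⟨h4.1, h4.2, h3⟩).1, h4.2⟩
          · exact Or.inr h4
        · rintro (h4 | h4)
          · exact Or.inl ⟨(h2.mpr ⟨h4.1, h4.2, h3⟩).1, h4.2⟩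
          · exact Or.inr h4
      constructor
      · intro h4 i hi
        obtain ⟨g, hg, hgZ⟩ := h4 i hi
        exact ⟨g, (key g i hi hgZ).mp hg, hgZ⟩
      · intro h4 i hi
        obtain ⟨g, hg, hgZ⟩ := h4 i hi
        exact ⟨g, (key g i hi hgZ).mpr hg, hgZ⟩
    · intro ω ω' h
      have key : ∀ g, ∀ i ∈ I', g ∈ Z' i → (g ∈ (ω \ H) ∪ T ↔ g ∈ (ω' \ H) ∪ T) := by
        intro g i hi hg
        have h2 : g ∈ ω ∩ univ.filter (fun c => c ∉ H ∧ ∃ i ∈ I', c ∈ Z' i) ↔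
            g ∈ ω' ∩ univ.filter (fun c => c ∉ H ∧ ∃ i ∈ I', c ∈ Z' i) := by rw [h]
        simp only [mem_inter, mem_filter, mem_univ, true_and] at h2
        have h3 : ∃ i ∈ I', g ∈ Z' i := ⟨i, hi, hg⟩
        simp only [mem_union, mem_sdiff]
        constructor
        · rintro (h4 | h4)
          · exact Or.inl ⟨(h2.mp ⟨h4.1, h4.2, h3⟩).1, h4.2⟩
          · exact Or.inr h4
        · rintro (h4 | h4)
          · exact Or.inl ⟨(h2.mpr ⟨h4.1, h4.2, h3⟩).1, h4.2⟩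
          · exact Or.inr h4
      constructor
      · intro h4 i hi
        obtain ⟨g, hg, hgZ⟩ := h4 i hi
        exact ⟨g, (key g i hi hgZ).mp hg, hgZ⟩
      · intro h4 i hi
        obtain ⟨g, hg, hgZ⟩ := h4 i hi
        exact ⟨g, (key g i hi hgZ).mpr hg, hgZ⟩
  rw [hsplit]
  have hw : ∀ T, 0 ≤ Vale.Agent.H28.P230.wtOn p H T := fun T =>
    Vale.Agent.H28.P230.wtOn_nonneg p (fun c => ⟨h0 c, h1 c⟩) H T
  calc ∑ T ∈ H.powerset, Vale.Agent.H28.P230.wtOn p H T *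
        Pr p (fun ω => A ((ω \ H) ∪ T) ∧ A' ((ω \ H) ∪ T))
      ≤ ∑ T ∈ H.powerset, Pr p A * Pr p A' *
          (Vale.Agent.H28.P230.wtOn p H T * (B ^ 2) ^ T.card) := by
        apply sum_le_sum
        intro T _
        rw [hind T]
        have e1 := BernE_cond p h0 h1 I Z B hB hI H T
        have e2 := BernE_cond p h0 h1 I' Z' B hB hI' H T
        calc Vale.Agent.H28.P230.wtOn p H T *
              (Pr p (fun ω => A ((ω \ H) ∪ T)) * Pr p (fun ω => A' ((ω \ H) ∪ T)))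
            ≤ Vale.Agent.H28.P230.wtOn p H T *
              ((B ^ T.card * Pr p A) * (B ^ T.card * Pr p A')) := by
              apply mul_le_mul_of_nonneg_left _ (hw T)
              exact mul_le_mul e1 e2 (Pr_nonneg p h0 h1 _)
                (mul_nonneg (pow_nonneg (by linarith) _) hPA)
          _ = _ := by rw [← pow_mul, mul_comm 2 T.card, pow_mul]; ring
    _ = Pr p A * Pr p A' * ∏ c ∈ H, (1 - p c + p c * B ^ 2) := by
        rw [← mul_sum, Vale.Agent.H28.P230.sum_wtOn_pow]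
    _ ≤ Pr p A * Pr p A' * Real.exp (B ^ 2 * ∑ c ∈ H, p c) := by
        apply mul_le_mul_of_nonneg_left _ (mul_nonneg hPA hPA')
        rw [mul_sum, Real.exp_sum]
        apply prod_le_prod
        · intro c _
          have := h1 c
          have h2 : 0 ≤ p c * B ^ 2 := mul_nonneg (h0 c) (by positivity)
          linarith
        · intro c _
          have := Real.add_one_le_exp (B ^ 2 * p c)
          have := h0 c
          nlinarith

end P230
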