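import Vale.Agent.H14.CD.BernA

/-! Row B6: second moment method. -/

namespace P230
open Finset

variable {ι : Type*} [Fintype ι] [DecidableEq ι]

open Classical in
theorem B6_Pr_eq (p : ι → ℝ) (A : Finset ι → Prop) :
    Pr p A = ∑ ω, wt p ω * (if A ω then 1 else 0) := by
  unfold Pr
  exact sum_congr rfl fun ω _ => by split_ifs <;> simp

theorem second_moment {κ : Type*} (p : ι → ℝ) (h0 : ∀ c, 0 ≤ p c) (h1 : ∀ c, p c ≤ 1)
    (J : Finset κ) (hJ : J.Nonempty) (F : κ → Finset ι → Prop) (q R : ℝ) (hq : 0 < q) (hR : 0 ≤ R)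
    (hF : ∀ j ∈ J, q ≤ Pr p (F j))
    (hFF : ∀ i ∈ J, ∀ j ∈ J, i ≠ j →
      Pr p (fun ω => F i ω ∧ F j ω) ≤ R * (Pr p (F i) * Pr p (F j))) :
    1 / (R + 1 / (q * J.card)) ≤ Pr p (fun ω => ∃ j ∈ J, F j ω) := by
  classical
  have hw : ∀ ω, 0 ≤ wt p ω := wt_nonneg p h0 h1
  set a : κ → ℝ := fun j => Pr p (F j) with ha
  have ha0 : ∀ j ∈ J, 0 < a j := fun j hj => lt_of_lt_of_le hq (hF j hj)
  set g : κ → Finset ι → ℝ := fun j ω => if F j ω then 1 else 0 with hg
  have hg0 : ∀ j ω, 0 ≤ g j ω := fun j ω => by rw [hg]; simp only; split_ifs <;> norm_num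
  have hg1 : ∀ j ω, g j ω * g j ω = g j ω := fun j ω => by rw [hg]; simp only; split_ifs <;> norm_num
  have hga : ∀ j, ∑ ω, wt p ω * g j ω = a j := fun j => (B6_Pr_eq p (F j)).symm
  set X : Finset ι → ℝ := fun ω => ∑ j ∈ J, g j ω / a j with hX
  set I : Finset ι → ℝ := fun ω => if ∃ j ∈ J, F j ω then 1 else 0 with hI
  have hPI : Pr p (fun ω => ∃ j ∈ J, F j ω) = ∑ ω, wt p ω * I ω := by
    rw [B6_Pr_eq p (fun ω => ∃ j ∈ J, F j ω)]
    refine sum_congr rfl fun ω _ => ?_
    congr 1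
    rw [hI]
    simp only
    by_cases h : ∃ j ∈ J, F j ω
    · rw [if_pos h, if_pos h]
    · rw [if_neg h, if_neg h]
  have hXI : ∀ ω, X ω * I ω = X ω := by
    intro ω
    by_cases h : ∃ j ∈ J, F j ω
    · have : I ω = 1 := by rw [hI]; simp only; rw [if_pos h]
      rw [this, mul_one]
    · have h2 : X ω = 0 := by
        rw [hX]
        refine sum_eq_zero fun j hj => ?_
        have : g j ω = 0 := by
          rw [hg]; simp only
          rw [if_neg]
          exact fun hh => h ⟨j, hj, hh⟩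
        rw [this, zero_div]
      rw [h2, zero_mul]
  have hII : ∀ ω, I ω ^ 2 = I ω := fun ω => by rw [hI]; simp only; split_ifs <;> norm_num
  have hJ0 : (0 : ℝ) < J.card := by exact_mod_cast hJ.card_pos
  have hEX : ∑ ω, wt p ω * X ω = J.card := by
    have e1 : ∀ ω, wt p ω * X ω = ∑ j ∈ J, (wt p ω * g j ω) / a j := by
      intro ω
      rw [hX]; simp only
      rw [mul_sum]
      exact sum_congr rfl fun j _ => by ring
    simp only [e1]
    rw [sum_comm]
    have e2 : ∀ j ∈ J, ∑ ω, (wt p ω * g j ω) / a j = 1 := by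
      intro j hj
      rw [← sum_div, hga, div_self (ha0 j hj).ne']
    rw [sum_congr rfl e2]
    simp
  have hEX2 : ∑ ω, wt p ω * X ω ^ 2 ≤ J.card / q + R * J.card ^ 2 := by
    have e1 : ∀ ω, wt p ω * X ω ^ 2
        = ∑ i ∈ J, ∑ j ∈ J, (wt p ω * (g i ω * g j ω)) / (a i * a j) := by
      intro ω
      rw [hX]; simp only
      rw [sq, sum_mul_sum, mul_sum]
      refine sum_congr rfl fun i _ => ?_
      rw [mul_sum]
      exact sum_congr rfl fun j _ => by rw [div_mul_div_comm]; ring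
    simp only [e1]
    rw [sum_comm]
    have e2 : ∀ i ∈ J, ∑ ω, ∑ j ∈ J, (wt p ω * (g i ω * g j ω)) / (a i * a j)
        ≤ 1 / q + R * J.card := by
      intro i hi
      rw [sum_comm, ← add_sum_erase J _ hi]
      refine add_le_add ?_ ?_
      · have : ∑ ω, wt p ω * (g i ω * g i ω) / (a i * a i) = 1 / a i := by
          rw [← sum_div]
          simp only [hg1]
          rw [hga]
          field_simp [(ha0 i hi).ne']
        rw [this]
        exact one_div_le_one_div_of_le hq (hF i hi)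
      · have : ∀ j ∈ J.erase i, ∑ ω, wt p ω * (g i ω * g j ω) / (a i * a j) ≤ R := by
          intro j hj
          rw [mem_erase] at hj
          rw [← sum_div, div_le_iff₀ (mul_pos (ha0 i hi) (ha0 j hj.2))]
          refine le_trans (le_of_eq ?_) (hFF i hi j hj.2 (Ne.symm hj.1))
          rw [B6_Pr_eq p (fun ω => F i ω ∧ F j ω)]
          refine sum_congr rfl fun ω _ => ?_
          congr 1
          rw [hg]
          by_cases h1 : F i ω <;> by_cases h2 : F j ω <;> simp [h1, h2]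
        refine (sum_le_sum this).trans ?_
        rw [sum_const, nsmul_eq_mul, mul_comm]
        refine mul_le_mul_of_nonneg_left ?_ hR
        exact_mod_cast card_le_card (erase_subset _ _)
    refine (sum_le_sum e2).trans (le_of_eq ?_)
    rw [sum_const, nsmul_eq_mul]
    ring
  have hCS : (J.card : ℝ) ^ 2 ≤ (J.card / q + R * J.card ^ 2) * ∑ ω, wt p ω * I ω := by
    have hI0 : 0 ≤ ∑ ω, wt p ω * I ω := sum_nonneg fun ω _ => mul_nonneg (hw ω) (by
      rw [hI]; simp only; split_ifs <;> norm_num)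
    refine le_trans ?_ (mul_le_mul_of_nonneg_right hEX2 hI0)
    rw [← hEX]
    have h3 : ∑ ω, wt p ω * X ω = ∑ ω, (Real.sqrt (wt p ω) * X ω) * (Real.sqrt (wt p ω) * I ω) := by
      refine sum_congr rfl fun ω _ => ?_
      have := Real.mul_self_sqrt (hw ω)
      calc wt p ω * X ω = (Real.sqrt (wt p ω) * Real.sqrt (wt p ω)) * (X ω * I ω) := by
            rw [hXI, this]
        _ = _ := by ring
    rw [h3]
    refine (sum_mul_sq_le_sq_mul_sq _ _ _).trans (le_of_eq ?_)
    congr 1
    · exact sum_congr rfl fun ω _ => by rw [mul_pow, Real.sq_sqrt (hw ω)]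
    · exact sum_congr rfl fun ω _ => by rw [mul_pow, Real.sq_sqrt (hw ω), hII]
  rw [hPI]
  have h4 : 0 < R + 1 / (q * J.card) := by positivity
  rw [div_le_iff₀ h4]
  have h5 : (J.card : ℝ) / q + R * J.card ^ 2 = J.card ^ 2 * (R + 1 / (q * J.card)) := by
    field_simp
    ring
  rw [h5] at hCS
  have h6 : (0 : ℝ) < J.card ^ 2 := by positivity
  by_contra hcon
  push Not at hcon
  have : (J.card : ℝ) ^ 2 * (R + 1 / (q * J.card)) * ∑ ω, wt p ω * I ω < J.card ^ 2 * 1 := by
    rw [mul_assoc, mul_comm (R + 1 / (q * J.card))]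
    exact mul_lt_mul_of_pos_left hcon h6
  linarith

end P230
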