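import Vale.Agent.H14.CD.Defs

/-! Row G0: rotation invariance of cap volumes, measurability, positivity. -/

namespace P230
open MeasureTheory Metric
open scoped RealInnerProductSpace ENNReal

theorem measurableSet_cap {n : ℕ} (u : E n) (t : ℝ) : MeasurableSet (cap u t) := by
  have h1 : MeasurableSet {g : E n | ‖g‖ ≤ 1} :=
    measurableSet_le measurable_norm measurable_const
  have h2 : MeasurableSet {g : E n | t < ⟪u, g⟫} :=
    measurableSet_lt measurable_const (by fun_prop)
  exact h1.inter h2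

theorem volume_cap_lt_top {n : ℕ} (u : E n) (t : ℝ) : volume (cap u t) < ⊤ := by
  refine lt_of_le_of_lt (measure_mono ?_) (measure_closedBall_lt_top (x := (0 : E n)) (r := 1))
  intro g hg
  simpa using hg.1

theorem volume_cap_pos {n : ℕ} (u : E n) (hu : ‖u‖ = 1) (t : ℝ) (ht : t < 1) :
    0 < volume (cap u t) := by
  -- the open set {‖g‖ < 1, t < ⟪u, g⟫} is nonempty
  have hopen : IsOpen {g : E n | ‖g‖ < 1 ∧ t < ⟪u, g⟫} := by
    have h1 : IsOpen {g : E n | ‖g‖ < 1} := isOpen_lt continuous_norm continuous_const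
    have h2 : IsOpen {g : E n | t < ⟪u, g⟫} :=
      isOpen_lt continuous_const (continuous_const.inner continuous_id)
    exact h1.inter h2
  have hne : {g : E n | ‖g‖ < 1 ∧ t < ⟪u, g⟫}.Nonempty := by
    obtain ⟨s, hs1, hs2⟩ := exists_between (show max t 0 < 1 by simp [ht])
    have hs0 : 0 < s := lt_of_le_of_lt (le_max_right _ _) hs1
    have hst : t < s := lt_of_le_of_lt (le_max_left _ _) hs1
    refine ⟨s • u, ?_, ?_⟩
    · rw [norm_smul, hu, Real.norm_of_nonneg hs0.le]; linarith
    · rw [inner_smul_right, real_inner_self_eq_norm_sq, hu]; linarith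
  refine lt_of_lt_of_le (hopen.measure_pos volume hne) (measure_mono ?_)
  intro g hg
  exact ⟨hg.1.le, hg.2⟩

/-- the volume of a cap does not depend on its direction -/
theorem volume_cap_eq {n : ℕ} (u v : E n) (hu : ‖u‖ = 1) (hv : ‖v‖ = 1) (t : ℝ) :
    volume (cap u t) = volume (cap v t) := by
  set L := (Submodule.span ℝ {u - v})ᗮ.reflection with hL
  have hLu : L u = v := Submodule.reflection_sub (hu.trans hv.symm)
  have hpre : L ⁻¹' (cap v t) = cap u t := by
    ext g
    simp only [cap, Set.mem_preimage, Set.mem_ofPred_eq, LinearIsometryEquiv.norm_map]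
    rw [← hLu, LinearIsometryEquiv.inner_map_map]
  rw [← hpre]
  exact (LinearIsometryEquiv.measurePreserving L).measure_preimage
    (measurableSet_cap v t).nullMeasurableSet

/-- scaling: for `y ≠ 0` the cap `{g | t < ⟪y, g⟫}` is the cap of the unit vector -/
theorem cap_smul {n : ℕ} (y : E n) (hy : y ≠ 0) (t : ℝ) :
    cap y t = cap (‖y‖⁻¹ • y) (t / ‖y‖) := by
  have hy0 : 0 < ‖y‖ := norm_pos_iff.mpr hy
  ext g
  simp only [cap, Set.mem_ofPred_eq, inner_smul_left, conj_trivial]
  rw [div_lt_iff₀ hy0, mul_comm (‖y‖⁻¹) _, mul_assoc, inv_mul_cancel₀ hy0.ne', mul_one]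

end P230
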