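import Vale.Agent.H14.CD.Defs

/-! Row G1: comparison of cap volumes via homotheties. -/

namespace P230
open MeasureTheory Metric
open scoped RealInnerProductSpace ENNReal

/-- the homothety `x ↦ u + b (x - u)` maps `cap u t` into `cap u t'`, `b = (1-t')/(1-t)` -/
theorem cap_lower {n : ℕ} (u : E n) (hu : ‖u‖ = 1) (t t' : ℝ) (htt : t ≤ t') (ht' : t' ≤ 1)
    (ht : t < 1) :
    ENNReal.ofReal (((1 - t') / (1 - t)) ^ n) * volume (cap u t) ≤ volume (cap u t') := by
  rcases Nat.eq_zero_or_pos n with hn | hn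
  · subst hn
    exfalso
    have : u = 0 := Subsingleton.elim _ _
    rw [this, norm_zero] at hu
    exact zero_ne_one hu
  rcases eq_or_lt_of_le ht' with h1 | ht'
  · rw [h1, sub_self, zero_div, zero_pow hn.ne', ENNReal.ofReal_zero, zero_mul]
    exact zero_le
  set b : ℝ := (1 - t') / (1 - t) with hb
  have h1 : 0 < 1 - t := by linarith
  have hb0 : 0 < b := div_pos (by linarith) h1
  have hb1 : b ≤ 1 := by rw [hb, div_le_one h1]; linarith
  have key := Measure.addHaar_image_homothety (volume : Measure (E n)) u b (cap u t)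
  rw [finrank_euclideanSpace_fin, abs_of_pos (pow_pos hb0 n)] at key
  rw [← key]
  apply measure_mono
  rintro _ ⟨g, ⟨hg1, hg2⟩, rfl⟩
  have hform : AffineMap.homothety u b g = b • g + (1 - b) • u := by
    rw [AffineMap.homothety_apply, vsub_eq_sub, vadd_eq_add, smul_sub, sub_smul, one_smul]
    abel
  refine ⟨?_, ?_⟩
  · rw [hform]
    calc ‖b • g + (1 - b) • u‖ ≤ ‖b • g‖ + ‖(1 - b) • u‖ := norm_add_le _ _
      _ = b * ‖g‖ + (1 - b) * ‖u‖ := by
          rw [norm_smul, norm_smul, Real.norm_of_nonneg hb0.le, Real.norm_of_nonneg (by linarith)]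
      _ ≤ b * 1 + (1 - b) * 1 := by rw [hu]; gcongr
      _ = 1 := by ring
  · rw [hform, inner_add_right, inner_smul_right, inner_smul_right, real_inner_self_eq_norm_sq, hu]
    have h2 : b * (1 - t) = 1 - t' := by rw [hb]; field_simp
    nlinarith

open scoped Pointwise in
/-- the homothety `x ↦ b x - (b t' - t) u`, `b^2 = (1-t^2)/(1-t'^2)`, maps `cap u t'` into
`cap u t` -/
theorem cap_upper {n : ℕ} (u : E n) (hu : ‖u‖ = 1) (t t' : ℝ) (h0 : 0 ≤ t) (htt : t ≤ t')
    (ht' : t' < 1) :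
    ENNReal.ofReal ((Real.sqrt ((1 - t ^ 2) / (1 - t' ^ 2))) ^ n) * volume (cap u t')
      ≤ volume (cap u t) := by
  have h1 : 0 < 1 - t ^ 2 := by nlinarith
  have h1' : 0 < 1 - t' ^ 2 := by nlinarith
  set μ : ℝ := Real.sqrt ((1 - t ^ 2) / (1 - t' ^ 2)) with hμ
  have hμsq : μ ^ 2 = (1 - t ^ 2) / (1 - t' ^ 2) := Real.sq_sqrt (by positivity)
  have hμ0 : 0 < μ := Real.sqrt_pos.mpr (by positivity)
  have hμ1 : 1 ≤ μ := by
    rw [hμ, Real.one_le_sqrt, le_div_iff₀ h1']; nlinarith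
  have hμt : t ≤ μ * t' := by nlinarith
  set v : E n := -((μ * t' - t) • u) with hv
  have hsub : v +ᵥ (μ • cap u t') ⊆ cap u t := by
    rintro _ ⟨_, ⟨x, ⟨hx1, hx2⟩, rfl⟩, rfl⟩
    have hinner : ⟪u, v +ᵥ (μ • x)⟫ = μ * ⟪u, x⟫ - (μ * t' - t) := by
      rw [vadd_eq_add, inner_add_right, hv, inner_neg_right, inner_smul_right, inner_smul_right,
        real_inner_self_eq_norm_sq, hu]; ring
    refine ⟨?_, ?_⟩
    · have hsq : ‖v +ᵥ (μ • x)‖ ^ 2 ≤ 1 := by
        have e1 : v +ᵥ (μ • x) = μ • x - (μ * t' - t) • u := by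
          rw [vadd_eq_add, hv]; abel
        rw [e1, norm_sub_sq_real, norm_smul, norm_smul, hu, inner_smul_left, inner_smul_right,
          real_inner_comm, Real.norm_of_nonneg hμ0.le, Real.norm_of_nonneg (by linarith)]
        simp only [conj_trivial]
        have hx1' : ‖x‖ ^ 2 ≤ 1 := by nlinarith [norm_nonneg x]
        have hμ2 : μ ^ 2 * (1 - t' ^ 2) = 1 - t ^ 2 := by rw [hμsq]; field_simp
        have h5 : μ ^ 2 * ‖x‖ ^ 2 ≤ μ ^ 2 * 1 := by gcongr
        have h6 : 0 ≤ μ * (μ * t' - t) := mul_nonneg hμ0.le (by linarith)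
        have h7 : (μ * (μ * t' - t)) * t' ≤ (μ * (μ * t' - t)) * ⟪u, x⟫ :=
          mul_le_mul_of_nonneg_left hx2.le h6
        nlinarith
      have := abs_le_of_sq_le_sq' (a := ‖v +ᵥ (μ • x)‖) (b := 1) (by simpa using hsq) (by norm_num)
      exact this.2
    · show t < ⟪u, v +ᵥ (μ • x)⟫
      rw [hinner]
      have : μ * t' < μ * ⟪u, x⟫ := mul_lt_mul_of_pos_left hx2 hμ0
      linarith
  have key : volume (v +ᵥ (μ • cap u t')) = ENNReal.ofReal (μ ^ n) * volume (cap u t') := by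
    rw [measure_vadd, Measure.addHaar_smul, finrank_euclideanSpace_fin,
      abs_of_pos (pow_pos hμ0 n)]
  rw [← key]; exact measure_mono hsub

end P230
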