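import Vale.Agent.H14.CD.CapA
import Vale.Agent.H14.CD.CapB

/-! Row G3.1 -/

namespace P230
open MeasureTheory Metric Finset Filter
open scoped RealInnerProductSpace ENNReal

theorem CapM1_cap_anti {n : ℕ} (u : E n) {t t' : ℝ} (h : t ≤ t') : cap u t' ⊆ cap u t :=
  fun _ hg => ⟨hg.1, lt_of_le_of_lt h hg.2⟩

theorem CapM1_cap_zero {n : ℕ} (t : ℝ) (ht : 0 ≤ t) : cap (0 : E n) t = ∅ := by
  ext g
  simp only [cap, Set.mem_ofPred_eq, inner_zero_left, Set.mem_empty_iff_false, iff_false,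
    not_and, not_lt]
  intro _; exact ht

theorem CapM1_vol {n : ℕ} (y u : E n) (hu : ‖u‖ = 1) (hy : y ≠ 0) (t : ℝ) :
    volume (cap y t) = volume (cap u (t / ‖y‖)) := by
  rw [cap_smul y hy]
  apply volume_cap_eq _ _ _ hu
  rw [norm_smul, norm_inv, norm_norm, inv_mul_cancel₀ (norm_ne_zero_iff.mpr hy)]

theorem CapM1_basic {n : ℕ} (y u : E n) (hu : ‖u‖ = 1) (hy : ‖y‖ ≤ 1) {t : ℝ}
    (ht : 0 ≤ t) : volume (cap y t) ≤ volume (cap u t) := by
  by_cases h0 : y = 0
  · rw [h0, CapM1_cap_zero t ht]; simp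
  · rw [CapM1_vol y u hu h0]
    apply measure_mono
    apply CapM1_cap_anti
    rw [le_div_iff₀ (norm_pos_iff.mpr h0)]
    nlinarith [norm_pos_iff.mpr h0]

theorem CapM1_one_sub_pow {x : ℝ} (hx0 : 0 ≤ x) (hx : x ≤ 1 / 2) (n : ℕ) :
    Real.exp (-(2 * n * x)) ≤ (1 - x) ^ n := by
  have h1 : Real.exp (-(2 * x)) ≤ 1 - x := by
    have h2 : 1 + 2 * x ≤ Real.exp (2 * x) := by linarith [Real.add_one_le_exp (2 * x)]
    rw [Real.exp_neg, inv_le_comm₀ (Real.exp_pos _) (by linarith)]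
    calc (1 - x)⁻¹ ≤ 1 + 2 * x := by
          rw [inv_le_comm₀ (by linarith) (by linarith), inv_le_iff_one_le_mul₀ (by linarith)]
          nlinarith
      _ ≤ _ := h2
  calc Real.exp (-(2 * n * x)) = (Real.exp (-(2 * x))) ^ n := by
        rw [← Real.exp_nat_mul]; ring_nf
    _ ≤ (1 - x) ^ n := pow_le_pow_left₀ (Real.exp_pos _).le h1 n

/-- comparison of two thresholds -/
theorem CapM1_threshold {n : ℕ} (u : E n) (hu : ‖u‖ = 1) {t t' : ℝ} (ht : t ≤ t')
    (ht' : t' < 1) (hn : (t' - t) / (1 - t) ≤ 1 / 2) :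
    volume (cap u t) ≤
      ENNReal.ofReal (Real.exp (2 * n * ((t' - t) / (1 - t)))) * volume (cap u t') := by
  have h := cap_lower u hu t t' ht ht'.le (by linarith)
  have h1 : 0 < 1 - t := by linarith
  have h2 : Real.exp (-(2 * n * ((t' - t) / (1 - t)))) ≤ ((1 - t') / (1 - t)) ^ n := by
    have h3 : (1 - t') / (1 - t) = 1 - (t' - t) / (1 - t) := by field_simp; ring
    rw [h3]
    exact CapM1_one_sub_pow (div_nonneg (by linarith) h1.le) hn n
  calc volume (cap u t)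
      = ENNReal.ofReal (Real.exp (2 * n * ((t' - t) / (1 - t)))) *
          (ENNReal.ofReal (Real.exp (-(2 * n * ((t' - t) / (1 - t))))) * volume (cap u t)) := by
        rw [← mul_assoc, ← ENNReal.ofReal_mul (Real.exp_pos _).le, ← Real.exp_add, add_neg_cancel,
          Real.exp_zero, ENNReal.ofReal_one, one_mul]
    _ ≤ ENNReal.ofReal (Real.exp (2 * n * ((t' - t) / (1 - t)))) *
          (ENNReal.ofReal (((1 - t') / (1 - t)) ^ n) * volume (cap u t)) := by gcongr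
    _ ≤ _ := by gcongr

/-- (M1) estimate: `vol cap_y (a - δ) ≤ 2 vol cap_u (a)`, `‖y‖ ≤ 1`, `δ = n^{-2}`. -/
theorem capM1 : ∀ᶠ n : ℕ in atTop, ∀ u y : E n, ‖u‖ = 1 → ‖y‖ ≤ 1 →
    volume (cap y (aa - dl n)) ≤ 2 * volume (cap u aa) := by
  filter_upwards [eventually_ge_atTop 100000] with n hn u y hu hy
  have hn' : (100000 : ℝ) ≤ n := by exact_mod_cast hn
  have hn0 : (0 : ℝ) < n := by linarith
  have hd0 : 0 < dl n := by unfold dl; positivity
  have hnd : (n : ℝ) * dl n = 1 / n := by unfold dl; field_simp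
  have hnd1 : (n : ℝ) * dl n ≤ 1 / 100000 := by
    rw [hnd]; gcongr
  have hd1 : dl n ≤ 1 / 100000 := by nlinarith
  have haa : aa = 9999 / 10000 := rfl
  have h1 := CapM1_basic y u hu hy (t := aa - dl n) (by rw [haa]; linarith)
  refine le_trans h1 ?_
  have hden : (1 : ℝ) / 10000 ≤ 1 - (aa - dl n) := by rw [haa]; linarith
  have hx : (aa - (aa - dl n)) / (1 - (aa - dl n)) ≤ 10000 * dl n := by
    rw [div_le_iff₀ (by linarith)]
    nlinarith
  have h2 := CapM1_threshold u hu (t := aa - dl n) (t' := aa) (by linarith)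
    (by rw [haa]; norm_num) (by linarith)
  refine le_trans h2 ?_
  gcongr
  rw [show (2 : ℝ≥0∞) = ENNReal.ofReal 2 by simp]
  apply ENNReal.ofReal_le_ofReal
  have h3 : 2 * (n : ℝ) * ((aa - (aa - dl n)) / (1 - (aa - dl n))) ≤ 1 / 5 := by
    calc 2 * (n : ℝ) * ((aa - (aa - dl n)) / (1 - (aa - dl n)))
        ≤ 2 * (n : ℝ) * (10000 * dl n) := by gcongr
      _ = 20000 * (n * dl n) := by ring
      _ ≤ 20000 * (1 / 100000) := by gcongr
      _ = 1 / 5 := by norm_num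
  calc Real.exp (2 * n * ((aa - (aa - dl n)) / (1 - (aa - dl n)))) ≤ Real.exp (1 / 5) :=
        Real.exp_le_exp.mpr h3
    _ ≤ 2 := by
        have h4 := Real.add_one_le_exp (-(1 / 5 : ℝ))
        have h5 : Real.exp (1 / 5) * Real.exp (-(1 / 5)) = 1 := by
          rw [← Real.exp_add]; simp
        nlinarith [Real.exp_pos (1 / 5 : ℝ)]

end P230
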