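import Vale.Agent.H14.CD.CapA
import Vale.Agent.H14.CD.CapB

/-! Row G3.2 -/

namespace P230
open MeasureTheory Metric Finset Filter
open scoped RealInnerProductSpace ENNReal

theorem CapM2_vol {n : ℕ} (y u : E n) (hu : ‖u‖ = 1) (hy : y ≠ 0) (t : ℝ) :
    volume (cap y t) = volume (cap u (t / ‖y‖)) := by
  rw [cap_smul y hy]
  apply volume_cap_eq _ _ _ hu
  rw [norm_smul, norm_inv, norm_norm, inv_mul_cancel₀ (norm_ne_zero_iff.mpr hy)]

theorem CapM2_one_sub_pow {x : ℝ} (hx0 : 0 ≤ x) (hx : x ≤ 1 / 2) (n : ℕ) :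
    Real.exp (-(2 * n * x)) ≤ (1 - x) ^ n := by
  have h1 : Real.exp (-(2 * x)) ≤ 1 - x := by
    have h2 : 1 + 2 * x ≤ Real.exp (2 * x) := by linarith [Real.add_one_le_exp (2 * x)]
    rw [Real.exp_neg, inv_le_comm₀ (Real.exp_pos _) (by linarith)]
    calc (1 - x)⁻¹ ≤ 1 + 2 * x := by
          rw [inv_le_comm₀ (by linarith) (by linarith), inv_le_iff_one_le_mul₀ (by linarith)]
          nlinarith
      _ ≤ _ := h2
  calc Real.exp (-(2 * n * x)) = (Real.exp (-(2 * x))) ^ n := by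
        rw [← Real.exp_nat_mul]; ring_nf
    _ ≤ (1 - x) ^ n := pow_le_pow_left₀ (Real.exp_pos _).le h1 n

theorem CapM2_basic {n : ℕ} (y u : E n) (hu : ‖u‖ = 1) {a s r : ℝ} (ha0 : 0 ≤ a)
    (ha1 : a < 1) (hs : 0 ≤ s) (hs1 : s < 1) (hr : 0 ≤ r) (hy : 1 - s ≤ ‖y‖)
    (hsr : s + r ≤ (1 - a) / 2) :
    ENNReal.ofReal (Real.exp (-(2 * n * ((s + r) / (1 - a))))) * volume (cap u a) ≤
      volume (cap y (a + r)) := by
  have hy0 : y ≠ 0 := by
    intro h; rw [h, norm_zero] at hy; linarith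
  have h1a : 0 < 1 - a := by linarith
  rw [CapM2_vol y u hu hy0]
  set t' : ℝ := (a + r) / (1 - s) with ht'
  have h1s : 0 < 1 - s := by linarith
  have ht'1 : t' < 1 := by
    rw [ht', div_lt_one h1s]; linarith
  have hat' : a ≤ t' := by
    rw [ht', le_div_iff₀ h1s]; nlinarith
  have h2 : cap u t' ⊆ cap u ((a + r) / ‖y‖) := by
    intro g hg
    refine ⟨hg.1, lt_of_le_of_lt ?_ hg.2⟩
    rw [ht']
    gcongr
  refine le_trans ?_ (measure_mono h2)
  refine le_trans ?_ (cap_lower u hu a t' hat' ht'1.le ha1)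
  gcongr
  have h3 : 1 - (s + r) / (1 - a) ≤ (1 - t') / (1 - a) := by
    rw [le_div_iff₀ h1a, sub_mul, one_mul, div_mul_cancel₀ _ h1a.ne']
    have : t' * (1 - s) = a + r := by rw [ht']; field_simp
    nlinarith
  have h4 : (s + r) / (1 - a) ≤ 1 / 2 := by
    rw [div_le_iff₀ h1a]; linarith
  refine le_trans (CapM2_one_sub_pow (by positivity) h4 n) ?_
  exact pow_le_pow_left₀ (by linarith) h3 n

theorem CapM2_r1 : Tendsto (fun n : ℕ => r1 n) atTop (nhds 0) := by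
  unfold r1
  exact (tendsto_rpow_neg_atTop (by norm_num)).comp tendsto_natCast_atTop_atTop

theorem CapM2_log : Tendsto (fun n : ℕ => Real.log n / n) atTop (nhds 0) := by
  have h := Real.isLittleO_log_id_atTop.tendsto_div_nhds_zero
  exact h.comp tendsto_natCast_atTop_atTop

/-- (M2) estimate -/
theorem capM2 : ∀ᶠ n : ℕ in atTop, ∀ (u y : E n) (k : ℕ) (r : ℝ), ‖u‖ = 1 →
    (k : ℝ) ≤ 4 * Real.log n → 0 ≤ r → r ≤ r1 n → 1 - k / n ≤ ‖y‖ → ‖y‖ ≤ 2 →
    ENNReal.ofReal (Real.exp (-(C0 * (k + 1 + n * r)))) * volume (cap u aa)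
      ≤ volume (cap y (aa + dl n + r + 2 * dl n)) := by
  have e1 : ∀ᶠ n : ℕ in atTop, r1 n < 1 / 100000 :=
    CapM2_r1.eventually_lt_const (by norm_num)
  have e2 : ∀ᶠ n : ℕ in atTop, Real.log n / n < 1 / 1000000 :=
    CapM2_log.eventually_lt_const (by norm_num)
  filter_upwards [eventually_ge_atTop 1000000, e1, e2] with n hn hr1 hlog u y k r hu hk hr0 hr hy hy2
  have hn' : (1000000 : ℝ) ≤ n := by exact_mod_cast hn
  have hn0 : (0 : ℝ) < n := by linarith
  have hd0 : 0 < dl n := by unfold dl; positivity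
  have hnd : (n : ℝ) * dl n = 1 / n := by unfold dl; field_simp
  have hnd1 : (n : ℝ) * dl n ≤ 1 / 1000000 := by
    rw [hnd]; gcongr
  have hd1 : dl n ≤ 1 / 1000000 := by nlinarith
  have haa : aa = 9999 / 10000 := rfl
  have hC0 : C0 = 60000 := rfl
  have hkn : (k : ℝ) / n ≤ 4 / 1000000 := by
    calc (k : ℝ) / n ≤ 4 * Real.log n / n := by gcongr
      _ = 4 * (Real.log n / n) := by ring
      _ ≤ 4 * (1 / 1000000) := by gcongr
      _ = _ := by norm_num
  have hkn0 : 0 ≤ (k : ℝ) / n := by positivity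
  have h := CapM2_basic y u hu (a := aa) (s := (k : ℝ) / n) (r := r + 3 * dl n)
    (by rw [haa]; norm_num) (by rw [haa]; norm_num) hkn0 (by linarith) (by linarith) hy
    (by rw [haa]; linarith)
  have e3 : aa + (r + 3 * dl n) = aa + dl n + r + 2 * dl n := by ring
  rw [e3] at h
  refine le_trans ?_ h
  refine mul_le_mul' (ENNReal.ofReal_le_ofReal (Real.exp_le_exp.mpr (neg_le_neg ?_))) le_rfl
  rw [haa, hC0]
  have e4 : 2 * (n : ℝ) * (((k : ℝ) / n + (r + 3 * dl n)) / (1 - 9999 / 10000)) =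
      20000 * (k + n * r + 3 * (n * dl n)) := by
    field_simp
    ring
  rw [e4]
  have hnr : 0 ≤ (n : ℝ) * r := by positivity
  have hk0 : (0 : ℝ) ≤ k := by positivity
  linarith

end P230
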