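import Vale.Agent.H14.CD.CapA
import Vale.Agent.H14.CD.CapB

/-! Row G3.3 -/

namespace P230
open MeasureTheory Metric Finset Filter
open scoped RealInnerProductSpace ENNReal

theorem CapM3_vol {n : ℕ} (y u : E n) (hu : ‖u‖ = 1) (hy : y ≠ 0) (t : ℝ) :
    volume (cap y t) = volume (cap u (t / ‖y‖)) := by
  rw [cap_smul y hy]
  apply volume_cap_eq _ _ _ hu
  rw [norm_smul, norm_inv, norm_norm, inv_mul_cancel₀ (norm_ne_zero_iff.mpr hy)]

theorem CapM3_cap_zero {n : ℕ} (t : ℝ) (ht : 0 ≤ t) : cap (0 : E n) t = ∅ := by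
  ext g
  simp only [cap, Set.mem_ofPred_eq, inner_zero_left, Set.mem_empty_iff_false, iff_false,
    not_and, not_lt]
  intro _; exact ht

/-- midpoint norm. -/
theorem CapM3_mid {n : ℕ} (y y' : E n) {R : ℝ} (hy : ‖y‖ ≤ R) (hy' : ‖y'‖ ≤ R) :
    ‖(1 / 2 : ℝ) • (y + y')‖ ^ 2 ≤ R ^ 2 - ‖y - y'‖ ^ 2 / 4 := by
  have h := parallelogram_law_with_norm ℝ y y'
  rw [norm_smul, Real.norm_of_nonneg (by norm_num)]
  have h1 : ‖y‖ ^ 2 ≤ R ^ 2 := by gcongr
  have h2 : ‖y'‖ ^ 2 ≤ R ^ 2 := by gcongr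
  nlinarith

theorem CapM3_empty {n : ℕ} (w : E n) {t : ℝ} (ht : 0 ≤ t) (hw : ‖w‖ ≤ t) : cap w t = ∅ := by
  rw [Set.eq_empty_iff_forall_notMem]
  rintro g ⟨hg1, hg2⟩
  have h4 := real_inner_le_norm w g
  have h5 : ‖w‖ * ‖g‖ ≤ t * 1 := by gcongr
  linarith

/-- for `‖w‖² ≤ 1 - σ`, `vol cap_w(t) ≤ exp(- n σ t²/(2(1-t²))) vol cap_u(t)`. -/
theorem CapM3_basic {n : ℕ} (w u : E n) (hu : ‖u‖ = 1) {t σ : ℝ} (ht : 0 < t)
    (ht1 : t < 1) (hσ : 0 ≤ σ) (hw2 : ‖w‖ ^ 2 ≤ 1 - σ) :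
    volume (cap w t) ≤
      ENNReal.ofReal (Real.exp (-(n * (σ * t ^ 2 / (2 * (1 - t ^ 2)))))) * volume (cap u t) := by
  by_cases hempty : ‖w‖ ≤ t
  · rw [CapM3_empty w ht.le hempty]; simp
  push Not at hempty
  have hσ1 : σ < 1 := by nlinarith
  have h1t : 0 < 1 - t ^ 2 := by nlinarith
  have hwpos : 0 < ‖w‖ := by linarith
  have hw0 : w ≠ 0 := norm_pos_iff.mp hwpos
  rw [CapM3_vol w u hu hw0]
  set p : ℝ := Real.sqrt (1 - σ) with hp
  have hp2 : p ^ 2 = 1 - σ := Real.sq_sqrt (by linarith)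
  have hp0 : 0 < p := Real.sqrt_pos.mpr (by linarith)
  have hwp : ‖w‖ ≤ p := by
    apply Real.le_sqrt_of_sq_le; linarith
  have htp : t < p := by linarith
  have hp1 : p ≤ 1 := by
    rw [hp]; exact Real.sqrt_le_one.mpr (by linarith)
  have h2 : cap u (t / ‖w‖) ⊆ cap u (t / p) := by
    intro g hg
    refine ⟨hg.1, lt_of_le_of_lt ?_ hg.2⟩
    gcongr
  refine le_trans (measure_mono h2) ?_
  have h3 : t ≤ t / p := by
    rw [le_div_iff₀ hp0]; nlinarith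
  have h4 : t / p < 1 := by rw [div_lt_one hp0]; exact htp
  have hs2 : 0 < 1 - (t / p) ^ 2 := by
    have : 0 ≤ t / p := by positivity
    nlinarith
  set μ : ℝ := Real.sqrt ((1 - t ^ 2) / (1 - (t / p) ^ 2)) with hμ
  have hμ0 : 0 < μ := Real.sqrt_pos.mpr (by positivity)
  have key := cap_upper u hu t (t / p) ht.le h3 h4
  rw [← hμ] at key
  have h5 : (1 - (t / p) ^ 2) / (1 - t ^ 2) ≤ Real.exp (-(σ * t ^ 2 / (1 - t ^ 2))) := by
    have h6 : (1 - (t / p) ^ 2) / (1 - t ^ 2) ≤ 1 - σ * t ^ 2 / (1 - t ^ 2) := by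
      rw [div_le_iff₀ h1t, sub_mul, div_mul_cancel₀ _ h1t.ne', div_pow, hp2]
      have h7 : t ^ 2 * (1 + σ) ≤ t ^ 2 / (1 - σ) := by
        rw [le_div_iff₀ (by linarith)]
        nlinarith [sq_nonneg (t * σ)]
      linarith
    refine le_trans h6 ?_
    linarith [Real.add_one_le_exp (-(σ * t ^ 2 / (1 - t ^ 2)))]
  have hinv : μ⁻¹ = Real.sqrt ((1 - (t / p) ^ 2) / (1 - t ^ 2)) := by
    rw [hμ, ← Real.sqrt_inv, inv_div]
  have h8 : μ⁻¹ ≤ Real.exp (-(σ * t ^ 2 / (2 * (1 - t ^ 2)))) := by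
    rw [hinv, Real.sqrt_le_left (Real.exp_pos _).le]
    refine le_trans h5 (le_of_eq ?_)
    rw [← Real.exp_nat_mul]
    congr 1
    push_cast
    field_simp
  have h9 : μ⁻¹ ^ n ≤ Real.exp (-(n * (σ * t ^ 2 / (2 * (1 - t ^ 2))))) := by
    calc μ⁻¹ ^ n ≤ (Real.exp (-(σ * t ^ 2 / (2 * (1 - t ^ 2))))) ^ n :=
          pow_le_pow_left₀ (by positivity) h8 n
      _ = _ := by rw [← Real.exp_nat_mul]; ring_nf
  calc volume (cap u (t / p))
      = ENNReal.ofReal (μ⁻¹ ^ n) * (ENNReal.ofReal (μ ^ n) * volume (cap u (t / p))) := by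
        rw [← mul_assoc, ← ENNReal.ofReal_mul (by positivity), ← mul_pow,
          inv_mul_cancel₀ hμ0.ne', one_pow, ENNReal.ofReal_one, one_mul]
    _ ≤ ENNReal.ofReal (Real.exp (-(n * (σ * t ^ 2 / (2 * (1 - t ^ 2)))))) *
          volume (cap u t) := by
        gcongr

theorem CapM3_one_sub_pow {x : ℝ} (hx0 : 0 ≤ x) (hx : x ≤ 1 / 2) (n : ℕ) :
    Real.exp (-(2 * n * x)) ≤ (1 - x) ^ n := by
  have h1 : Real.exp (-(2 * x)) ≤ 1 - x := by
    have h2 : 1 + 2 * x ≤ Real.exp (2 * x) := by linarith [Real.add_one_le_exp (2 * x)]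
    rw [Real.exp_neg, inv_le_comm₀ (Real.exp_pos _) (by linarith)]
    calc (1 - x)⁻¹ ≤ 1 + 2 * x := by
          rw [inv_le_comm₀ (by linarith) (by linarith), inv_le_iff_one_le_mul₀ (by linarith)]
          nlinarith
      _ ≤ _ := h2
  calc Real.exp (-(2 * n * x)) = (Real.exp (-(2 * x))) ^ n := by
        rw [← Real.exp_nat_mul]; ring_nf
    _ ≤ (1 - x) ^ n := pow_le_pow_left₀ (Real.exp_pos _).le h1 n

/-- comparison of two thresholds -/
theorem CapM3_threshold {n : ℕ} (u : E n) (hu : ‖u‖ = 1) {t t' : ℝ} (ht : t ≤ t')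
    (ht' : t' < 1) (hn : (t' - t) / (1 - t) ≤ 1 / 2) :
    volume (cap u t) ≤
      ENNReal.ofReal (Real.exp (2 * n * ((t' - t) / (1 - t)))) * volume (cap u t') := by
  have h := cap_lower u hu t t' ht ht'.le (by linarith)
  have h1 : 0 < 1 - t := by linarith
  have h2 : Real.exp (-(2 * n * ((t' - t) / (1 - t)))) ≤ ((1 - t') / (1 - t)) ^ n := by
    have h3 : (1 - t') / (1 - t) = 1 - (t' - t) / (1 - t) := by field_simp; ring
    rw [h3]
    exact CapM3_one_sub_pow (div_nonneg (by linarith) h1.le) hn n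
  calc volume (cap u t)
      = ENNReal.ofReal (Real.exp (2 * n * ((t' - t) / (1 - t)))) *
          (ENNReal.ofReal (Real.exp (-(2 * n * ((t' - t) / (1 - t))))) * volume (cap u t)) := by
        rw [← mul_assoc, ← ENNReal.ofReal_mul (Real.exp_pos _).le, ← Real.exp_add, add_neg_cancel,
          Real.exp_zero, ENNReal.ofReal_one, one_mul]
    _ ≤ ENNReal.ofReal (Real.exp (2 * n * ((t' - t) / (1 - t)))) *
          (ENNReal.ofReal (((1 - t') / (1 - t)) ^ n) * volume (cap u t)) := by gcongr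
    _ ≤ _ := by gcongr

theorem CapM3_r1 : ∀ᶠ n : ℕ in atTop, 100 * dl n ≤ r1 n ^ 2 := by
  -- r1^2 = n^(-3/4), dl = n^(-2)
  have h : ∀ᶠ n : ℕ in atTop, 100 ≤ (n : ℝ) ^ (5 / 4 : ℝ) :=
    ((tendsto_rpow_atTop (by norm_num)).comp tendsto_natCast_atTop_atTop).eventually_ge_atTop 100
  filter_upwards [h, eventually_ge_atTop 1] with n hn h1
  have hn0 : (0 : ℝ) < n := by exact_mod_cast h1
  have e1 : r1 n ^ 2 = (n : ℝ) ^ (-(3 / 4) : ℝ) := by
    unfold r1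
    rw [← Real.rpow_natCast, ← Real.rpow_mul hn0.le]
    norm_num
  have e2 : dl n = (n : ℝ) ^ (-2 : ℝ) := by
    unfold dl
    rw [Real.rpow_neg hn0.le, one_div]
    norm_num
  rw [e1, e2]
  calc 100 * (n : ℝ) ^ (-2 : ℝ) ≤ (n : ℝ) ^ (5 / 4 : ℝ) * (n : ℝ) ^ (-2 : ℝ) := by gcongr
    _ = (n : ℝ) ^ (-(3 / 4) : ℝ) := by rw [← Real.rpow_add hn0]; norm_num

/-- (M3) estimate; `cap ((y+y')/2) (a - 2δ)` contains `{a - 2δ < ⟪y,g⟫, a - 2δ < ⟪y',g⟫}` -/
theorem capM3 : ∀ᶠ n : ℕ in atTop, ∀ (u y y' : E n), ‖u‖ = 1 →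
    ‖y‖ ≤ 1 + dl n → ‖y'‖ ≤ 1 + dl n → r1 n ≤ ‖y - y'‖ →
    volume (cap ((1 / 2 : ℝ) • (y + y')) (aa - 2 * dl n))
      ≤ ENNReal.ofReal (2 * Real.exp (-(n * ‖y - y'‖ ^ 2 / 8))) * volume (cap u aa) := by
  filter_upwards [eventually_ge_atTop 1000000, CapM3_r1] with n hn hr1 u y y' hu hy hy' hyy
  have hn' : (1000000 : ℝ) ≤ n := by exact_mod_cast hn
  have hn0 : (0 : ℝ) < n := by linarith
  have hd0 : 0 < dl n := by unfold dl; positivity
  have hnd : (n : ℝ) * dl n = 1 / n := by unfold dl; field_simp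
  have hnd1 : (n : ℝ) * dl n ≤ 1 / 1000000 := by
    rw [hnd]; gcongr
  have hd1 : dl n ≤ 1 / 1000000 := by nlinarith
  have haa : aa = 9999 / 10000 := rfl
  have hr10 : 0 ≤ r1 n := by unfold r1; positivity
  set h : ℝ := ‖y - y'‖ with hh
  have hh2 : r1 n ^ 2 ≤ h ^ 2 := by gcongr
  have hmid := CapM3_mid y y' hy hy'
  rw [← hh] at hmid
  set σ : ℝ := h ^ 2 / 4 - 3 * dl n with hσ
  have hσ0 : 0 ≤ σ := by rw [hσ]; linarith
  have hw : ‖(1 / 2 : ℝ) • (y + y')‖ ^ 2 ≤ 1 - σ := by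
    rw [hσ]; nlinarith
  set t : ℝ := aa - 2 * dl n with ht
  have ht0 : 999 / 1000 < t := by rw [ht, haa]; linarith
  have ht1 : t < 1 := by rw [ht, haa]; linarith
  have h1 := CapM3_basic ((1 / 2 : ℝ) • (y + y')) u hu (t := t) (σ := σ) (by linarith) ht1 hσ0 hw
  refine le_trans h1 ?_
  have hden : (1 : ℝ) / 10000 ≤ 1 - t := by rw [ht, haa]; linarith
  have hx : (aa - t) / (1 - t) ≤ 20000 * dl n := by
    rw [div_le_iff₀ (by linarith), ht]
    nlinarith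
  have h2 := CapM3_threshold u hu (t := t) (t' := aa) (by linarith)
    (by rw [haa]; norm_num) (by linarith)
  have h3 : 2 * (n : ℝ) * ((aa - t) / (1 - t)) ≤ 1 / 20 := by
    calc 2 * (n : ℝ) * ((aa - t) / (1 - t))
        ≤ 2 * (n : ℝ) * (20000 * dl n) := by gcongr
      _ = 40000 * (n * dl n) := by ring
      _ ≤ 40000 * (1 / 1000000) := by gcongr
      _ ≤ 1 / 20 := by norm_num
  -- exponent
  have h4 : (1 : ℝ) ≤ t ^ 2 / (2 * (1 - t ^ 2)) := by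
    rw [le_div_iff₀ (by nlinarith)]; nlinarith
  have h5 : (n : ℝ) * σ ≤ n * (σ * t ^ 2 / (2 * (1 - t ^ 2))) := by
    gcongr
    calc σ = σ * 1 := by ring
      _ ≤ σ * (t ^ 2 / (2 * (1 - t ^ 2))) := by gcongr
      _ = _ := by ring
  have h6 : (n : ℝ) * h ^ 2 / 8 ≤ n * σ + 3 / 1000000 := by
    rw [hσ]
    have : (n : ℝ) * (h ^ 2 / 4 - 3 * dl n) = n * h ^ 2 / 4 - 3 * (n * dl n) := by ring
    rw [this]
    have : 0 ≤ (n : ℝ) * h ^ 2 := by positivity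
    linarith
  calc ENNReal.ofReal (Real.exp (-(n * (σ * t ^ 2 / (2 * (1 - t ^ 2)))))) * volume (cap u t)
      ≤ ENNReal.ofReal (Real.exp (-(n * (σ * t ^ 2 / (2 * (1 - t ^ 2)))))) *
          (ENNReal.ofReal (Real.exp (2 * n * ((aa - t) / (1 - t)))) * volume (cap u aa)) := by
        gcongr
    _ = ENNReal.ofReal (Real.exp (-(n * (σ * t ^ 2 / (2 * (1 - t ^ 2)))) +
          2 * n * ((aa - t) / (1 - t)))) * volume (cap u aa) := by
        rw [← mul_assoc, ← ENNReal.ofReal_mul (Real.exp_pos _).le, ← Real.exp_add]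
    _ ≤ ENNReal.ofReal (2 * Real.exp (-(n * h ^ 2 / 8))) * volume (cap u aa) := by
        refine mul_le_mul' (ENNReal.ofReal_le_ofReal ?_) le_rfl
        calc Real.exp (-(n * (σ * t ^ 2 / (2 * (1 - t ^ 2)))) + 2 * n * ((aa - t) / (1 - t)))
            ≤ Real.exp (1 / 2 + -(n * h ^ 2 / 8)) := by
              apply Real.exp_le_exp.mpr; linarith
          _ = Real.exp (1 / 2) * Real.exp (-(n * h ^ 2 / 8)) := Real.exp_add _ _
          _ ≤ 2 * Real.exp (-(n * h ^ 2 / 8)) := by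
              gcongr
              have h4 := Real.add_one_le_exp (-(1 / 2 : ℝ))
              have h5 : Real.exp (1 / 2) * Real.exp (-(1 / 2)) = 1 := by
                rw [← Real.exp_add]; simp
              nlinarith [Real.exp_pos (1 / 2 : ℝ)]

end P230
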