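import Vale.Agent.H14.CD.Defs

/-! Row G2: discretisation of the uniform measure on the unit ball. -/

namespace P230
open MeasureTheory Metric Finset
open scoped RealInnerProductSpace ENNReal

open Classical in
/-- There are finitely many points `g c` of the unit ball with weights `v c`
(cells of a partition of the unit ball into pieces of radius `≤ δ` around `g c`).
Sketch: finite `δ`-net of the closed unit ball, `SimpleFunc.nearestPt` (or first index), weights =
volumes of the fibres inside the ball. -/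
theorem exists_cells (n : ℕ) (δ : ℝ) (hδ : 0 < δ) :
    ∃ (ι : Type) (_ : Fintype ι) (_ : DecidableEq ι) (g : ι → E n) (v : ι → ℝ),
      (∀ c, ‖g c‖ ≤ 1) ∧ (∀ c, 0 ≤ v c) ∧
      (∀ P Q : Set (E n), (∀ x y, x ∈ Q → ‖x‖ ≤ 1 → ‖y‖ ≤ 1 → ‖x - y‖ ≤ δ → y ∈ P) →
        volume (Q ∩ closedBall 0 1) ≤ ENNReal.ofReal (∑ c with g c ∈ P, v c)) ∧
      (∀ P Q : Set (E n), (∀ x y, ‖x‖ ≤ 1 → y ∈ P → ‖y‖ ≤ 1 → ‖x - y‖ ≤ δ → x ∈ Q) →
        ENNReal.ofReal (∑ c with g c ∈ P, v c) ≤ volume (Q ∩ closedBall 0 1)) := by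
  obtain ⟨t, htB, htf, hcov⟩ := (isCompact_closedBall (0 : E n) 1).finite_cover_balls hδ
  obtain ⟨T, rfl⟩ : ∃ T : Finset (E n), (T : Set (E n)) = t := ⟨htf.toFinset, by simp⟩
  set N := T.card with hN
  let e : Fin N ≃ T := (Finset.equivFin T).symm
  let g : Fin N → E n := fun i => (e i).1
  have hg : ∀ i, ‖g i‖ ≤ 1 := by
    intro i
    have := htB (e i).2
    simpa using this
  let cell : Fin N → Set (E n) := fun i =>
    (closedBall (0 : E n) 1 ∩ ball (g i) δ) \ ⋃ j ∈ (univ.filter (fun j : Fin N => j < i)),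
      ball (g j) δ
  have hmeas : ∀ i, MeasurableSet (cell i) := by
    intro i
    refine (measurableSet_closedBall.inter measurableSet_ball).diff ?_
    exact Finset.measurableSet_biUnion _ (fun j _ => measurableSet_ball)
  have hfin : ∀ i, volume (cell i) ≠ ⊤ := by
    intro i
    refine ne_top_of_le_ne_top (measure_closedBall_lt_top (x := (0 : E n)) (r := 1)).ne
      (measure_mono ?_)
    exact fun x hx => hx.1.1
  have hdisj : Pairwise (fun i j => Disjoint (cell i) (cell j)) := by
    have key : ∀ i j, i < j → Disjoint (cell i) (cell j) := by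
      intro i j hij
      rw [Set.disjoint_left]
      intro x hxi hxj
      apply hxj.2
      simp only [Set.mem_iUnion]
      exact ⟨i, by simpa using hij, hxi.1.2⟩
    intro i j hij
    rcases lt_or_gt_of_ne hij with h | h
    · exact key i j h
    · exact (key j i h).symm
  have hcover : ∀ x : E n, ‖x‖ ≤ 1 → ∃ i, x ∈ cell i := by
    intro x hx
    have hxB : x ∈ closedBall (0 : E n) 1 := by simpa using hx
    have h1 := hcov hxB
    simp only [Set.mem_iUnion] at h1
    obtain ⟨y, hyT, hxy⟩ := h1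
    have hne : (univ.filter (fun i : Fin N => x ∈ ball (g i) δ)).Nonempty := by
      refine ⟨e.symm ⟨y, hyT⟩, ?_⟩
      rw [mem_filter]
      refine ⟨mem_univ _, ?_⟩
      simp only [g, Equiv.apply_symm_apply]
      exact hxy
    refine ⟨(univ.filter (fun i : Fin N => x ∈ ball (g i) δ)).min' hne, ⟨hxB, ?_⟩, ?_⟩
    · exact (mem_filter.mp (Finset.min'_mem _ hne)).2
    · intro hx2
      simp only [Set.mem_iUnion] at hx2
      obtain ⟨j, hj, hxj⟩ := hx2
      rw [mem_filter] at hj
      have := Finset.min'_le (univ.filter (fun i : Fin N => x ∈ ball (g i) δ)) j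
        (mem_filter.mpr ⟨mem_univ _, hxj⟩)
      exact absurd hj.2 (not_lt.mpr this)
  have hsum : ∀ s : Finset (Fin N), ENNReal.ofReal (∑ c ∈ s, (volume (cell c)).toReal) =
      volume (⋃ c ∈ s, cell c) := by
    intro s
    rw [ENNReal.ofReal_sum_of_nonneg (fun c _ => ENNReal.toReal_nonneg),
      measure_biUnion_finset (fun i _ j _ hij => hdisj hij) (fun c _ => hmeas c)]
    exact Finset.sum_congr rfl (fun c _ => ENNReal.ofReal_toReal (hfin c))
  refine ⟨Fin N, inferInstance, inferInstance, g, fun c => (volume (cell c)).toReal, hg,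
    fun c => ENNReal.toReal_nonneg, ?_, ?_⟩
  · intro P Q hPQ
    have h1 : Q ∩ closedBall 0 1 ⊆ ⋃ c ∈ (univ.filter (fun c : Fin N => g c ∈ P)), cell c := by
      rintro x ⟨hxQ, hxB⟩
      have hx1 : ‖x‖ ≤ 1 := by simpa using hxB
      obtain ⟨i, hi⟩ := hcover x hx1
      simp only [Set.mem_iUnion]
      refine ⟨i, ?_, hi⟩
      rw [mem_filter]
      refine ⟨mem_univ _, hPQ x (g i) hxQ hx1 (hg i) ?_⟩
      have := hi.1.2
      rw [mem_ball, dist_eq_norm] at this
      exact this.le
    refine (measure_mono h1).trans (le_of_eq ?_)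
    rw [← hsum]
  · intro P Q hPQ
    have h1 : (⋃ c ∈ (univ.filter (fun c : Fin N => g c ∈ P)), cell c) ⊆ Q ∩ closedBall 0 1 := by
      intro x hx
      simp only [Set.mem_iUnion] at hx
      obtain ⟨i, hi, hxi⟩ := hx
      rw [mem_filter] at hi
      have hx1 : ‖x‖ ≤ 1 := by simpa using hxi.1.1
      refine ⟨hPQ x (g i) hx1 hi.2 (hg i) ?_, hxi.1.1⟩
      have := hxi.1.2
      rw [mem_ball, dist_eq_norm] at this
      exact this.le
    refine le_trans (le_of_eq ?_) (measure_mono h1)
    rw [← hsum]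

end P230
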