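import Vale.Agent.H14.CD.Defs

/-! Row C1: greedy decomposition into clusters and a sparse remainder. -/

namespace P230
open Finset

open Classical in
theorem clusters {α : Type*} [PseudoMetricSpace α] (r : ℝ) (hr : 0 ≤ r) (κ : ℕ) (P : Finset α) :
    ∃ Q R : Finset α, Q ⊆ P ∧ R ⊆ P ∧ κ * Q.card ≤ P.card ∧
      (∀ p ∈ P, p ∈ R ∨ ∃ q ∈ Q, dist p q ≤ r) ∧
      (∀ p ∈ R, (R.filter (fun p' => dist p p' ≤ r)).card < κ) := by
  induction P using Finset.strongInduction with
  | H P ih =>
    by_cases h : ∀ p ∈ P, (P.filter (fun p' => dist p p' ≤ r)).card < κ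
    · exact ⟨∅, P, Finset.empty_subset _, Finset.Subset.refl _, by simp, fun p hp => Or.inl hp, h⟩
    · push Not at h
      obtain ⟨p₀, hp₀, hκ⟩ := h
      set B := P.filter (fun p' => dist p₀ p' ≤ r) with hB
      have hp₀B : p₀ ∈ B := by
        rw [hB, Finset.mem_filter]
        exact ⟨hp₀, by rw [dist_self]; exact hr⟩
      have hss : P \ B ⊂ P := by
        refine Finset.ssubset_iff_subset_ne.2 ⟨Finset.sdiff_subset, fun he => ?_⟩
        have : p₀ ∈ P \ B := by rw [he]; exact hp₀
        exact (Finset.mem_sdiff.1 this).2 hp₀B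
      obtain ⟨Q, R, hQ, hR, hc, hcov, hsp⟩ := ih (P \ B) hss
      have hp₀Q : p₀ ∉ Q := fun hq => (Finset.mem_sdiff.1 (hQ hq)).2 hp₀B
      refine ⟨insert p₀ Q, R, ?_, hR.trans Finset.sdiff_subset, ?_, ?_, hsp⟩
      · exact Finset.insert_subset hp₀ (hQ.trans Finset.sdiff_subset)
      · rw [Finset.card_insert_of_notMem hp₀Q]
        have hBP : B ⊆ P := Finset.filter_subset _ _
        have h1 : (P \ B).card + B.card = P.card := Finset.card_sdiff_add_card_eq_card hBP
        calc κ * (Q.card + 1) = κ * Q.card + κ := by ring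
          _ ≤ (P \ B).card + B.card := Nat.add_le_add hc hκ
          _ = P.card := h1
      · intro p hp
        by_cases hpB : p ∈ B
        · right
          refine ⟨p₀, Finset.mem_insert_self _ _, ?_⟩
          rw [dist_comm]
          exact (Finset.mem_filter.1 hpB).2
        · rcases hcov p (Finset.mem_sdiff.2 ⟨hp, hpB⟩) with h | ⟨q, hq, hq'⟩
          · exact Or.inl h
          · exact Or.inr ⟨q, Finset.mem_insert_of_mem hq, hq'⟩

end P230
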