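import Vale.Agent.H14.CD.ZMass
import Vale.Agent.H14.CD.BernC

/-! Row P2: lower bounds for the probabilities of `FS`, `FB`, `FS ∧ FB`. -/

namespace P230
open MeasureTheory Metric Finset Filter
open scoped RealInnerProductSpace ENNReal

/-- `hit_all` with `a p = C0 (kd + 1) + 1`; `Σ (C0 (kd+1) + 2) ≤ (2 C0 + 2) Σ kd` -/
theorem FS_prob : ∀ᶠ n : ℕ in atTop, ∀ (ι : Type) (_ : Fintype ι) (_ : DecidableEq ι)
    (g : ι → E n) (m : ι → ℝ), Sys n g m → ∀ (S : Finset (E n)) (x : E n),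
    (W n S x : ℝ) ≤ 96 * lam n → ∀ R ⊆ near n S x,
      Real.exp (-((2 * C0 + 2) * (96 * lam n))) ≤ Pr (pm m) (FS g x R) := by
  filter_upwards [W_spec, Zs_mass] with n hW hZ
  intro ι _ _ g m hS S x hWx R hR
  have hC : (0 : ℝ) < C0 := by unfold C0; norm_num
  obtain ⟨w1, w2, w3, w4⟩ := hW S x hWx
  have hall := hit_all m hS.nonneg R (fun p => Zs g x R p)
    (fun p => C0 * ((kd n (x - p) : ℝ) + 1) + 1) (fun p _ => by positivity)
    (fun p hp => hZ ι _ g m hS S x hWx R hR p hp)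
  refine le_trans ?_ hall
  apply Real.exp_le_exp.2
  apply neg_le_neg
  calc ∑ p ∈ R, (C0 * ((kd n (x - p) : ℝ) + 1) + 1 + 1)
      ≤ ∑ p ∈ R, (2 * C0 + 2) * (kd n (x - p) : ℝ) := by
        apply Finset.sum_le_sum
        intro p hp
        have h1 : (1 : ℝ) ≤ kd n (x - p) := by exact_mod_cast (w1 p (hR hp)).1
        nlinarith
    _ = (2 * C0 + 2) * ∑ p ∈ R, (kd n (x - p) : ℝ) := by rw [Finset.mul_sum]
    _ ≤ (2 * C0 + 2) * (96 * lam n) := by
        apply mul_le_mul_of_nonneg_left (w2 R hR) (by positivity)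

theorem FProb.num : ∀ᶠ n : ℕ in atTop, ∃ u : ℝ, 29 ≤ u ∧ (n : ℝ) = u ^ 16 ∧
    (n : ℝ) * r1 n = u ^ 10 ∧ (n : ℝ) ^ (3 / 4 : ℝ) = u ^ 12 ∧ Real.log n + 1 ≤ u := by
  have h1 := ZMass.num 1 1 (1 / 16) (by norm_num) (by norm_num)
  have h4 : Tendsto (fun n : ℕ => (n : ℝ) ^ (1 / 16 : ℝ)) atTop atTop :=
    (tendsto_rpow_atTop (by norm_num)).comp tendsto_natCast_atTop_atTop
  filter_upwards [h1, h4.eventually (eventually_ge_atTop 29), eventually_ge_atTop 1] with n g1 g2 g3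
  have hn1 : (1 : ℝ) ≤ n := by exact_mod_cast g3
  have hn0 : (0 : ℝ) < n := by linarith
  refine ⟨(n : ℝ) ^ (1 / 16 : ℝ), g2, ?_, ?_, ?_, by linarith⟩
  · rw [← Real.rpow_natCast, ← Real.rpow_mul hn0.le]; norm_num
  · unfold r1
    rw [← Real.rpow_natCast, ← Real.rpow_mul hn0.le]
    nth_rewrite 1 [← Real.rpow_one (n : ℝ)]
    rw [← Real.rpow_add hn0]; norm_num
  · rw [← Real.rpow_natCast, ← Real.rpow_mul hn0.le]; norm_num

/-- number of clusters `≤ 96 lam n / kap n` -/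
theorem FB_prob : ∀ᶠ n : ℕ in atTop, ∀ (ι : Type) (_ : Fintype ι) (_ : DecidableEq ι)
    (g : ι → E n) (m : ι → ℝ), Sys n g m → ∀ (S : Finset (E n)) (x : E n),
    (W n S x : ℝ) ≤ 96 * lam n → ∀ Q ⊆ near n S x, kap n * Q.card ≤ (near n S x).card →
      Real.exp (-(n / 1000 : ℝ)) ≤ Pr (pm m) (FB g x Q) := by
  filter_upwards [W_spec, Zb_mass, FProb.num] with n hW hZ hnum
  intro ι _ _ g m hS S x hWx Q hQ hcard
  have hC : (0 : ℝ) < C0 := by unfold C0; norm_num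
  obtain ⟨w1, w2, w3, w4⟩ := hW S x hWx
  obtain ⟨u, u1, u2, u3, u4, u5⟩ := hnum
  have hlog : 0 ≤ Real.log n := by
    apply Real.log_nonneg
    rw [u2]
    exact one_le_pow₀ (by linarith)
  have hu0 : 0 < u := by linarith
  have ha0 : 0 ≤ C0 * (4 * Real.log n + 1 + n * r1 n) := by
    rw [u3]; positivity
  have hall := hit_all m hS.nonneg Q (fun q => Zb g x q)
    (fun _ => C0 * (4 * Real.log n + 1 + n * r1 n)) (fun p _ => ha0)
    (fun q hq => hZ ι _ g m hS S x hWx q (hQ hq))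
  refine le_trans ?_ hall
  apply Real.exp_le_exp.2
  apply neg_le_neg
  rw [Finset.sum_const, nsmul_eq_mul]
  have k1 : u ^ 12 * (Q.card : ℝ) ≤ 96 * (1 / 10 ^ 9) * u ^ 16 * u := by
    calc u ^ 12 * (Q.card : ℝ) ≤ (kap n : ℝ) * Q.card := by
          apply mul_le_mul_of_nonneg_right _ (by positivity)
          rw [← u4]; unfold kap; exact Nat.le_ceil _
      _ ≤ (near n S x).card := by exact_mod_cast hcard
      _ ≤ 96 * lam n := w3
      _ ≤ 96 * (1 / 10 ^ 9) * u ^ 16 * u := by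
          unfold lam
          rw [← u2]
          have hn0 : (0 : ℝ) ≤ n := by positivity
          have : (n : ℝ) * Real.log n ≤ n * u := mul_le_mul_of_nonneg_left (by linarith) hn0
          linarith
  have k2 : (Q.card : ℝ) ≤ 96 * (1 / 10 ^ 9) * u ^ 5 := by
    have h12 : 0 < u ^ 12 := by positivity
    have : u ^ 12 * (Q.card : ℝ) ≤ u ^ 12 * (96 * (1 / 10 ^ 9) * u ^ 5) := by
      refine k1.trans (le_of_eq (by ring))
    exact le_of_mul_le_mul_left this h12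
  have k3 : C0 * (4 * Real.log n + 1 + n * r1 n) + 1 ≤ 5 * C0 * u ^ 10 := by
    rw [u3]
    have h10 : u ≤ u ^ 10 := by
      have : (1 : ℝ) ≤ u ^ 9 := one_le_pow₀ (by linarith)
      calc u = 1 * u := by ring
        _ ≤ u ^ 9 * u := mul_le_mul_of_nonneg_right this hu0.le
        _ = u ^ 10 := by ring
    have h1 : 4 * Real.log n + 1 + u ^ 10 + 1 ≤ 5 * u ^ 10 := by linarith
    have h2 : (1 : ℝ) ≤ C0 := by unfold C0; norm_num
    nlinarith
  calc (Q.card : ℝ) * (C0 * (4 * Real.log n + 1 + n * r1 n) + 1)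
      ≤ (96 * (1 / 10 ^ 9) * u ^ 5) * (5 * C0 * u ^ 10) := by
        apply mul_le_mul k2 k3 (by linarith) (by positivity)
    _ = 288 / 10000 * u ^ 15 := by unfold C0; ring
    _ ≤ u / 1000 * u ^ 15 := by
        apply mul_le_mul_of_nonneg_right _ (by positivity)
        linarith
    _ = (n : ℝ) / 1000 := by rw [u2]; ring

end P230
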