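import Vale.Agent.H14.CD.Defs

/-! Row C2: greedy selection of separated points. -/

namespace P230
open MeasureTheory Metric Finset
open scoped ENNReal

/-- `L` points of `G`, separated modulo the differences `p - p'`, `p, p' ∈ S`. -/
theorem greedy_sep (n : ℕ) (G : Set (E n)) (S : Finset (E n)) (r : ℝ) (L : ℕ)
    (h : (L : ℝ≥0∞) * (S.card : ℝ≥0∞) ^ 2 * volume (closedBall (0 : E n) r) < volume G) :
    ∃ x : Fin L → E n, (∀ i, x i ∈ G) ∧
      ∀ i j, i ≠ j → ∀ p ∈ S, ∀ p' ∈ S, r < ‖x i - x j - (p - p')‖ := by
  classical
  induction L with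
  | zero => exact ⟨fun i => i.elim0, fun i => i.elim0, fun i => i.elim0⟩
  | succ L ih =>
    obtain ⟨x, hx1, hx2⟩ := ih (lt_of_le_of_lt (by
      refine mul_le_mul' (mul_le_mul' ?_ le_rfl) le_rfl
      exact_mod_cast Nat.le_succ L) h)
    set U : Set (E n) := ⋃ t ∈ ((univ : Finset (Fin L)) ×ˢ (S ×ˢ S)),
      closedBall (x t.1 + (t.2.1 - t.2.2)) r with hU
    have hvU : volume U ≤ (L : ℝ≥0∞) * (S.card : ℝ≥0∞) ^ 2 * volume (closedBall (0 : E n) r) := by
      refine (measure_biUnion_finset_le _ _).trans ?_
      have : ∀ t ∈ ((univ : Finset (Fin L)) ×ˢ (S ×ˢ S)),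
          volume (closedBall (x t.1 + (t.2.1 - t.2.2)) r) = volume (closedBall (0 : E n) r) := by
        intro t _
        exact Measure.addHaar_closedBall_center volume _ r
      rw [Finset.sum_congr rfl this, Finset.sum_const, nsmul_eq_mul, Finset.card_product,
        Finset.card_product, Finset.card_univ, Fintype.card_fin]
      refine le_of_eq ?_
      push_cast
      ring
    have hlt : volume U < volume G := lt_of_le_of_lt (hvU.trans (by
      refine mul_le_mul' (mul_le_mul' ?_ le_rfl) le_rfl
      exact_mod_cast Nat.le_succ L)) h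
    obtain ⟨y, hyG, hyU⟩ : ∃ y ∈ G, y ∉ U := by
      by_contra hcon
      push Not at hcon
      exact absurd (measure_mono (μ := volume) (fun y hy => hcon y hy)) (not_le.mpr hlt)
    have hy : ∀ i, ∀ p ∈ S, ∀ p' ∈ S, r < ‖y - x i - (p - p')‖ := by
      intro i p hp p' hp'
      by_contra hcon
      push Not at hcon
      apply hyU
      rw [hU]
      simp only [Set.mem_iUnion]
      refine ⟨(i, p, p'), ?_, ?_⟩
      · rw [mem_product, mem_product]
        exact ⟨mem_univ _, hp, hp'⟩
      · rw [mem_closedBall, dist_eq_norm]
        have e : y - (x i + (p - p')) = y - x i - (p - p') := by abel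
        rw [e]
        exact hcon
    refine ⟨Fin.cons y x, ?_, ?_⟩
    · intro i
      refine Fin.cases ?_ (fun i => ?_) i
      · simpa using hyG
      · simpa using hx1 i
    · intro i j
      refine Fin.cases ?_ (fun i => ?_) i
      · refine Fin.cases ?_ (fun j => ?_) j
        · intro h; exact absurd rfl h
        · intro _ p hp p' hp'
          simpa using hy j p hp p' hp'
      · refine Fin.cases ?_ (fun j => ?_) j
        · intro _ p hp p' hp'
          have := hy i p' hp' p hp
          simp only [Fin.cons_succ, Fin.cons_zero]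
          have e : x i - y - (p - p') = -(y - x i - (p' - p)) := by abel
          rw [e, norm_neg]
          exact this
        · intro hne p hp p' hp'
          have hne' : i ≠ j := fun h => hne (by rw [h])
          simpa using hx2 i j hne' p hp p' hp'

end P230
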