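import Vale.Agent.H14.CD.Defs

/-! Row N1: asymptotic inequalities. -/

namespace P230
open MeasureTheory Metric Finset Filter
open scoped ENNReal

theorem numA_log_ge (C : ℝ) : ∀ᶠ n : ℕ in atTop, C ≤ Real.log n :=
  (Real.tendsto_log_atTop.comp tendsto_natCast_atTop_atTop).eventually_ge_atTop C

/-- cluster size: `M = ⌈exp (n log n / 32)⌉` points fit -/
theorem num_M : ∀ᶠ n : ℕ in atTop,
    (⌈Real.exp (n * Real.log n / 32)⌉₊ : ℝ) * (4 * lam n * (6 / 5) ^ n) ^ 2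
      * (100 * (n : ℝ) ^ (-(1 / 16) : ℝ)) ^ n < 1 / 2 := by
  filter_upwards [numA_log_ge 1000, eventually_ge_atTop 1] with n hl hn
  have hn1 : (1 : ℝ) ≤ n := by exact_mod_cast hn
  have hn0 : (0 : ℝ) < n := by linarith
  set l := Real.log n with hldef
  set x := (n : ℝ) * l with hx
  have hx0 : 0 < x := by positivity
  have h1 : (⌈Real.exp (x / 32)⌉₊ : ℝ) ≤ 2 * Real.exp (x / 32) := by
    have := (Nat.ceil_lt_add_one (Real.exp_pos (x / 32)).le).le
    have h2 : 1 ≤ Real.exp (x / 32) := Real.one_le_exp (by positivity)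
    linarith
  have h2 : 4 * lam n ≤ Real.exp (x / 1000) := by
    have := Real.add_one_le_exp (x / 1000)
    unfold lam
    rw [← hldef]
    have : 4 * (1 / 10 ^ 9 * (n : ℝ) * l) = 4 / 10 ^ 9 * x := by rw [hx]; ring
    rw [this]
    linarith
  have h3 : ((6 : ℝ) / 5) ^ n ≤ Real.exp n := by
    have : (6 : ℝ) / 5 ≤ Real.exp 1 := by
      have := Real.add_one_le_exp (1 : ℝ); linarith
    calc ((6 : ℝ) / 5) ^ n ≤ (Real.exp 1) ^ n := by gcongr
      _ = Real.exp n := by rw [← Real.exp_nat_mul]; simp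
  have h4 : (100 * (n : ℝ) ^ (-(1 / 16) : ℝ)) ^ n ≤ Real.exp (5 * n - x / 16) := by
    have h100 : (100 : ℝ) ≤ Real.exp 5 := by
      have h := Real.exp_one_gt_d9
      calc (100 : ℝ) ≤ (2.7182818283 : ℝ) ^ 5 := by norm_num
        _ ≤ (Real.exp 1) ^ 5 := by gcongr
        _ = Real.exp 5 := by rw [← Real.exp_nat_mul]; norm_num
    have h5 : (n : ℝ) ^ (-(1 / 16) : ℝ) = Real.exp (-(l / 16)) := by
      rw [Real.rpow_def_of_pos hn0]; congr 1; ring
    rw [h5]
    calc (100 * Real.exp (-(l / 16))) ^ n ≤ (Real.exp 5 * Real.exp (-(l / 16))) ^ n := by gcongr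
      _ = Real.exp (5 * n - x / 16) := by
        rw [← Real.exp_add, ← Real.exp_nat_mul]; congr 1; rw [hx]; ring
  have hlam : 0 ≤ lam n := by unfold lam; rw [← hldef]; positivity
  calc (⌈Real.exp (x / 32)⌉₊ : ℝ) * (4 * lam n * (6 / 5) ^ n) ^ 2
      * (100 * (n : ℝ) ^ (-(1 / 16) : ℝ)) ^ n
      ≤ (2 * Real.exp (x / 32)) * (Real.exp (x / 1000) * Real.exp n) ^ 2
        * Real.exp (5 * n - x / 16) := by gcongr
    _ = 2 * Real.exp (x / 32 + 2 * (x / 1000 + n) + (5 * n - x / 16)) := by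
        rw [← Real.exp_add, ← Real.exp_nat_mul, mul_assoc, mul_assoc, ← Real.exp_add,
          ← Real.exp_add]
        congr 2
        push_cast
        ring
    _ ≤ 2 * Real.exp (-2) := by
        gcongr
        have : 1000 * (n : ℝ) ≤ x := by rw [hx]; nlinarith
        linarith
    _ < 1 / 2 := by
        have h := Real.exp_one_gt_d9
        have h6 : Real.exp (-2) = 1 / (Real.exp 1) ^ 2 := by
          rw [← Real.exp_nat_mul, Real.exp_neg]; norm_num
        rw [h6, mul_one_div, div_lt_div_iff₀ (by positivity) (by norm_num)]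
        nlinarith

/-- number of clusters `L = ⌈1.3^n⌉` -/
theorem num_L : ∀ᶠ n : ℕ in atTop,
    (⌈(13 / 10 : ℝ) ^ n⌉₊ : ℝ) * (4 * lam n * (6 / 5) ^ n) ^ 2 * (1 / 2) ^ n < 1 / 2 := by
  have ht := tendsto_pow_const_mul_const_pow_of_abs_lt_one 4
    (show |(936 / 1000 : ℝ)| < 1 by rw [abs_of_pos] <;> norm_num)
  have he := ht.eventually (gt_mem_nhds (show (0 : ℝ) < 1 / 4 by norm_num))
  filter_upwards [he, numA_log_ge 1, eventually_ge_atTop 1] with n hs hl hn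
  have hn1 : (1 : ℝ) ≤ n := by exact_mod_cast hn
  have hn0 : (0 : ℝ) < n := by linarith
  have h1 : (⌈(13 / 10 : ℝ) ^ n⌉₊ : ℝ) ≤ 2 * (13 / 10 : ℝ) ^ n := by
    have := (Nat.ceil_lt_add_one (show (0 : ℝ) ≤ (13 / 10 : ℝ) ^ n by positivity)).le
    have h2 : 1 ≤ (13 / 10 : ℝ) ^ n := one_le_pow₀ (by norm_num)
    linarith
  have hln : Real.log n ≤ n := by
    have := Real.log_le_sub_one_of_pos hn0; linarith
  have h2 : 4 * lam n ≤ (n : ℝ) ^ 2 := by
    unfold lam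
    have : (n : ℝ) * Real.log n ≤ n * n := by gcongr
    nlinarith
  have hlam : 0 ≤ lam n := by
    unfold lam; have : 0 ≤ Real.log n := by linarith
    positivity
  calc (⌈(13 / 10 : ℝ) ^ n⌉₊ : ℝ) * (4 * lam n * (6 / 5) ^ n) ^ 2 * (1 / 2) ^ n
      ≤ (2 * (13 / 10 : ℝ) ^ n) * ((n : ℝ) ^ 2 * (6 / 5) ^ n) ^ 2 * (1 / 2) ^ n := by gcongr
    _ = 2 * ((n : ℝ) ^ 4 * ((13 / 10) * (6 / 5) ^ 2 * (1 / 2)) ^ n) := by
        rw [mul_pow, mul_pow, mul_pow, ← pow_mul, ← pow_mul, ← pow_mul, mul_comm 2 n]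
        ring
    _ = 2 * ((n : ℝ) ^ 4 * (936 / 1000) ^ n) := by norm_num
    _ < 1 / 2 := by linarith

/-- `r1 n ≤ n^{-1/16}`, positivity -/
theorem num_misc : ∀ᶠ n : ℕ in atTop, r1 n ≤ (n : ℝ) ^ (-(1 / 16) : ℝ) ∧ 0 < lam n ∧ 0 < r1 n ∧
    1 ≤ kap n := by
  filter_upwards [numA_log_ge 1, eventually_ge_atTop 1] with n hl hn
  have hn1 : (1 : ℝ) ≤ n := by exact_mod_cast hn
  have hn0 : (0 : ℝ) < n := by linarith
  refine ⟨?_, ?_, ?_, ?_⟩
  · unfold r1
    exact Real.rpow_le_rpow_of_exponent_le hn1 (by norm_num)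
  · unfold lam
    have : 0 < Real.log n := by linarith
    positivity
  · unfold r1; positivity
  · unfold kap
    exact Nat.one_le_ceil_iff.2 (by positivity)

end P230
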