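import Vale.Agent.H14.CD.Defs

/-! Row N2: asymptotic inequalities. -/

namespace P230
open MeasureTheory Metric Finset Filter
open scoped ENNReal

theorem NumB_log_large : ∀ᶠ n : ℕ in atTop, (1 : ℝ) ≤ Real.log n := by
  have h : Tendsto (fun n : ℕ => Real.log (n : ℝ)) atTop atTop :=
    Real.tendsto_log_atTop.comp tendsto_natCast_atTop_atTop
  exact h.eventually_ge_atTop 1

/-- second moment numerics -/
theorem num_q : ∀ᶠ n : ℕ in atTop,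
    Real.exp (-(n / 100 : ℝ)) ≤
      1 / (3 * Real.exp (2 * (n / 1000 : ℝ)) + 1 / (Real.exp (-((2 * C0 + 2) * (96 * lam n) +
        n / 1000)) * ⌈Real.exp (n * Real.log n / 32)⌉₊)) := by
  filter_upwards [NumB_log_large, eventually_ge_atTop 1000] with n hlog hn
  have hnR : (1000 : ℝ) ≤ n := by exact_mod_cast hn
  have h1 : Real.exp (n * Real.log n / 32) ≤ (⌈Real.exp (n * Real.log n / 32)⌉₊ : ℝ) :=
    Nat.le_ceil _
  have h2 : 1 ≤ Real.exp (-((2 * C0 + 2) * (96 * lam n) + n / 1000)) *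
      (⌈Real.exp (n * Real.log n / 32)⌉₊ : ℝ) := by
    refine le_trans ?_ (mul_le_mul_of_nonneg_left h1 (Real.exp_pos _).le)
    rw [← Real.exp_add]
    refine Real.one_le_exp ?_
    unfold C0 lam
    have h3 : 0 ≤ (n : ℝ) * Real.log n := by positivity
    have h4 : (n : ℝ) ≤ n * Real.log n := by nlinarith
    nlinarith
  have h3 : 1 / (Real.exp (-((2 * C0 + 2) * (96 * lam n) + n / 1000)) *
      (⌈Real.exp (n * Real.log n / 32)⌉₊ : ℝ)) ≤ 1 := by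
    rw [div_le_one (by linarith)]; exact h2
  have h4 : 1 ≤ Real.exp (2 * (n / 1000 : ℝ)) := Real.one_le_exp (by positivity)
  have h5 : 3 * Real.exp (2 * (n / 1000 : ℝ)) + 1 / (Real.exp (-((2 * C0 + 2) * (96 * lam n) +
        n / 1000)) * (⌈Real.exp (n * Real.log n / 32)⌉₊ : ℝ)) ≤ Real.exp (n / 100 : ℝ) := by
    have h6 : Real.exp (n / 100 : ℝ) = Real.exp (2 * (n / 1000 : ℝ)) * Real.exp (n * (8 / 1000) : ℝ) := by
      rw [← Real.exp_add]; congr 1; ring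
    have h7 : 4 ≤ Real.exp (n * (8 / 1000) : ℝ) := by
      have := Real.add_one_le_exp (n * (8 / 1000) : ℝ)
      linarith
    rw [h6]
    nlinarith
  rw [Real.exp_neg, ← one_div]
  have h8 : 0 < 3 * Real.exp (2 * (n / 1000 : ℝ)) + 1 / (Real.exp (-((2 * C0 + 2) * (96 * lam n) +
        n / 1000)) * (⌈Real.exp (n * Real.log n / 32)⌉₊ : ℝ)) := by positivity
  exact one_div_le_one_div_of_le h8 h5

/-- independence over clusters -/
theorem num_P : ∀ᶠ n : ℕ in atTop,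
    (1 - Real.exp (-(n / 100 : ℝ))) ^ ⌈(13 / 10 : ℝ) ^ n⌉₊ ≤ Real.exp (-(128 / 100 : ℝ) ^ n) := by
  filter_upwards with n
  set x := Real.exp (-(n / 100 : ℝ)) with hx
  have hx0 : 0 < x := Real.exp_pos _
  have hx1 : x ≤ 1 := Real.exp_le_one_iff.2 (by
    have : (0 : ℝ) ≤ n := Nat.cast_nonneg n
    linarith)
  have h1 : 1 - x ≤ Real.exp (-x) := by linarith [Real.add_one_le_exp (-x)]
  refine (pow_le_pow_left₀ (by linarith) h1 _).trans ?_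
  rw [← Real.exp_nat_mul]
  refine Real.exp_le_exp.2 ?_
  have h2 : ((13 / 10 : ℝ)) ^ n ≤ (⌈(13 / 10 : ℝ) ^ n⌉₊ : ℝ) := Nat.le_ceil _
  have h3 : (128 / 100 : ℝ) ^ n ≤ (13 / 10 : ℝ) ^ n * x := by
    have e : x = (Real.exp (-(1 / 100))) ^ n := by
      rw [hx, ← Real.exp_nat_mul]; congr 1; ring
    rw [e, ← mul_pow]
    refine pow_le_pow_left₀ (by norm_num) ?_ n
    have := Real.add_one_le_exp (-(1 / 100) : ℝ)
    linarith
  have h4 : (13 / 10 : ℝ) ^ n * x ≤ (⌈(13 / 10 : ℝ) ^ n⌉₊ : ℝ) * x :=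
    mul_le_mul_of_nonneg_right h2 hx0.le
  linarith

/-- union bound -/
theorem num_U : ∀ᶠ n : ℕ in atTop,
    ((5 * (n : ℝ) ^ 3) ^ n + 1) ^ ⌊4 * lam n * (6 / 5) ^ n⌋₊ * Real.exp (-(128 / 100 : ℝ) ^ n)
      ≤ 1 / 20 := by
  have ht := tendsto_pow_const_div_const_pow_of_one_lt 6 (r := (16 / 15 : ℝ)) (by norm_num)
  have ht2 : ∀ᶠ n : ℕ in atTop, (n : ℝ) ^ 6 / (16 / 15 : ℝ) ^ n < 1 / 48 :=
    ht.eventually (gt_mem_nhds (by norm_num))
  filter_upwards [NumB_log_large, eventually_ge_atTop 1, ht2] with n hlog hn h6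
  have hn1 : (1 : ℝ) ≤ n := by exact_mod_cast hn
  set K := ⌊4 * lam n * (6 / 5) ^ n⌋₊ with hK
  have hlam0 : 0 ≤ lam n := by unfold lam; positivity
  have hlam : lam n ≤ n ^ 2 / 4 := by
    unfold lam
    have : Real.log n ≤ n := (Real.log_le_sub_one_of_pos (by linarith)).trans (by linarith)
    have h0 : 0 ≤ Real.log n := by linarith
    nlinarith
  have hK1 : (K : ℝ) ≤ n ^ 2 * (6 / 5) ^ n := by
    refine (Nat.floor_le (by positivity)).trans ?_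
    have : (0 : ℝ) ≤ (6 / 5) ^ n := by positivity
    nlinarith
  have h7 : (5 * (n : ℝ) ^ 3) ^ n + 1 ≤ Real.exp (6 * n ^ 4) := by
    have e1 : (5 * (n : ℝ) ^ 3) ^ n + 1 ≤ (6 * (n : ℝ) ^ 3) ^ n := by
      have hn3 : (1 : ℝ) ≤ (n : ℝ) ^ 3 := one_le_pow₀ hn1
      obtain ⟨k, rfl⟩ : ∃ k, n = k + 1 := ⟨n - 1, by omega⟩
      have e2 : (5 * ((k + 1 : ℕ) : ℝ) ^ 3) ^ k ≤ (6 * ((k + 1 : ℕ) : ℝ) ^ 3) ^ k :=
        pow_le_pow_left₀ (by positivity) (by linarith) k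
      have e3 : (1 : ℝ) ≤ (6 * ((k + 1 : ℕ) : ℝ) ^ 3) ^ k := one_le_pow₀ (by linarith)
      rw [pow_succ (5 * ((k + 1 : ℕ) : ℝ) ^ 3) k, pow_succ (6 * ((k + 1 : ℕ) : ℝ) ^ 3) k]
      set y := ((k + 1 : ℕ) : ℝ) ^ 3
      set A := (5 * y) ^ k
      set B := (6 * y) ^ k
      nlinarith [mul_nonneg (sub_nonneg.2 e2) (by linarith : (0 : ℝ) ≤ y),
        mul_nonneg (sub_nonneg.2 e3) (by linarith : (0 : ℝ) ≤ y)]
    have e2 : 6 * (n : ℝ) ^ 3 ≤ Real.exp (6 * n ^ 3) := by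
      linarith [Real.add_one_le_exp (6 * (n : ℝ) ^ 3)]
    have e3 : (6 * (n : ℝ) ^ 3) ^ n ≤ (Real.exp (6 * n ^ 3)) ^ n :=
      pow_le_pow_left₀ (by positivity) e2 n
    refine e1.trans (e3.trans (le_of_eq ?_))
    rw [← Real.exp_nat_mul]
    congr 1; ring
  have h8 : ((5 * (n : ℝ) ^ 3) ^ n + 1) ^ K ≤ Real.exp (6 * n ^ 6 * (6 / 5) ^ n) := by
    refine (pow_le_pow_left₀ (by positivity) h7 K).trans ?_
    rw [← Real.exp_nat_mul]
    refine Real.exp_le_exp.2 ?_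
    have : (K : ℝ) * (6 * n ^ 4) ≤ (n ^ 2 * (6 / 5) ^ n) * (6 * n ^ 4) :=
      mul_le_mul_of_nonneg_right hK1 (by positivity)
    refine this.trans (le_of_eq ?_)
    ring
  refine (mul_le_mul_of_nonneg_right h8 (Real.exp_pos _).le).trans ?_
  rw [← Real.exp_add]
  -- exponent
  have h9 : (128 / 100 : ℝ) ^ n = (16 / 15 : ℝ) ^ n * (6 / 5) ^ n := by
    rw [← mul_pow]; congr 1; norm_num
  have h10 : (n : ℝ) ^ 6 * 48 ≤ (16 / 15 : ℝ) ^ n := by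
    have hp : (0 : ℝ) < (16 / 15 : ℝ) ^ n := by positivity
    rw [div_lt_iff₀ hp] at h6
    linarith
  have h11 : (1 : ℝ) ≤ (6 / 5 : ℝ) ^ n := one_le_pow₀ (by norm_num)
  have h12 : (1 : ℝ) ≤ (n : ℝ) ^ 6 := one_le_pow₀ hn1
  have h13 : 6 * (n : ℝ) ^ 6 * (6 / 5) ^ n + -(128 / 100 : ℝ) ^ n ≤ -42 := by
    rw [h9]
    have : (n : ℝ) ^ 6 * 48 * (6 / 5 : ℝ) ^ n ≤ (16 / 15 : ℝ) ^ n * (6 / 5) ^ n :=
      mul_le_mul_of_nonneg_right h10 (by positivity)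
    have h14 : 1 ≤ (n : ℝ) ^ 6 * (6 / 5 : ℝ) ^ n := by nlinarith
    nlinarith
  refine (Real.exp_le_exp.2 h13).trans ?_
  rw [Real.exp_neg, ← one_div]
  refine one_div_le_one_div_of_le (by norm_num) ?_
  linarith [Real.add_one_le_exp (42 : ℝ)]

end P230
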