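import Vale.Agent.H14.CD.ZMass
import Vale.Agent.H14.CD.BernC
import Vale.Agent.H14.CD.BernE

/-! Row P3: pair correlation for separated `x`, `x'`. -/

namespace P230
open MeasureTheory Metric Finset Filter
open scoped RealInnerProductSpace ENNReal

theorem Pair.num : ∀ᶠ n : ℕ in atTop, ∃ u : ℝ, 10 ^ 7 ≤ u ∧ (n : ℝ) = u ^ 16 ∧
    (n : ℝ) * ((n : ℝ) ^ (-(1 / 16) : ℝ)) ^ 2 = u ^ 14 ∧ (n : ℝ) ^ (3 / 4 : ℝ) = u ^ 12 ∧
    Real.log n + 1 ≤ u ∧ r1 n ≤ (n : ℝ) ^ (-(1 / 16) : ℝ) := by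
  have h1 := ZMass.num 1 1 (1 / 16) (by norm_num) (by norm_num)
  have h4 : Tendsto (fun n : ℕ => (n : ℝ) ^ (1 / 16 : ℝ)) atTop atTop :=
    (tendsto_rpow_atTop (by norm_num)).comp tendsto_natCast_atTop_atTop
  filter_upwards [h1, h4.eventually (eventually_ge_atTop (10 ^ 7)), eventually_ge_atTop 1] with
    n g1 g2 g3
  have hn1 : (1 : ℝ) ≤ n := by exact_mod_cast g3
  have hn0 : (0 : ℝ) < n := by linarith
  refine ⟨(n : ℝ) ^ (1 / 16 : ℝ), g2, ?_, ?_, ?_, by linarith, ?_⟩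
  · rw [← Real.rpow_natCast, ← Real.rpow_mul hn0.le]; norm_num
  · rw [← Real.rpow_natCast, ← Real.rpow_mul hn0.le, ← Real.rpow_natCast, ← Real.rpow_mul hn0.le]
    nth_rewrite 1 [← Real.rpow_one (n : ℝ)]
    rw [← Real.rpow_add hn0]; norm_num
  · rw [← Real.rpow_natCast, ← Real.rpow_mul hn0.le]; norm_num
  · unfold r1
    exact Real.rpow_le_rpow_of_exponent_le hn1 (by norm_num)

/-- the numerical estimate for the mass of the common cells -/
theorem Pair.num2 : ∀ᶠ n : ℕ in atTop,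
    Real.exp (kap n * (C0 * (4 * Real.log n + 1) + 2)) ^ 2 *
      ((96 * lam n) * ((96 * lam n) *
        (2 * Real.exp (-(n * ((n : ℝ) ^ (-(1 / 16) : ℝ)) ^ 2 / 8))))) ≤ 1 := by
  filter_upwards [Pair.num, eventually_ge_atTop 2] with n hnum hn2
  obtain ⟨u, u1, u2, u3, u4, u5, u6⟩ := hnum
  have hn1 : (2 : ℝ) ≤ n := by exact_mod_cast hn2
  have hn0 : (0 : ℝ) < n := by linarith
  have hlog : 0 ≤ Real.log n := Real.log_nonneg (by linarith)
  have hlogn : Real.log n ≤ n := (Real.log_le_sub_one_of_pos hn0).trans (by linarith)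
  have hu0 : 0 < u := by linarith
  have hC : C0 = 60000 := rfl
  rw [u3, ← Real.exp_nat_mul]
  have hkap : (kap n : ℝ) ≤ 2 * u ^ 12 := by
    have h1 : (kap n : ℝ) < (n : ℝ) ^ (3 / 4 : ℝ) + 1 := Nat.ceil_lt_add_one (by positivity)
    rw [u4] at h1
    have : (1 : ℝ) ≤ u ^ 12 := one_le_pow₀ (by linarith)
    linarith
  have h2 : C0 * (4 * Real.log n + 1) + 2 ≤ C0 * 4 * u := by
    rw [hC]; nlinarith
  have h3 : ((2 : ℕ) : ℝ) * (kap n * (C0 * (4 * Real.log n + 1) + 2)) ≤ 960000 * u ^ 13 := by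
    have : (kap n : ℝ) * (C0 * (4 * Real.log n + 1) + 2) ≤ (2 * u ^ 12) * (C0 * 4 * u) := by
      apply mul_le_mul hkap h2 _ (by positivity)
      rw [hC]; positivity
    rw [hC] at this ⊢
    push_cast
    nlinarith
  have h4 : (96 * lam n) * ((96 * lam n) * 2) ≤ Real.exp (4 * u) := by
    have h41 : 96 * lam n * 2 ≤ n ^ 2 := by unfold lam; nlinarith
    have h42 : 0 ≤ lam n := by unfold lam; positivity
    have h43 : (96 * lam n) * ((96 * lam n) * 2) ≤ n ^ 2 * n ^ 2 := by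
      have : 96 * lam n ≤ n ^ 2 := by linarith
      apply mul_le_mul this h41 (by positivity) (by positivity)
    refine h43.trans ?_
    have h44 : (n : ℝ) ≤ Real.exp u := by
      have := Real.exp_log hn0
      calc (n : ℝ) = Real.exp (Real.log n) := this.symm
        _ ≤ Real.exp u := Real.exp_le_exp.2 (by linarith)
    calc (n : ℝ) ^ 2 * (n : ℝ) ^ 2 = (n : ℝ) ^ 4 := by ring
      _ ≤ (Real.exp u) ^ 4 := pow_le_pow_left₀ hn0.le h44 4
      _ = Real.exp (4 * u) := by rw [← Real.exp_nat_mul]; norm_num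
  have h5 : (96 * lam n) * ((96 * lam n) * (2 * Real.exp (-(u ^ 14 / 8))))
      ≤ Real.exp (4 * u) * Real.exp (-(u ^ 14 / 8)) := by
    calc (96 * lam n) * ((96 * lam n) * (2 * Real.exp (-(u ^ 14 / 8))))
        = ((96 * lam n) * ((96 * lam n) * 2)) * Real.exp (-(u ^ 14 / 8)) := by ring
      _ ≤ _ := mul_le_mul_of_nonneg_right h4 (Real.exp_pos _).le
  calc _ ≤ Real.exp (960000 * u ^ 13) * (Real.exp (4 * u) * Real.exp (-(u ^ 14 / 8))) := by
        apply mul_le_mul (Real.exp_le_exp.2 h3) h5 _ (Real.exp_pos _).le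
        have h42 : 0 ≤ lam n := by unfold lam; positivity
        positivity
    _ = Real.exp (960000 * u ^ 13 + (4 * u + -(u ^ 14 / 8))) := by
        rw [Real.exp_add, Real.exp_add]
    _ ≤ 1 := by
        rw [Real.exp_le_one_iff]
        have h13 : u ≤ u ^ 13 := by
          have : (1 : ℝ) ≤ u ^ 12 := one_le_pow₀ (by linarith)
          calc u = 1 * u := by ring
            _ ≤ u ^ 12 * u := mul_le_mul_of_nonneg_right this hu0.le
            _ = u ^ 13 := by ring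
        have h14 : 10 ^ 7 * u ^ 13 ≤ u ^ 14 := by
          calc 10 ^ 7 * u ^ 13 ≤ u * u ^ 13 := mul_le_mul_of_nonneg_right u1 (by positivity)
            _ = u ^ 14 := by ring
        linarith

open Classical in
/-- local hitting probability -/
theorem Pair.loc {n : ℕ} {ι : Type} [Fintype ι] [DecidableEq ι]
    {g : ι → E n} {m : ι → ℝ} (hS : Sys n g m) (hlog : 0 ≤ Real.log n) (x : E n)
    (R : Finset (E n))
    (hmass : ∀ p ∈ R, Real.exp (-(C0 * (4 * Real.log n + 1) + 1)) ≤ ∑ c ∈ Zs g x R p, m c)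
    (hR : ∀ p ∈ R, (R.filter (fun p' => dist p p' ≤ r1 n)).card < kap n) (c : ι) :
    1 ≤ Real.exp (kap n * (C0 * (4 * Real.log n + 1) + 2)) *
      Pr (pm m) (fun ω => ∀ i ∈ R, c ∈ Zs g x R i → ∃ g' ∈ ω, g' ∈ Zs g x R i) := by
  have hC : (0 : ℝ) < C0 := by unfold C0; norm_num
  set I : Finset (E n) := R.filter (fun p => c ∈ Zs g x R p) with hI
  have hcard : (I.card : ℝ) ≤ kap n := by
    by_cases hne : I.Nonempty
    · obtain ⟨p0, hp0⟩ := hne
      rw [hI, Finset.mem_filter] at hp0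
      have hsub : I ⊆ R.filter (fun p' => dist p0 p' ≤ r1 n) := by
        intro p hp
        rw [hI, Finset.mem_filter] at hp
        rw [Finset.mem_filter]
        refine ⟨hp.1, ?_⟩
        by_contra hcon
        push Not at hcon
        rw [dist_eq_norm] at hcon
        have h1 := (Finset.mem_filter.1 hp0.2).2.2 p hp.1 hcon
        have h2 := (Finset.mem_filter.1 hp.2).2.1
        linarith
      have := (Finset.card_le_card hsub).trans (hR p0 hp0.1).le
      exact_mod_cast this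
    · rw [Finset.not_nonempty_iff_eq_empty] at hne
      rw [hne]; simp
  have hall := hit_all m hS.nonneg I (fun p => Zs g x R p)
    (fun _ => C0 * (4 * Real.log n + 1) + 1) (fun p _ => by positivity)
    (fun p hp => hmass p (Finset.mem_filter.1 hp).1)
  have heq : Pr (pm m) (fun ω => ∀ i ∈ I, ∃ c ∈ ω, c ∈ Zs g x R i) =
      Pr (pm m) (fun ω => ∀ i ∈ R, c ∈ Zs g x R i → ∃ g' ∈ ω, g' ∈ Zs g x R i) := by
    congr 1
    funext ω
    apply propext
    constructor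
    · intro h i hi hc
      exact h i (Finset.mem_filter.2 ⟨hi, hc⟩)
    · intro h i hi
      exact h i (Finset.mem_filter.1 hi).1 (Finset.mem_filter.1 hi).2
  rw [← heq]
  have h1 : Real.exp (-(kap n * (C0 * (4 * Real.log n + 1) + 2))) ≤
      Real.exp (-∑ i ∈ I, (C0 * (4 * Real.log n + 1) + 1 + 1)) := by
    apply Real.exp_le_exp.2
    apply neg_le_neg
    rw [Finset.sum_const, nsmul_eq_mul]
    calc (I.card : ℝ) * (C0 * (4 * Real.log n + 1) + 1 + 1)
        ≤ kap n * (C0 * (4 * Real.log n + 1) + 1 + 1) :=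
          mul_le_mul_of_nonneg_right hcard (by positivity)
      _ = kap n * (C0 * (4 * Real.log n + 1) + 2) := by ring
  have h2 := mul_le_mul_of_nonneg_left (h1.trans hall)
    (Real.exp_pos (kap n * (C0 * (4 * Real.log n + 1) + 2))).le
  rw [← Real.exp_add, add_neg_cancel, Real.exp_zero] at h2
  exact h2

open Classical in
/-- mass of the common cells -/
theorem Pair.common {n : ℕ} {ι : Type} [Fintype ι] [DecidableEq ι]
    {g : ι → E n} {m : ι → ℝ} (hS : Sys n g m) (x x' : E n) (S R R' : Finset (E n))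
    (hR : R ⊆ near n S x) (hR' : R' ⊆ near n S x')
    (hr : r1 n ≤ (n : ℝ) ^ (-(1 / 16) : ℝ))
    (hsep : ∀ p ∈ S, ∀ p' ∈ S, (n : ℝ) ^ (-(1 / 16) : ℝ) < ‖x - x' - (p - p')‖)
    (hc : (R.card : ℝ) ≤ 96 * lam n) (hc' : (R'.card : ℝ) ≤ 96 * lam n) (hl : 0 ≤ lam n) :
    ∑ c ∈ univ.filter (fun c => (∃ i ∈ R, c ∈ Zs g x R i) ∧ (∃ i ∈ R', c ∈ Zs g x' R' i)),
      pm m c ≤ (96 * lam n) * ((96 * lam n) *
        (2 * Real.exp (-(n * ((n : ℝ) ^ (-(1 / 16) : ℝ)) ^ 2 / 8)))) := by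
  set T : Finset ι := R.biUnion (fun p => R'.biUnion
    (fun p' => univ.filter (fun c => aa < ⟪x - p, g c⟫ ∧ aa < ⟪x' - p', g c⟫))) with hT
  have hdl : 0 ≤ dl n := by unfold dl; positivity
  have hsub : univ.filter (fun c => (∃ i ∈ R, c ∈ Zs g x R i) ∧ (∃ i ∈ R', c ∈ Zs g x' R' i))
      ⊆ T := by
    intro c hc
    obtain ⟨⟨p, hp, h1⟩, ⟨p', hp', h2⟩⟩ := (Finset.mem_filter.1 hc).2
    rw [hT, Finset.mem_biUnion]
    refine ⟨p, hp, Finset.mem_biUnion.2 ⟨p', hp', Finset.mem_filter.2 ⟨Finset.mem_univ _, ?_, ?_⟩⟩⟩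
    · have := (Finset.mem_filter.1 h1).2.1
      linarith
    · have := (Finset.mem_filter.1 h2).2.1
      linarith
  have hpair : ∀ p ∈ R, ∀ p' ∈ R',
      ∑ c ∈ univ.filter (fun c => aa < ⟪x - p, g c⟫ ∧ aa < ⟪x' - p', g c⟫), m c ≤
        2 * Real.exp (-(n * ((n : ℝ) ^ (-(1 / 16) : ℝ)) ^ 2 / 8)) := by
    intro p hp p' hp'
    have m1 := Finset.mem_filter.1 (hR hp)
    have m2 := Finset.mem_filter.1 (hR' hp')
    have hd : x - p - (x' - p') = x - x' - (p - p') := by abel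
    have hs := hsep p m1.1 p' m2.1
    have h3 := hS.M3 (x - p) (x' - p') m1.2 m2.2 (by rw [hd]; exact hr.trans hs.le)
    refine h3.trans ?_
    rw [hd]
    have h0 : (0 : ℝ) ≤ (n : ℝ) ^ (-(1 / 16) : ℝ) := by positivity
    have h4 : ((n : ℝ) ^ (-(1 / 16) : ℝ)) ^ 2 ≤ ‖x - x' - (p - p')‖ ^ 2 :=
      pow_le_pow_left₀ h0 hs.le 2
    have h5 : -(n * ‖x - x' - (p - p')‖ ^ 2 / 8) ≤ -(n * ((n : ℝ) ^ (-(1 / 16) : ℝ)) ^ 2 / 8) := by
      have := mul_le_mul_of_nonneg_left h4 (Nat.cast_nonneg (α := ℝ) n)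
      linarith
    have := Real.exp_le_exp.2 h5
    linarith
  set θ : ℝ := 2 * Real.exp (-(n * ((n : ℝ) ^ (-(1 / 16) : ℝ)) ^ 2 / 8)) with hθ
  have hθ0 : 0 ≤ θ := by positivity
  calc ∑ c ∈ univ.filter (fun c => (∃ i ∈ R, c ∈ Zs g x R i) ∧ (∃ i ∈ R', c ∈ Zs g x' R' i)),
      pm m c
      ≤ ∑ c ∈ T, m c := by
        refine le_trans (Finset.sum_le_sum fun c _ => pm_le m c) ?_
        exact Finset.sum_le_sum_of_subset_of_nonneg hsub fun c _ _ => hS.nonneg c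
    _ ≤ ∑ p ∈ R, ∑ c ∈ R'.biUnion
        (fun p' => univ.filter (fun c => aa < ⟪x - p, g c⟫ ∧ aa < ⟪x' - p', g c⟫)), m c :=
        ZMass.biUnion _ _ _ hS.nonneg
    _ ≤ ∑ _p ∈ R, (96 * lam n) * θ := by
        apply Finset.sum_le_sum
        intro p hp
        calc _ ≤ ∑ p' ∈ R', ∑ c ∈ univ.filter
              (fun c => aa < ⟪x - p, g c⟫ ∧ aa < ⟪x' - p', g c⟫), m c :=
              ZMass.biUnion _ _ _ hS.nonneg
          _ ≤ ∑ _p' ∈ R', θ := Finset.sum_le_sum fun p' hp' => hpair p hp p' hp'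
          _ = R'.card * θ := by rw [Finset.sum_const, nsmul_eq_mul]
          _ ≤ (96 * lam n) * θ := mul_le_mul_of_nonneg_right hc' hθ0
    _ = R.card * ((96 * lam n) * θ) := by rw [Finset.sum_const, nsmul_eq_mul]
    _ ≤ (96 * lam n) * ((96 * lam n) * θ) := mul_le_mul_of_nonneg_right hc (by positivity)

open Classical in
/-- `corr_le` with `B = exp (kap n * (C0 (4 log n + 1) + 2))`; the common cells have mass at most
`(96 lam n)^2 * 2 exp (-n^{7/8}/8)` by (M3) since `‖(x-p)-(x'-p')‖ > n^{-1/16} ≥ r1 n`. -/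
theorem pair_bound : ∀ᶠ n : ℕ in atTop, ∀ (ι : Type) (_ : Fintype ι) (_ : DecidableEq ι)
    (g : ι → E n) (m : ι → ℝ), Sys n g m → ∀ (S : Finset (E n)) (x x' : E n),
    (W n S x : ℝ) ≤ 96 * lam n → (W n S x' : ℝ) ≤ 96 * lam n →
    (∀ p ∈ S, ∀ p' ∈ S, (n : ℝ) ^ (-(1 / 16) : ℝ) < ‖x - x' - (p - p')‖) →
    ∀ R ⊆ near n S x, ∀ R' ⊆ near n S x',
    (∀ p ∈ R, (R.filter (fun p' => dist p p' ≤ r1 n)).card < kap n) →
    (∀ p ∈ R', (R'.filter (fun p' => dist p p' ≤ r1 n)).card < kap n) →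
      Pr (pm m) (fun ω => FS g x R ω ∧ FS g x' R' ω) ≤
        3 * (Pr (pm m) (FS g x R) * Pr (pm m) (FS g x' R')) := by
  filter_upwards [W_spec, Zs_mass, Pair.num, Pair.num2, eventually_ge_atTop 2] with
    n hW hZ hnum hnum2 hn2
  intro ι _ _ g m hS S x x' hWx hWx' hsep R hR R' hR' hcl hcl'
  have hC : (0 : ℝ) < C0 := by unfold C0; norm_num
  have hn1 : (2 : ℝ) ≤ n := by exact_mod_cast hn2
  have hlog : 0 ≤ Real.log n := Real.log_nonneg (by linarith)
  obtain ⟨w1, w2, w3, w4⟩ := hW S x hWx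
  obtain ⟨w1', w2', w3', w4'⟩ := hW S x' hWx'
  obtain ⟨u, -, -, -, -, -, hr⟩ := hnum
  have hmass : ∀ (y : E n), (W n S y : ℝ) ≤ 96 * lam n → ∀ Q ⊆ near n S y, ∀ p ∈ Q,
      Real.exp (-(C0 * (4 * Real.log n + 1) + 1)) ≤ ∑ c ∈ Zs g y Q p, m c := by
    intro y hy Q hQ p hp
    refine le_trans ?_ (hZ ι _ g m hS S y hy Q hQ p hp)
    apply Real.exp_le_exp.2
    apply neg_le_neg
    have hk : (kd n (y - p) : ℝ) ≤ 4 * Real.log n := by
      have h1 := ((hW S y hy).1 p (hQ hp)).2.1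
      have : (kd n (y - p) : ℝ) ≤ kk n + 1 := by exact_mod_cast h1
      linarith
    nlinarith
  have hcR : (R.card : ℝ) ≤ 96 * lam n :=
    le_trans (by exact_mod_cast Finset.card_le_card hR) w3
  have hcR' : (R'.card : ℝ) ≤ 96 * lam n :=
    le_trans (by exact_mod_cast Finset.card_le_card hR') w3'
  have hl : 0 ≤ lam n := by unfold lam; positivity
  have hB : 1 ≤ Real.exp (kap n * (C0 * (4 * Real.log n + 1) + 2)) := by
    exact Real.one_le_exp (by positivity)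
  have hcorr := corr_le (pm m) (pm_nonneg m hS.nonneg) (pm_le_one m) R R'
    (fun p => Zs g x R p) (fun p => Zs g x' R' p) _ hB
    (Pair.loc hS hlog x R (hmass x hWx R hR) hcl)
    (Pair.loc hS hlog x' R' (hmass x' hWx' R' hR') hcl')
  have hcom := Pair.common hS x x' S R R' hR hR' hr hsep hcR hcR' hl
  have hexp : Real.exp (Real.exp (kap n * (C0 * (4 * Real.log n + 1) + 2)) ^ 2 *
      ∑ c ∈ univ.filter (fun c => (∃ i ∈ R, c ∈ Zs g x R i) ∧ (∃ i ∈ R', c ∈ Zs g x' R' i)),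
        pm m c) ≤ 3 := by
    have h1 : Real.exp (kap n * (C0 * (4 * Real.log n + 1) + 2)) ^ 2 *
      ∑ c ∈ univ.filter (fun c => (∃ i ∈ R, c ∈ Zs g x R i) ∧ (∃ i ∈ R', c ∈ Zs g x' R' i)),
        pm m c ≤ 1 :=
      (mul_le_mul_of_nonneg_left hcom (by positivity)).trans hnum2
    refine (Real.exp_le_exp.2 h1).trans ?_
    have := Real.exp_one_lt_d9
    linarith
  refine hcorr.trans ?_
  have hP : 0 ≤ Pr (pm m) (FS g x R) * Pr (pm m) (FS g x' R') :=
    mul_nonneg (Pr_nonneg _ (pm_nonneg m hS.nonneg) (pm_le_one m) _)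
      (Pr_nonneg _ (pm_nonneg m hS.nonneg) (pm_le_one m) _)
  calc _ ≤ Pr (pm m) (FS g x R) * Pr (pm m) (FS g x' R') * 3 :=
        mul_le_mul_of_nonneg_left hexp hP
    _ = _ := by ring

end P230
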