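import Vale.Agent.H14.CD.Clus
import Vale.Agent.H14.CD.Greedy
import Vale.Agent.H14.CD.FProb
import Vale.Agent.H14.CD.Pair
import Vale.Agent.H14.CD.BernF
import Vale.Agent.H14.CD.NumA
import Vale.Agent.H14.CD.NumB

/-! Row P4: one cluster. -/

namespace P230
open MeasureTheory Metric Finset Filter
open scoped RealInnerProductSpace ENNReal

theorem Cluster.FS_mono {n : ℕ} {ι : Type} [Fintype ι] (g : ι → E n) (x : E n)
    (R : Finset (E n)) (ω ω' : Finset ι) (h : ω ⊆ ω') (hF : FS g x R ω) : FS g x R ω' := by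
  intro p hp
  obtain ⟨c, hc, hc2⟩ := hF p hp
  exact ⟨c, h hc, hc2⟩

theorem Cluster.FB_mono {n : ℕ} {ι : Type} [Fintype ι] (g : ι → E n) (x : E n)
    (R : Finset (E n)) (ω ω' : Finset ι) (h : ω ⊆ ω') (hF : FB g x R ω) : FB g x R ω' := by
  intro p hp
  obtain ⟨c, hc, hc2⟩ := hF p hp
  exact ⟨c, h hc, hc2⟩

/-- volumes -/
theorem Cluster.vol_fit {n : ℕ} (G : Set (E n)) (s M : ℕ) (a η ρ : ℝ) (hρ : 0 < ρ) (hη : 0 ≤ η)
    (ha : (s : ℝ) ≤ a) (hM : (M : ℝ) * a ^ 2 * (ρ⁻¹ * η) ^ n < 1 / 2)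
    (hG : volume (ball (0 : E n) ρ) / 2 ≤ volume G) :
    (M : ℝ≥0∞) * (s : ℝ≥0∞) ^ 2 * volume (closedBall (0 : E n) η) < volume G := by
  refine lt_of_lt_of_le ?_ hG
  have hfr : Module.finrank ℝ (E n) = n := by simp
  have h1 : volume (closedBall (0 : E n) η) = ENNReal.ofReal (η ^ n) * volume (ball (0 : E n) 1) := by
    rw [Measure.addHaar_closedBall _ _ hη, hfr]
  have h2 : volume (ball (0 : E n) ρ) = ENNReal.ofReal (ρ ^ n) * volume (ball (0 : E n) 1) := by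
    rw [Measure.addHaar_ball_of_pos _ _ hρ, hfr]
  have hV0 : volume (ball (0 : E n) 1) ≠ 0 := (measure_ball_pos volume _ one_pos).ne'
  have hVt : volume (ball (0 : E n) 1) ≠ ⊤ := measure_ball_lt_top.ne
  have hs0 : (0 : ℝ) ≤ s := Nat.cast_nonneg _
  have hM0 : (0 : ℝ) ≤ M := Nat.cast_nonneg _
  have hreal : (M : ℝ) * (s : ℝ) ^ 2 * η ^ n < ρ ^ n / 2 := by
    have h3 : (M : ℝ) * (s : ℝ) ^ 2 * (ρ⁻¹ * η) ^ n < 1 / 2 := by
      refine lt_of_le_of_lt ?_ hM
      have : (s : ℝ) ^ 2 ≤ a ^ 2 := pow_le_pow_left₀ hs0 ha 2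
      gcongr
    have h4 : (M : ℝ) * (s : ℝ) ^ 2 * η ^ n = ((M : ℝ) * (s : ℝ) ^ 2 * (ρ⁻¹ * η) ^ n) * ρ ^ n := by
      rw [mul_pow, inv_pow]
      field_simp
    rw [h4]
    have h5 : 0 < ρ ^ n := by positivity
    nlinarith
  rw [h1, h2]
  have e1 : (M : ℝ≥0∞) * (s : ℝ≥0∞) ^ 2 * (ENNReal.ofReal (η ^ n) * volume (ball (0 : E n) 1))
      = ENNReal.ofReal ((M : ℝ) * (s : ℝ) ^ 2 * η ^ n) * volume (ball (0 : E n) 1) := by
    rw [ENNReal.ofReal_mul (by positivity), ENNReal.ofReal_mul (by positivity),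
      ENNReal.ofReal_natCast, ENNReal.ofReal_pow hs0, ENNReal.ofReal_natCast]
    ring
  have e2 : ENNReal.ofReal (ρ ^ n) * volume (ball (0 : E n) 1) / 2
      = ENNReal.ofReal (ρ ^ n / 2) * volume (ball (0 : E n) 1) := by
    rw [ENNReal.ofReal_div_of_pos (by norm_num)]
    simp only [ENNReal.ofReal_ofNat, div_eq_mul_inv]
    ring
  rw [e1, e2]
  apply (ENNReal.mul_lt_mul_iff_left hV0 hVt).2
  exact (ENNReal.ofReal_lt_ofReal_iff (by positivity)).2 hreal

/-- one cluster: choose `M` separated good points in `ball z (1/100)`, apply `second_moment` to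
`F j = FS ∧ FB`. -/
theorem cluster_bound : ∀ᶠ n : ℕ in atTop, ∀ (ι : Type) (_ : Fintype ι) (_ : DecidableEq ι)
    (g : ι → E n) (m : ι → ℝ), Sys n g m → ∀ (S : Finset (E n)),
    (S.card : ℝ) ≤ 4 * lam n * (6 / 5) ^ n → ∀ z : E n,
    volume (ball (0 : E n) (1 / 100)) / 2 ≤
      volume {x ∈ ball z (1 / 100) | (W n S x : ℝ) ≤ 96 * lam n} →
    Real.exp (-(n / 100 : ℝ)) ≤ Pr (pm m) (Unc g S z) := by
  classical
  filter_upwards [num_M, num_q, num_misc, FS_prob, FB_prob, pair_bound, eventually_ge_atTop 2]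
    with n hnM hnq hmisc hFS hFB hpair hn
  intro ι hι hdec g m hsys S hSc z hG
  set G : Set (E n) := {x ∈ ball z (1 / 100) | (W n S x : ℝ) ≤ 96 * lam n} with hGdef
  set M := ⌈Real.exp (n * Real.log n / 32)⌉₊ with hMdef
  have h0 : ∀ c, 0 ≤ pm m c := pm_nonneg m hsys.nonneg
  have h1 : ∀ c, pm m c ≤ 1 := pm_le_one m
  have hMpos : 0 < M := Nat.ceil_pos.2 (Real.exp_pos _)
  have hη : (0 : ℝ) ≤ (n : ℝ) ^ (-(1 / 16) : ℝ) := by positivity
  obtain ⟨x, hxG, hxs⟩ := greedy_sep n G S ((n : ℝ) ^ (-(1 / 16) : ℝ)) M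
    (Cluster.vol_fit G S.card M (4 * lam n * (6 / 5) ^ n) _ (1 / 100) (by norm_num) hη hSc
      (by norm_num at hnM ⊢; exact hnM) hG)
  have hr0 : 0 ≤ r1 n := hmisc.2.2.1.le
  choose Q R hQ hR hcard hcov hsmall using fun j => clusters (r1 n) hr0 (kap n) (near n S (x j))
  have hxW : ∀ j, (W n S (x j) : ℝ) ≤ 96 * lam n := fun j => (hxG j).2
  set F : Fin M → Finset ι → Prop := fun j ω => FS g (x j) (R j) ω ∧ FB g (x j) (Q j) ω with hF
  have hFlow : ∀ j, Pr (pm m) (FS g (x j) (R j)) * Real.exp (-(n / 1000 : ℝ)) ≤ Pr (pm m) (F j) := by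
    intro j
    have h2 := harris (pm m) h0 h1 (FS g (x j) (R j)) (FB g (x j) (Q j))
      (fun ω ω' h h' => Cluster.FS_mono g _ _ ω ω' h h')
      (fun ω ω' h h' => Cluster.FB_mono g _ _ ω ω' h h')
    refine le_trans ?_ h2
    apply mul_le_mul_of_nonneg_left _ (Pr_nonneg _ h0 h1 _)
    exact hFB ι hι hdec g m hsys S (x j) (hxW j) (Q j) (hQ j) (hcard j)
  have hsm := second_moment (pm m) h0 h1 (univ : Finset (Fin M)) ⟨⟨0, hMpos⟩, mem_univ _⟩ F
    (Real.exp (-((2 * C0 + 2) * (96 * lam n) + n / 1000))) (3 * Real.exp (2 * (n / 1000 : ℝ)))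
    (Real.exp_pos _) (by positivity) ?_ ?_
  · rw [Finset.card_univ, Fintype.card_fin] at hsm
    refine le_trans (le_trans hnq hsm) ?_
    apply Pr_mono _ h0 h1
    rintro ω ⟨j, -, hj1, hj2⟩
    refine ⟨x j, (hxG j).1, ?_⟩
    intro p hp
    rcases hcov j p hp with hpR | ⟨q, hq, hpq⟩
    · obtain ⟨c, hc, hc2⟩ := hj1 p hpR
      unfold Zs at hc2
      rw [Finset.mem_filter] at hc2
      exact ⟨c, hc, hc2.2.1⟩
    · obtain ⟨c, hc, hc2⟩ := hj2 q hq
      unfold Zb at hc2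
      rw [Finset.mem_filter] at hc2
      refine ⟨c, hc, ?_⟩
      have h3 : x j - p = (x j - q) + (q - p) := by abel
      rw [h3, inner_add_left]
      have h4 : -(r1 n) ≤ ⟪q - p, g c⟫ := by
        have h5 : |⟪q - p, g c⟫| ≤ ‖q - p‖ * ‖g c‖ := abs_real_inner_le_norm _ _
        have h6 : ‖q - p‖ * ‖g c‖ ≤ r1 n * 1 := by
          apply mul_le_mul _ (hsys.norm_le c) (norm_nonneg _) hr0
          rw [← dist_eq_norm, dist_comm]
          exact hpq
        have h7 := neg_abs_le ⟪q - p, g c⟫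
        linarith
      linarith [hc2.2]
  · intro j _
    refine le_trans ?_ (hFlow j)
    have h2 := hFS ι hι hdec g m hsys S (x j) (hxW j) (R j) (hR j)
    calc Real.exp (-((2 * C0 + 2) * (96 * lam n) + n / 1000))
        = Real.exp (-((2 * C0 + 2) * (96 * lam n))) * Real.exp (-(n / 1000 : ℝ)) := by
          rw [← Real.exp_add]; congr 1; ring
      _ ≤ _ := by
          apply mul_le_mul_of_nonneg_right h2 (Real.exp_pos _).le
  · intro i _ j _ hij
    have h2 := hpair ι hι hdec g m hsys S (x i) (x j) (hxW i) (hxW j) (hxs i j hij) (R i) (hR i)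
      (R j) (hR j) (hsmall i) (hsmall j)
    have h3 : Pr (pm m) (fun ω => F i ω ∧ F j ω)
        ≤ Pr (pm m) (fun ω => FS g (x i) (R i) ω ∧ FS g (x j) (R j) ω) :=
      Pr_mono _ h0 h1 _ _ (fun ω h => ⟨h.1.1, h.2.1⟩)
    have h4 : Pr (pm m) (FS g (x i) (R i)) ≤ Real.exp (n / 1000 : ℝ) * Pr (pm m) (F i) := by
      have h5 := hFlow i
      have h6 : Real.exp (n / 1000 : ℝ) * (Pr (pm m) (FS g (x i) (R i)) * Real.exp (-(n / 1000 : ℝ)))
          = Pr (pm m) (FS g (x i) (R i)) := by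
        rw [mul_comm, mul_assoc, ← Real.exp_add]; simp
      rw [← h6]
      apply mul_le_mul_of_nonneg_left h5 (Real.exp_pos _).le
    have h5 : Pr (pm m) (FS g (x j) (R j)) ≤ Real.exp (n / 1000 : ℝ) * Pr (pm m) (F j) := by
      have h5 := hFlow j
      have h6 : Real.exp (n / 1000 : ℝ) * (Pr (pm m) (FS g (x j) (R j)) * Real.exp (-(n / 1000 : ℝ)))
          = Pr (pm m) (FS g (x j) (R j)) := by
        rw [mul_comm, mul_assoc, ← Real.exp_add]; simp
      rw [← h6]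
      apply mul_le_mul_of_nonneg_left h5 (Real.exp_pos _).le
    have hFi : 0 ≤ Pr (pm m) (F i) := Pr_nonneg _ h0 h1 _
    calc Pr (pm m) (fun ω => F i ω ∧ F j ω)
        ≤ 3 * (Pr (pm m) (FS g (x i) (R i)) * Pr (pm m) (FS g (x j) (R j))) := h3.trans h2
      _ ≤ 3 * ((Real.exp (n / 1000 : ℝ) * Pr (pm m) (F i)) *
            (Real.exp (n / 1000 : ℝ) * Pr (pm m) (F j))) := by
          apply mul_le_mul_of_nonneg_left _ (by norm_num)
          apply mul_le_mul h4 h5 (Pr_nonneg _ h0 h1 _)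
          positivity
      _ = 3 * Real.exp (2 * (n / 1000 : ℝ)) * (Pr (pm m) (F i) * Pr (pm m) (F j)) := by
          have h6 : Real.exp (2 * (n / 1000 : ℝ)) = Real.exp (n / 1000 : ℝ) * Real.exp (n / 1000 : ℝ) := by
            rw [← Real.exp_add]; congr 1; ring
          rw [h6]; ring

end P230
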