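import Vale.Agent.H14.CD.Defs

/-! Row A4: good sets from admissibility (Markov twice). -/

namespace P230
open MeasureTheory Metric Finset Filter
open scoped ENNReal

theorem GoodSet.kd_meas (n : ℕ) : Measurable (kd n) := by
  classical
  have h : kd n = fun v => ∑ k ∈ range (kk n + 1), if ‖v‖ ≤ 1 + dl n - k / n then 1 else 0 := by
    ext v
    unfold kd
    rw [Finset.card_filter]
  rw [h]
  apply Finset.measurable_sum
  intro k _
  exact Measurable.ite (measurableSet_le measurable_norm measurable_const) measurable_const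
    measurable_const

theorem GoodSet.W_meas (n : ℕ) (S : Finset (E n)) : Measurable (W n S) := by
  classical
  have h : W n S = fun x => ∑ p ∈ S, kd n (x - p) + n ^ 3 * ∑ p ∈ S,
      if ‖x - p‖ ≤ 1 + dl n - ((kk n : ℝ) + 1) / n then 1 else 0 := by
    ext x
    unfold W
    rw [Finset.card_filter]
  rw [h]
  apply Measurable.add
  · apply Finset.measurable_sum
    intro p _
    exact (GoodSet.kd_meas n).comp (measurable_id.sub_const p)
  · apply Measurable.mul measurable_const
    apply Finset.measurable_sum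
    intro p _
    exact Measurable.ite (measurableSet_le (measurable_id.sub_const p).norm measurable_const)
      measurable_const measurable_const

theorem GoodSet.W_meas' (n : ℕ) (S : Finset (E n)) :
    Measurable (fun x => (W n S x : ℝ≥0∞)) :=
  (measurable_from_top (f := fun k : ℕ => (k : ℝ≥0∞))).comp (GoodSet.W_meas n S)

theorem GoodSet.int_meas (n : ℕ) (S : Finset (E n)) :
    Measurable (fun z : E n => ∫⁻ x in ball z (1 / 100), (W n S x : ℝ≥0∞)) := by
  have h : (fun z : E n => ∫⁻ x in ball z (1 / 100), (W n S x : ℝ≥0∞))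
      = fun z : E n => ∫⁻ x, ({q : E n × E n | dist q.2 q.1 < 1 / 100}).indicator
          (fun q => (W n S q.2 : ℝ≥0∞)) (z, x) := by
    ext z
    rw [← lintegral_indicator measurableSet_ball]
    rfl
  rw [h]
  apply Measurable.lintegral_prod_right'
  apply Measurable.indicator
  · exact (GoodSet.W_meas' n S).comp measurable_snd
  · exact measurableSet_lt (measurable_snd.dist measurable_fst) measurable_const

/-- Markov: if `∫ f ≤ c * μ s / 2` then half of `s` satisfies `f < c` -/
theorem GoodSet.half {α : Type*} [MeasurableSpace α] (μ : Measure α) (s : Set α)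
    (hs : MeasurableSet s) (hfin : μ s ≠ ⊤) (f : α → ℝ≥0∞) (hf : Measurable f) (c : ℝ≥0∞)
    (hc0 : c ≠ 0) (hct : c ≠ ⊤) (h : ∫⁻ x in s, f x ∂μ ≤ c * (μ s / 2)) :
    μ s / 2 ≤ μ {x ∈ s | f x < c} := by
  have h1 : μ {x ∈ s | c ≤ f x} ≤ μ s / 2 := by
    have h2 := mul_meas_ge_le_lintegral₀ (μ := μ.restrict s) hf.aemeasurable c
    have h3 : (μ.restrict s) {x | c ≤ f x} = μ {x ∈ s | c ≤ f x} := by
      rw [Measure.restrict_apply (measurableSet_le measurable_const hf)]
      congr 1
      ext x
      simp [and_comm]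
    rw [h3] at h2
    have h4 := h2.trans h
    rwa [ENNReal.mul_le_mul_iff_right hc0 hct] at h4
  have h5 : μ s ≤ μ {x ∈ s | f x < c} + μ {x ∈ s | c ≤ f x} := by
    refine le_trans (measure_mono ?_) (measure_union_le _ _)
    intro x hx
    rcases lt_or_ge (f x) c with h | h
    · exact Or.inl ⟨hx, h⟩
    · exact Or.inr ⟨hx, h⟩
  have h6 : μ s / 2 + μ s / 2 ≤ μ {x ∈ s | f x < c} + μ s / 2 := by
    rw [ENNReal.add_halves]
    exact h5.trans (add_le_add le_rfl h1)
  exact (ENNReal.add_le_add_iff_right (ENNReal.div_ne_top hfin (by norm_num))).1 h6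

theorem good_set (n : ℕ) (hn : 2 ≤ n) (S : Finset (E n)) (hS : Adm n S) :
    volume (ball (0 : E n) (1 / 10)) / 2 ≤
      volume {z ∈ ball (0 : E n) (1 / 10) | volume (ball (0 : E n) (1 / 100)) / 2 ≤
        volume {x ∈ ball z (1 / 100) | (W n S x : ℝ) ≤ 96 * lam n}} := by
  have hlam : 0 < lam n := by
    unfold lam
    have h1 : (2 : ℝ) ≤ n := by exact_mod_cast hn
    have h2 : 0 < Real.log n := Real.log_pos (by linarith)
    positivity
  have hB1 : volume (ball (0 : E n) (1 / 10)) ≠ ⊤ := measure_ball_lt_top.ne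
  have hB2 : volume (ball (0 : E n) (1 / 100)) ≠ ⊤ := measure_ball_lt_top.ne
  have hB20 : volume (ball (0 : E n) (1 / 100)) ≠ 0 :=
    (measure_ball_pos _ _ (by norm_num)).ne'
  set c : ℝ≥0∞ := ENNReal.ofReal (48 * lam n) * volume (ball (0 : E n) (1 / 100)) with hc
  have hc0 : c ≠ 0 := by
    rw [hc]
    apply mul_ne_zero _ hB20
    rw [ne_eq, ENNReal.ofReal_eq_zero, not_le]
    positivity
  have hct : c ≠ ⊤ := ENNReal.mul_ne_top ENNReal.ofReal_ne_top hB2
  have key := GoodSet.half volume (ball (0 : E n) (1 / 10)) measurableSet_ball hB1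
    (fun z : E n => ∫⁻ x in ball z (1 / 100), (W n S x : ℝ≥0∞)) (GoodSet.int_meas n S) c hc0 hct
    (by
      refine le_trans hS (le_of_eq ?_)
      have h3 : ENNReal.ofReal (48 * lam n) = ENNReal.ofReal (24 * lam n) * 2 := by
        rw [show (48 : ℝ) * lam n = 24 * lam n * 2 by ring,
          ENNReal.ofReal_mul (by positivity)]
        norm_num
      rw [hc, h3]
      rw [ENNReal.div_eq_inv_mul]
      calc ENNReal.ofReal (24 * lam n) * volume (ball (0 : E n) (1 / 10))
            * volume (ball (0 : E n) (1 / 100))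
          = ENNReal.ofReal (24 * lam n) * volume (ball (0 : E n) (1 / 100))
            * volume (ball (0 : E n) (1 / 10)) * (2 * 2⁻¹) := by
            rw [ENNReal.mul_inv_cancel (by norm_num) (by norm_num)]; ring
        _ = _ := by ring)
  refine key.trans (measure_mono ?_)
  rintro z ⟨hz, hz2⟩
  refine ⟨hz, ?_⟩
  have hvol : volume (ball z (1 / 100)) = volume (ball (0 : E n) (1 / 100)) :=
    Measure.addHaar_ball_center _ _ _
  set d : ℝ≥0∞ := ENNReal.ofReal (96 * lam n) with hd
  have hd0 : d ≠ 0 := by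
    rw [hd, ne_eq, ENNReal.ofReal_eq_zero, not_le]
    positivity
  have key2 := GoodSet.half volume (ball z (1 / 100)) measurableSet_ball
    (by rw [hvol]; exact hB2) (fun x => (W n S x : ℝ≥0∞)) (GoodSet.W_meas' n S) d hd0
    ENNReal.ofReal_ne_top (by
      refine le_trans hz2.le (le_of_eq ?_)
      have h3 : d = ENNReal.ofReal (48 * lam n) * 2 := by
        rw [hd, show (96 : ℝ) * lam n = 48 * lam n * 2 by ring,
          ENNReal.ofReal_mul (by positivity)]
        norm_num
      rw [hc, h3, hvol, ENNReal.div_eq_inv_mul]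
      calc ENNReal.ofReal (48 * lam n) * volume (ball (0 : E n) (1 / 100))
          = ENNReal.ofReal (48 * lam n) * volume (ball (0 : E n) (1 / 100)) * (2 * 2⁻¹) := by
            rw [ENNReal.mul_inv_cancel (by norm_num) (by norm_num), mul_one]
        _ = _ := by ring)
  rw [hvol] at key2
  refine key2.trans (measure_mono ?_)
  rintro x ⟨hx, hx2⟩
  refine ⟨hx, ?_⟩
  have h4 : (W n S x : ℝ≥0∞) < ENNReal.ofReal (96 * lam n) := hx2
  rw [← ENNReal.ofReal_natCast, ENNReal.ofReal_lt_ofReal_iff (by positivity)] at h4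
  exact h4.le

end P230
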