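import Vale.Agent.H14.CD.Cluster
import Vale.Agent.H14.CD.GoodSet
import Vale.Agent.H14.CD.BernD

/-! Row P5: many independent clusters. -/

namespace P230
open MeasureTheory Metric Finset Filter
open scoped RealInnerProductSpace ENNReal

theorem Core.unc_of_inter {n : ℕ} {ι : Type} [Fintype ι] [DecidableEq ι] (g : ι → E n)
    (S : Finset (E n)) (z : E n) (D : Finset ι)
    (hD : ∀ c, (∃ x ∈ ball z (1 / 100), ∃ p ∈ near n S x, aa + dl n < ⟪x - p, g c⟫) → c ∈ D)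
    (ω ω' : Finset ι) (h : ω ∩ D = ω' ∩ D) (hU : Unc g S z ω) : Unc g S z ω' := by
  obtain ⟨x, hx, hxp⟩ := hU
  refine ⟨x, hx, fun p hp => ?_⟩
  obtain ⟨c, hc, hc2⟩ := hxp p hp
  have h1 : c ∈ ω ∩ D := Finset.mem_inter.2 ⟨hc, hD c ⟨x, hx, p, hp, hc2⟩⟩
  rw [h] at h1
  exact ⟨c, (Finset.mem_inter.1 h1).1, hc2⟩

theorem core_bound : ∀ᶠ n : ℕ in atTop, ∀ (ι : Type) (_ : Fintype ι) (_ : DecidableEq ι)
    (g : ι → E n) (m : ι → ℝ), Sys n g m → ∀ (S : Finset (E n)),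
    (S.card : ℝ) ≤ 4 * lam n * (6 / 5) ^ n → Adm n S →
    Pr (pm m) (fun ω => ∀ z ∈ ball (0 : E n) (1 / 10), ¬ Unc g S z ω)
      ≤ Real.exp (-(128 / 100 : ℝ) ^ n) := by
  filter_upwards [cluster_bound, num_L, num_P, far_disjoint, eventually_ge_atTop 2]
    with n hcl hnL hnP hfar hn
  intro ι hι hdec g m hsys S hSc hA
  set L := ⌈(13 / 10 : ℝ) ^ n⌉₊ with hL
  have h0 : ∀ c, 0 ≤ pm m c := pm_nonneg m hsys.nonneg
  have h1 : ∀ c, pm m c ≤ 1 := pm_le_one m
  have hdl : 0 ≤ dl n := by unfold dl; positivity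
  have hG := good_set n hn S hA
  set G : Set (E n) := {z ∈ ball (0 : E n) (1 / 10) | volume (ball (0 : E n) (1 / 100)) / 2 ≤
        volume {x ∈ ball z (1 / 100) | (W n S x : ℝ) ≤ 96 * lam n}} with hGdef
  obtain ⟨z, hzG, hzs⟩ := greedy_sep n G S (1 / 20) L
    (Cluster.vol_fit G S.card L (4 * lam n * (6 / 5) ^ n) (1 / 20) (1 / 10) (by norm_num)
      (by norm_num) hSc (by norm_num at hnL ⊢; exact hnL) hG)
  let D : Fin L → Finset ι := fun i => by
    classical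
    exact univ.filter (fun c => ∃ x ∈ ball (z i) (1 / 100), ∃ p ∈ near n S x,
      aa + dl n < ⟪x - p, g c⟫)
  have hDmem : ∀ i c, c ∈ D i ↔ ∃ x ∈ ball (z i) (1 / 100), ∃ p ∈ near n S x,
      aa + dl n < ⟪x - p, g c⟫ := by
    intro i c
    simp only [D, Finset.mem_filter, Finset.mem_univ, true_and]
  have hDdisj : ∀ i ∈ (univ : Finset (Fin L)), ∀ j ∈ (univ : Finset (Fin L)), i ≠ j →
      Disjoint (D i) (D j) := by
    intro i _ j _ hij
    rw [Finset.disjoint_left]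
    intro c hci hcj
    obtain ⟨x, hx, p, hp, hxp⟩ := (hDmem i c).1 hci
    obtain ⟨x', hx', p', hp', hxp'⟩ := (hDmem j c).1 hcj
    unfold near at hp hp'
    rw [Finset.mem_filter] at hp hp'
    refine hfar (x - p) (x' - p') (g c) hp.2 hp'.2 (hsys.norm_le c) ?_ ⟨by linarith, by linarith⟩
    have h2 := hzs i j hij p hp.1 p' hp'.1
    have hxn : ‖x - z i‖ < 1 / 100 := by simpa [dist_eq_norm] using hx
    have hxn' : ‖x' - z j‖ < 1 / 100 := by simpa [dist_eq_norm] using hx'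
    have h3 : z i - z j - (p - p') = ((x - p) - (x' - p')) - (x - z i) + (x' - z j) := by abel
    rw [h3] at h2
    have h4 : ‖((x - p) - (x' - p')) - (x - z i) + (x' - z j)‖
        ≤ ‖(x - p) - (x' - p')‖ + ‖x - z i‖ + ‖x' - z j‖ :=
      (norm_add_le _ _).trans (by gcongr; exact norm_sub_le _ _)
    linarith
  have hind := indep_prod (pm m) (univ : Finset (Fin L)) D hDdisj
    (fun i ω => ¬ Unc g S (z i) ω) (by
      intro i _ ω ω' h
      rw [not_iff_not]
      exact ⟨Core.unc_of_inter g S (z i) (D i) (fun c hc => (hDmem i c).2 hc) ω ω' h,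
        Core.unc_of_inter g S (z i) (D i) (fun c hc => (hDmem i c).2 hc) ω' ω h.symm⟩)
  calc Pr (pm m) (fun ω => ∀ z ∈ ball (0 : E n) (1 / 10), ¬ Unc g S z ω)
      ≤ Pr (pm m) (fun ω => ∀ i ∈ (univ : Finset (Fin L)), ¬ Unc g S (z i) ω) :=
        Pr_mono _ h0 h1 _ _ (fun ω h i _ => h (z i) (hzG i).1)
    _ = ∏ i ∈ (univ : Finset (Fin L)), Pr (pm m) (fun ω => ¬ Unc g S (z i) ω) := hind
    _ ≤ ∏ _i ∈ (univ : Finset (Fin L)), (1 - Real.exp (-(n / 100 : ℝ))) := by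
        apply Finset.prod_le_prod
        · intro i _
          exact Pr_nonneg _ h0 h1 _
        · intro i _
          rw [Pr_compl]
          have := hcl ι hι hdec g m hsys S hSc (z i) (hzG i).2
          linarith
    _ = (1 - Real.exp (-(n / 100 : ℝ))) ^ L := by
        rw [Finset.prod_const, Finset.card_univ, Fintype.card_fin]
    _ ≤ Real.exp (-(128 / 100 : ℝ) ^ n) := hnP

end P230
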