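import Mathlib

/-!
P230: worst-case covering density.  Definitions.
-/

namespace P230

open MeasureTheory Metric Finset
open scoped RealInnerProductSpace ENNReal Pointwise

/-- Euclidean space `ℝ^n`. -/
abbrev E (n : ℕ) := EuclideanSpace ℝ (Fin n)

/-! ### Problem-level definitions -/

/-- A convex body: a compact convex set with nonempty interior. -/
def IsConvexBody {n : ℕ} (K : Set (E n)) : Prop :=
  Convex ℝ K ∧ IsCompact K ∧ (interior K).Nonempty

/-- The cube `Q_R = [-R, R]^n`. -/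
def cube (n : ℕ) (R : ℝ) : Set (E n) := {x | ∀ i, |x i| ≤ R}

/-- Locally finite: every bounded set contains finitely many points of `X`. -/
def LocFinite {n : ℕ} (X : Set (E n)) : Prop :=
  ∀ B : Set (E n), Bornology.IsBounded B → (X ∩ B).Finite

/-- `limsup_{R → ∞} #(X ∩ Q_R) / (2R)^n`. -/
noncomputable def upperDensity {n : ℕ} (X : Set (E n)) : ℝ≥0∞ :=
  Filter.limsup (fun R : ℝ => ((X ∩ cube n R).encard : ℝ≥0∞) / ENNReal.ofReal ((2 * R) ^ n))
    Filter.atTop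

/-- Translative covering density
`θ_T(K) = inf { vol(K) limsup_R #(X ∩ Q_R)/(2R)^n : X locally finite, K + X = ℝ^n }`. -/
noncomputable def thetaT {n : ℕ} (K : Set (E n)) : ℝ≥0∞ :=
  ⨅ (X : Set (E n)) (_ : LocFinite X) (_ : K + X = Set.univ), volume K * upperDensity X

/-! ### Finite Bernoulli model -/

section Bern
variable {ι : Type*} [Fintype ι] [DecidableEq ι]

/-- Weight of `ω` when every `c` is included independently with probability `p c`. -/
noncomputable def wt (p : ι → ℝ) (ω : Finset ι) : ℝ :=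
  (∏ c ∈ ω, p c) * ∏ c ∈ ωᶜ, (1 - p c)

open Classical in
/-- Probability of the event `A`. -/
noncomputable def Pr (p : ι → ℝ) (A : Finset ι → Prop) : ℝ :=
  ∑ ω : Finset ι, if A ω then wt p ω else 0

/-- inclusion probabilities `1 - exp (- m c)` -/
noncomputable def pm (m : ι → ℝ) : ι → ℝ := fun c => 1 - Real.exp (-(m c))

end Bern

/-! ### Parameters -/

/-- height of the cuts -/
noncomputable def aa : ℝ := 9999 / 10000
/-- constant in (M2) -/
noncomputable def C0 : ℝ := 60000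
/-- rounding scale `n^{-2}` -/
noncomputable def dl (n : ℕ) : ℝ := 1 / (n : ℝ) ^ 2
/-- cluster radius `n^{-3/8}` -/
noncomputable def r1 (n : ℕ) : ℝ := (n : ℝ) ^ (-(3 / 8) : ℝ)
/-- number of depth levels -/
noncomputable def kk (n : ℕ) : ℕ := ⌈3 * Real.log n⌉₊
/-- normalised density `10^{-9} n log n` -/
noncomputable def lam (n : ℕ) : ℝ := 1 / 10 ^ 9 * n * Real.log n
/-- cluster size threshold `n^{3/4}` -/
noncomputable def kap (n : ℕ) : ℕ := ⌈(n : ℝ) ^ (3 / 4 : ℝ)⌉₊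

open Classical in
/-- depth of `v` -/
noncomputable def kd (n : ℕ) (v : E n) : ℕ :=
  ((range (kk n + 1)).filter (fun k : ℕ => ‖v‖ ≤ 1 + dl n - k / n)).card

open Classical in
/-- total depth of `x` with respect to `S`, with a large penalty for deep covers -/
noncomputable def W (n : ℕ) (S : Finset (E n)) (x : E n) : ℕ :=
  ∑ p ∈ S, kd n (x - p)
    + n ^ 3 * (S.filter (fun p => ‖x - p‖ ≤ 1 + dl n - ((kk n : ℝ) + 1) / n)).card

open Classical in
/-- points of `S` which can cover `x` -/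
noncomputable def near (n : ℕ) (S : Finset (E n)) (x : E n) : Finset (E n) :=
  S.filter (fun p => ‖x - p‖ ≤ 1 + dl n)

/-- `S` is admissible -/
def Adm (n : ℕ) (S : Finset (E n)) : Prop :=
  ∫⁻ z in ball (0 : E n) (1 / 10), ∫⁻ x in ball z (1 / 100), (W n S x : ℝ≥0∞)
    ≤ ENNReal.ofReal (24 * lam n) * volume (ball (0 : E n) (1 / 10))
        * volume (ball (0 : E n) (1 / 100))

/-- the (unrounded) depth function, with slightly larger radii -/
noncomputable def FF (n : ℕ) (v : E n) : ℝ≥0∞ :=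
  ∑ k ∈ range (kk n + 1), (closedBall (0 : E n) (1 + 2 * dl n - k / n)).indicator 1 v
    + (n : ℝ≥0∞) ^ 3 * (closedBall (0 : E n) (1 + 2 * dl n - ((kk n : ℝ) + 1) / n)).indicator 1 v

/-! ### Systems of normals -/

open Classical in
/-- A finite weighted set of normals with the properties (M1), (M2), (M3). -/
structure Sys (n : ℕ) {ι : Type} [Fintype ι] (g : ι → E n) (m : ι → ℝ) : Prop where
  norm_le : ∀ c, ‖g c‖ ≤ 1
  nonneg : ∀ c, 0 ≤ m c
  M1 : ∀ y : E n, ‖y‖ ≤ 1 → ∑ c with aa < ⟪y, g c⟫, m c ≤ 2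
  M2 : ∀ (k : ℕ) (r : ℝ) (y : E n), (k : ℝ) ≤ 4 * Real.log n → 0 ≤ r → r ≤ r1 n →
    1 - k / n ≤ ‖y‖ → ‖y‖ ≤ 2 →
    Real.exp (-(C0 * (k + 1 + n * r))) ≤ ∑ c with aa + dl n + r < ⟪y, g c⟫, m c
  M3 : ∀ y y' : E n, ‖y‖ ≤ 1 + dl n → ‖y'‖ ≤ 1 + dl n → r1 n ≤ ‖y - y'‖ →
    ∑ c with aa < ⟪y, g c⟫ ∧ aa < ⟪y', g c⟫, m c ≤ 2 * Real.exp (-(n * ‖y - y'‖ ^ 2 / 8))

section Events
variable {n : ℕ} {ι : Type} [Fintype ι]

open Classical in
/-- normals cutting `x - p` and no far `x - p'` -/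
noncomputable def Zs (g : ι → E n) (x : E n) (R : Finset (E n)) (p : E n) : Finset ι :=
  univ.filter (fun c => aa + dl n < ⟪x - p, g c⟫ ∧
    ∀ p' ∈ R, r1 n < ‖p - p'‖ → ⟪x - p', g c⟫ ≤ aa + dl n)

open Classical in
/-- normals cutting a whole neighbourhood of `x - q` -/
noncomputable def Zb (g : ι → E n) (x : E n) (q : E n) : Finset ι :=
  univ.filter (fun c => aa + dl n + r1 n < ⟪x - q, g c⟫)

/-- small event -/
def FS (g : ι → E n) (x : E n) (R : Finset (E n)) (ω : Finset ι) : Prop :=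
  ∀ p ∈ R, ∃ c ∈ ω, c ∈ Zs g x R p

/-- big event -/
def FB (g : ι → E n) (x : E n) (Q : Finset (E n)) (ω : Finset ι) : Prop :=
  ∀ q ∈ Q, ∃ c ∈ ω, c ∈ Zb g x q

/-- some point of `ball z (1/100)` is robustly uncovered -/
def Unc (g : ι → E n) (S : Finset (E n)) (z : E n) (ω : Finset ι) : Prop :=
  ∃ x ∈ ball z (1 / 100), ∀ p ∈ near n S x, ∃ c ∈ ω, aa + dl n < ⟪x - p, g c⟫

/-- the convex body -/
def body (g : ι → E n) (ω : Finset ι) : Set (E n) :=
  {y | ‖y‖ ≤ 1 ∧ ∀ c ∈ ω, ⟪y, g c⟫ ≤ aa}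

end Events

/-- cap of the unit ball -/
def cap {n : ℕ} (u : E n) (t : ℝ) : Set (E n) := {g | ‖g‖ ≤ 1 ∧ t < ⟪u, g⟫}

end P230
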