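import Vale.Agent.H14.CD.Defs

/-! Row K1: elementary facts about depth, and disjointness of far cuts. -/

namespace P230
open MeasureTheory Metric Finset Filter
open scoped RealInnerProductSpace ENNReal

/-- `kd` of a non-deep vector -/
theorem kd_spec (n : ℕ) (hn : 1 ≤ n) (v : E n) (h1 : ‖v‖ ≤ 1 + dl n)
    (h2 : 1 + dl n - ((kk n : ℝ) + 1) / n < ‖v‖) :
    1 ≤ kd n v ∧ kd n v ≤ kk n + 1 ∧ 1 - (kd n v : ℝ) / n ≤ ‖v‖ := by
  classical
  have hn0 : (0 : ℝ) < n := by exact_mod_cast hn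
  have hdl : 0 ≤ dl n := by unfold dl; positivity
  set T := (range (kk n + 1)).filter (fun k : ℕ => ‖v‖ ≤ 1 + dl n - k / n) with hT
  have hkd : kd n v = T.card := by
    unfold kd
    rw [hT]
  have h0 : 0 ∈ T := by
    rw [hT, Finset.mem_filter, Finset.mem_range]
    refine ⟨by omega, ?_⟩
    simpa using h1
  have hle : T.card ≤ kk n + 1 := by
    calc T.card ≤ (range (kk n + 1)).card := Finset.card_filter_le _ _
      _ = kk n + 1 := Finset.card_range _
  refine ⟨?_, ?_, ?_⟩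
  · rw [hkd]; exact Finset.card_pos.2 ⟨0, h0⟩
  · rw [hkd]; exact hle
  · rw [hkd]
    -- the index `T.card` is not in `T`, since `T` is a down-set
    by_contra hcon
    rw [not_le] at hcon
    have hlt : ‖v‖ ≤ 1 + dl n - (T.card : ℝ) / n := by linarith
    -- then `T.card ≤ kk n`
    have hk : T.card ≤ kk n := by
      by_contra hk
      have : T.card = kk n + 1 := by omega
      rw [this] at hlt
      push_cast at hlt
      linarith
    have hsub : range (T.card + 1) ⊆ T := by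
      intro k hk'
      rw [Finset.mem_range] at hk'
      rw [hT, Finset.mem_filter, Finset.mem_range]
      refine ⟨by omega, le_trans hlt ?_⟩
      have : (k : ℝ) / n ≤ (T.card : ℝ) / n := by
        apply div_le_div_of_nonneg_right _ hn0.le
        exact_mod_cast (by omega : k ≤ T.card)
      linarith
    have := Finset.card_le_card hsub
    rw [Finset.card_range] at this
    omega

/-- if `W n S x ≤ 96 lam n` then no point of `S` is deep, and the depths sum up to at most `W` -/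
theorem W_spec : ∀ᶠ n : ℕ in atTop, ∀ (S : Finset (E n)) (x : E n),
    (W n S x : ℝ) ≤ 96 * lam n →
    (∀ p ∈ near n S x, 1 ≤ kd n (x - p) ∧ kd n (x - p) ≤ kk n + 1 ∧
      1 - (kd n (x - p) : ℝ) / n ≤ ‖x - p‖) ∧
    (∀ R ⊆ near n S x, ∑ p ∈ R, (kd n (x - p) : ℝ) ≤ 96 * lam n) ∧
    ((near n S x).card : ℝ) ≤ 96 * lam n ∧ ((kk n : ℝ) + 1 ≤ 4 * Real.log n) := by
  have hlog : ∀ᶠ n : ℕ in atTop, (2 : ℝ) ≤ Real.log n :=
    (Real.tendsto_log_atTop.comp tendsto_natCast_atTop_atTop).eventually_ge_atTop 2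
  filter_upwards [hlog, eventually_ge_atTop 2] with n hlog hn S x hW
  classical
  have hn1 : (2 : ℝ) ≤ n := by exact_mod_cast hn
  have hn0 : (0 : ℝ) < n := by linarith
  have hlogn : Real.log n ≤ n := (Real.log_le_sub_one_of_pos hn0).trans (by linarith)
  -- no deep points
  have hdeep : (S.filter (fun p => ‖x - p‖ ≤ 1 + dl n - ((kk n : ℝ) + 1) / n)).card = 0 := by
    by_contra hne
    have h1 : 1 ≤ (S.filter (fun p => ‖x - p‖ ≤ 1 + dl n - ((kk n : ℝ) + 1) / n)).card := by omega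
    have h2 : n ^ 3 ≤ W n S x := by
      unfold W
      calc n ^ 3 = n ^ 3 * 1 := (mul_one _).symm
        _ ≤ n ^ 3 * (S.filter (fun p => ‖x - p‖ ≤ 1 + dl n - ((kk n : ℝ) + 1) / n)).card :=
          Nat.mul_le_mul_left _ h1
        _ ≤ _ := by
          convert Nat.le_add_left _ _
    have h3 : (n : ℝ) ^ 3 ≤ W n S x := by exact_mod_cast h2
    have h4 : 96 * lam n < (n : ℝ) ^ 3 := by
      unfold lam
      have h5 : (n : ℝ) * Real.log n ≤ n * n := by gcongr
      have h6 : (n : ℝ) * n * 2 ≤ n ^ 3 := by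
        have : (n : ℝ) ^ 3 = n * n * n := by ring
        rw [this]
        gcongr
      have h7 : 0 < (n : ℝ) * n := by positivity
      nlinarith
    linarith
  have hdeep' : ∀ p ∈ S, 1 + dl n - ((kk n : ℝ) + 1) / n < ‖x - p‖ := by
    intro p hp
    by_contra hcon
    rw [not_lt] at hcon
    have : p ∈ S.filter (fun p => ‖x - p‖ ≤ 1 + dl n - ((kk n : ℝ) + 1) / n) :=
      Finset.mem_filter.2 ⟨hp, hcon⟩
    rw [Finset.card_eq_zero] at hdeep
    rw [hdeep] at this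
    simp at this
  have hspec : ∀ p ∈ near n S x, 1 ≤ kd n (x - p) ∧ kd n (x - p) ≤ kk n + 1 ∧
      1 - (kd n (x - p) : ℝ) / n ≤ ‖x - p‖ := by
    intro p hp
    unfold near at hp
    rw [Finset.mem_filter] at hp
    exact kd_spec n (by omega) (x - p) hp.2 (hdeep' p hp.1)
  have hsum : ∀ R ⊆ near n S x, ∑ p ∈ R, (kd n (x - p) : ℝ) ≤ 96 * lam n := by
    intro R hR
    have hRS : R ⊆ S := hR.trans (by unfold near; exact Finset.filter_subset _ _)
    have h1 : ∑ p ∈ R, kd n (x - p) ≤ W n S x := by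
      calc ∑ p ∈ R, kd n (x - p) ≤ ∑ p ∈ S, kd n (x - p) := Finset.sum_le_sum_of_subset hRS
        _ ≤ W n S x := by unfold W; exact Nat.le_add_right _ _
    have h2 : (∑ p ∈ R, (kd n (x - p) : ℝ)) ≤ W n S x := by exact_mod_cast h1
    linarith
  refine ⟨hspec, hsum, ?_, ?_⟩
  · refine le_trans ?_ (hsum _ (Finset.Subset.refl _))
    calc ((near n S x).card : ℝ) = ∑ _p ∈ near n S x, (1 : ℝ) := by simp
      _ ≤ _ := by
        apply Finset.sum_le_sum
        intro p hp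
        exact_mod_cast (hspec p hp).1
  · have h1 : (kk n : ℝ) < 3 * Real.log n + 1 := Nat.ceil_lt_add_one (by linarith)
    linarith

theorem far_disjoint : ∀ᶠ n : ℕ in atTop, ∀ (y y' g : E n), ‖y‖ ≤ 1 + dl n → ‖y'‖ ≤ 1 + dl n →
    ‖g‖ ≤ 1 → 3 / 100 ≤ ‖y - y'‖ → ¬ (aa < ⟪y, g⟫ ∧ aa < ⟪y', g⟫) := by
  filter_upwards [eventually_ge_atTop 1000] with n hn y y' g hy hy' hg hyy ⟨h1, h2⟩
  have hn1 : (1000 : ℝ) ≤ n := by exact_mod_cast hn
  have hdl : dl n ≤ 1 / 10 ^ 6 := by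
    unfold dl
    apply one_div_le_one_div_of_le (by norm_num)
    have : (1000 : ℝ) ^ 2 ≤ (n : ℝ) ^ 2 := pow_le_pow_left₀ (by norm_num) hn1 2
    linarith
  have hdl0 : 0 ≤ dl n := by unfold dl; positivity
  have h3 : 2 * aa < ‖y + y'‖ := by
    have h4 : ⟪y + y', g⟫ ≤ ‖y + y'‖ * ‖g‖ := real_inner_le_norm _ _
    rw [inner_add_left] at h4
    have h5 : ‖y + y'‖ * ‖g‖ ≤ ‖y + y'‖ * 1 := by gcongr
    linarith
  have hpar := parallelogram_law_with_norm ℝ y y'
  have h6 : (2 * aa) ^ 2 < ‖y + y'‖ ^ 2 := by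
    apply pow_lt_pow_left₀ h3 _ (by norm_num)
    unfold aa; norm_num
  have h7 : ‖y‖ ^ 2 ≤ (1 + dl n) ^ 2 := pow_le_pow_left₀ (norm_nonneg _) hy 2
  have h8 : ‖y'‖ ^ 2 ≤ (1 + dl n) ^ 2 := pow_le_pow_left₀ (norm_nonneg _) hy' 2
  have h9 : (3 / 100 : ℝ) ^ 2 ≤ ‖y - y'‖ ^ 2 := pow_le_pow_left₀ (by norm_num) hyy 2
  have h10 : (1 + dl n) ^ 2 ≤ 1 + 3 / 10 ^ 6 := by nlinarith
  unfold aa at h6
  nlinarith

end P230
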