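import Vale.Agent.H14.CD.Defs

/-! Row LAT: lattice coverings are translative coverings. -/

namespace P230
open MeasureTheory Metric Finset Filter
open scoped ENNReal Pointwise

/-- Lattice covering density `θ_L(K) = inf { vol(K)/det Λ : Λ a full-rank lattice, K + Λ = ℝ^n }`. -/
noncomputable def thetaL {n : ℕ} (K : Set (E n)) : ℝ≥0∞ :=
  ⨅ (Λ : Submodule ℤ (E n)) (_ : DiscreteTopology Λ) (_ : IsZLattice ℝ Λ)
    (_ : K + (Λ : Set (E n)) = Set.univ), volume K / ENNReal.ofReal (ZLattice.covolume Λ)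

/-- auxiliary gauge: `n`-th power of the sup norm -/
noncomputable def Lat.F {n : ℕ} (x : E n) : ℝ := ‖(WithLp.ofLp x : Fin n → ℝ)‖ ^ n

theorem Lat.mem_cube {n : ℕ} (x : E n) {R : ℝ} (hR : 0 ≤ R) :
    x ∈ cube n R ↔ ‖(WithLp.ofLp x : Fin n → ℝ)‖ ≤ R := by
  rw [pi_norm_le_iff_of_nonneg hR]
  rfl

theorem Lat.F_le {n : ℕ} (hn : 1 ≤ n) {R : ℝ} (hR : 0 ≤ R) (x : E n) :
    Lat.F x ≤ R ^ n ↔ x ∈ cube n R := by
  rw [Lat.mem_cube x hR]
  unfold Lat.F
  exact pow_le_pow_iff_left₀ (norm_nonneg _) hR (by omega)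

theorem Lat.vol_cube {n : ℕ} : volume (cube n 1) = ENNReal.ofReal (2 ^ n) := by
  have h : cube n 1 = (WithLp.ofLp : E n → (Fin n → ℝ)) ⁻¹' (closedBall 0 1) := by
    ext x
    rw [Lat.mem_cube x zero_le_one, Set.mem_preimage, mem_closedBall_zero_iff]
  rw [h, (PiLp.volume_preserving_ofLp (Fin n)).measure_preimage
    measurableSet_closedBall.nullMeasurableSet, Real.volume_pi_closedBall 0 zero_le_one]
  simp

theorem Lat.convex_cube {n : ℕ} (R : ℝ) : Convex ℝ (cube n R) := by
  intro x hx y hy a b ha hb hab i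
  have h1 := hx i
  have h2 := hy i
  have e : (a • x + b • y) i = a * x i + b * y i := by simp
  rw [e]
  calc |a * x i + b * y i| ≤ |a * x i| + |b * y i| := abs_add_le _ _
    _ = a * |x i| + b * |y i| := by rw [abs_mul, abs_mul, abs_of_nonneg ha, abs_of_nonneg hb]
    _ ≤ a * R + b * R := by gcongr
    _ = R := by rw [← add_mul, hab, one_mul]

theorem Lat.closed_cube {n : ℕ} (R : ℝ) : IsClosed (cube n R) := by
  have : cube n R = ⋂ i, {x : E n | |x i| ≤ R} := by
    ext x; simp [cube]
  rw [this]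
  refine isClosed_iInter fun i => isClosed_le ?_ continuous_const
  fun_prop

theorem Lat.bounded_cube {n : ℕ} (R : ℝ) : Bornology.IsBounded (cube n R) := by
  refine (Metric.isBounded_closedBall (x := (0 : E n)) (r := Real.sqrt (n * R ^ 2))).subset ?_
  intro x hx
  rw [mem_closedBall_zero_iff, EuclideanSpace.norm_eq]
  refine Real.sqrt_le_sqrt ?_
  have : ∀ i ∈ (univ : Finset (Fin n)), ‖x i‖ ^ 2 ≤ R ^ 2 := fun i _ => by
    rw [Real.norm_eq_abs]
    exact pow_le_pow_left₀ (abs_nonneg _) (hx i) 2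
  refine (sum_le_sum this).trans ?_
  rw [sum_const, card_univ, Fintype.card_fin, nsmul_eq_mul]

theorem Lat.tendsto {n : ℕ} (hn : 1 ≤ n) (L : Submodule ℤ (E n)) [DiscreteTopology L]
    [IsZLattice ℝ L] :
    Tendsto (fun R : ℝ => (Nat.card (cube n R ∩ L : Set (E n)) : ℝ) / R ^ n) atTop
      (nhds (2 ^ n / ZLattice.covolume L)) := by
  have : Nonempty (Fin n) := ⟨⟨0, by omega⟩⟩
  have : Nontrivial (E n) := inferInstance
  have hset : {x ∈ (Set.univ : Set (E n)) | Lat.F x ≤ 1} = cube n 1 := by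
    ext x
    have := Lat.F_le hn (zero_le_one (α := ℝ)) x
    rw [one_pow] at this
    simp only [Set.mem_univ, true_and, Set.mem_ofPred_eq]
    exact this
  have h := ZLattice.covolume.tendsto_card_le_div' L (X := Set.univ) (F := Lat.F)
    (fun x r _ _ => Set.mem_univ _) ?_ ?_ ?_ ?_
  · rw [hset] at h
    have h2 := h.comp (tendsto_pow_atTop (α := ℝ) (n := n) (by omega))
    have h3 : volume.real (cube n 1) = 2 ^ n := by
      rw [measureReal_def, Lat.vol_cube, ENNReal.toReal_ofReal (by positivity)]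
    rw [h3] at h2
    refine h2.congr' ?_
    filter_upwards [eventually_ge_atTop 0] with R hR
    simp only [Function.comp_apply]
    congr 2
    have : {x ∈ (Set.univ : Set (E n)) | Lat.F x ≤ R ^ n} = cube n R := by
      ext x
      simp only [Set.mem_univ, true_and, Set.mem_ofPred_eq]
      exact Lat.F_le hn hR x
    rw [this]
  · intro x r hr
    unfold Lat.F
    rw [WithLp.ofLp_smul, norm_smul, mul_pow, Real.norm_eq_abs, abs_of_nonneg hr]
    simp
  · rw [hset]; exact Lat.bounded_cube 1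
  · rw [hset]; exact (Lat.closed_cube 1).measurableSet
  · rw [hset]; exact (Lat.convex_cube 1).addHaar_frontier volume

/-- A full-rank lattice is locally finite with upper density at most `1 / det Λ`
(Mathlib: `ZLattice.covolume.tendsto_card_div_pow` or a direct fundamental domain argument:
`#(Λ ∩ Q_R) * covol ≤ vol Q_{R+d}`). -/
theorem thetaT_le_thetaL {n : ℕ} (hn : 1 ≤ n) (K : Set (E n)) : thetaT K ≤ thetaL K := by
  unfold thetaL
  refine le_iInf fun L => le_iInf fun hL => le_iInf fun hZ => le_iInf fun hK => ?_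
  have hfin : LocFinite (L : Set (E n)) := by
    intro B hB
    rw [Set.inter_comm]
    change (B ∩ L.toAddSubgroup).Finite
    have : DiscreteTopology L.toAddSubgroup := (inferInstance : DiscreteTopology L)
    exact Metric.finite_isBounded_inter_isClosed DiscreteTopology.isDiscrete hB inferInstance
  refine (iInf₂_le (L : Set (E n)) hfin).trans ((iInf_le _ hK).trans ?_)
  rw [div_eq_mul_inv]
  gcongr
  refine le_of_eq ?_
  unfold upperDensity
  refine Tendsto.limsup_eq ?_
  have hcov : 0 < ZLattice.covolume L := ZLattice.covolume_pos L volume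
  have ht := ENNReal.tendsto_ofReal ((Lat.tendsto hn L).div_const (2 ^ n))
  have e1 : ENNReal.ofReal (2 ^ n / ZLattice.covolume L / 2 ^ n)
      = (ENNReal.ofReal (ZLattice.covolume L))⁻¹ := by
    rw [← ENNReal.ofReal_inv_of_pos hcov]
    congr 1
    field_simp
  rw [e1] at ht
  refine ht.congr' ?_
  filter_upwards [eventually_gt_atTop 0] with R hR
  have hf : ((L : Set (E n)) ∩ cube n R).Finite := hfin _ (Lat.bounded_cube R)
  have e2 : (Nat.card (cube n R ∩ L : Set (E n)) : ℝ) / R ^ n / 2 ^ n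
      = (((L : Set (E n)) ∩ cube n R).ncard : ℝ) / (2 * R) ^ n := by
    rw [Set.inter_comm, Nat.card_coe_set_eq, mul_pow, div_div, mul_comm (R ^ n)]
  rw [e2, ENNReal.ofReal_div_of_pos (by positivity), ENNReal.ofReal_natCast]
  congr 1
  rw [← hf.cast_ncard_eq]
  simp

end P230
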