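import Vale.Agent.H14.CD.Defs

/-! Row UB3: asymmetry of convex bodies (Helly). -/

namespace P230
open MeasureTheory Metric Finset Filter
open scoped ENNReal Pointwise

/-- `K_x = (n/(n+1)) K + x/(n+1)`, `x ∈ K`: any `n+1` of these sets contain the centroid of the
`n+1` points; Helly's theorem (`Convex.helly_theorem_compact`) gives a common point `v`. -/
theorem exists_center {n : ℕ} (hn : 1 ≤ n) (K : Set (E n)) (hK : IsConvexBody K) :
    ∃ v ∈ K, ∀ x ∈ K, v - (1 / n : ℝ) • (x - v) ∈ K := by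
  classical
  obtain ⟨hconv, hcomp, hint⟩ := hK
  have hn0 : (0 : ℝ) < n := by exact_mod_cast hn
  have hne : K.Nonempty := hint.mono interior_subset
  obtain ⟨k0, hk0⟩ := hne
  let F : K → Set (E n) := fun x => K ∩ {v | v - (1 / n : ℝ) • (x.1 - v) ∈ K}
  have hlin : ∀ (x v : E n), v - (1 / n : ℝ) • (x - v)
      = (1 + 1 / n : ℝ) • v - (1 / n : ℝ) • x := by
    intro x v
    rw [smul_sub, add_smul, one_smul]
    abel
  have h := Convex.helly_theorem_compact' (𝕜 := ℝ) (F := F) ?_ ?_ ?_
  · obtain ⟨v, hv⟩ := h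
    rw [Set.mem_iInter] at hv
    exact ⟨v, (hv ⟨k0, hk0⟩).1, fun x hx => (hv ⟨x, hx⟩).2⟩
  · intro x
    refine hconv.inter ?_
    intro u hu w hw a b ha hb hab
    have hu' : u - (1 / n : ℝ) • (x.1 - u) ∈ K := hu
    have hw' : w - (1 / n : ℝ) • (x.1 - w) ∈ K := hw
    show (a • u + b • w) - (1 / n : ℝ) • (x.1 - (a • u + b • w)) ∈ K
    have he : (a • u + b • w) - (1 / n : ℝ) • (x.1 - (a • u + b • w))
        = a • (u - (1 / n : ℝ) • (x.1 - u)) + b • (w - (1 / n : ℝ) • (x.1 - w)) := by
      have hx : x.1 = a • x.1 + b • x.1 := by rw [← add_smul, hab, one_smul]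
      conv_lhs => rw [hx]
      module
    rw [he]
    exact hconv hu' hw' ha hb hab
  · intro x
    refine hcomp.inter_right ?_
    refine hcomp.isClosed.preimage ?_
    fun_prop
  · intro I hI
    rw [finrank_euclideanSpace_fin] at hI
    rcases I.eq_empty_or_nonempty with rfl | ⟨x0, hx0⟩
    · simp
    · have hm : (#I : ℝ) ≤ n + 1 := by exact_mod_cast hI
      let w : K → ℝ := fun j => 1 / (n + 1) + if j = x0 then (n + 1 - #I : ℝ) / (n + 1) else 0
      have hw0 : ∀ j, 0 ≤ w j := by
        intro j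
        have h1 : 0 ≤ (n + 1 - #I : ℝ) := by linarith
        simp only [w]
        split_ifs <;> positivity
      have hw1 : ∑ j ∈ I, w j = 1 := by
        simp only [w]
        rw [Finset.sum_add_distrib, Finset.sum_ite_eq' I x0, if_pos hx0, Finset.sum_const,
          nsmul_eq_mul]
        field_simp
        ring
      refine ⟨∑ j ∈ I, w j • (j : E n), ?_⟩
      rw [Set.mem_iInter₂]
      intro x hx
      refine ⟨hconv.sum_mem (fun j _ => hw0 j) hw1 (fun j _ => j.2), ?_⟩
      show (∑ j ∈ I, w j • (j : E n)) - (1 / n : ℝ) • (x.1 - ∑ j ∈ I, w j • (j : E n)) ∈ K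
      rw [hlin]
      have he : (1 + 1 / n : ℝ) • (∑ j ∈ I, w j • (j : E n)) - (1 / n : ℝ) • x.1
          = ∑ j ∈ I, ((1 + 1 / n : ℝ) * w j - if j = x then (1 / n : ℝ) else 0) • (j : E n) := by
        simp only [sub_smul, Finset.sum_sub_distrib, ite_smul, zero_smul]
        rw [Finset.sum_ite_eq' I x, if_pos hx, Finset.smul_sum]
        simp only [mul_smul]
      rw [he]
      refine hconv.sum_mem (fun j _ => ?_) ?_ (fun j _ => j.2)
      · have h1 : (1 + 1 / n : ℝ) * (1 / (n + 1)) = 1 / n := by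
          field_simp
        have h2 : (1 : ℝ) / (n + 1) ≤ w j := by
          simp only [w]
          have h1 : 0 ≤ (n + 1 - #I : ℝ) := by linarith
          have : 0 ≤ if j = x0 then (n + 1 - #I : ℝ) / (n + 1) else 0 := by
            split_ifs <;> positivity
          linarith
        have h3 : (1 / n : ℝ) ≤ (1 + 1 / n : ℝ) * w j := by
          calc (1 / n : ℝ) = (1 + 1 / n : ℝ) * (1 / (n + 1)) := h1.symm
            _ ≤ (1 + 1 / n : ℝ) * w j := by gcongr
        have h4 : 0 ≤ (1 / n : ℝ) := by positivity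
        split_ifs <;> linarith
      · rw [Finset.sum_sub_distrib, ← Finset.mul_sum, hw1, Finset.sum_ite_eq' I x, if_pos hx]
        ring

end P230
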