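import Vale.Agent.H14.CD.UBb

/-! Row UB4: covering a cube completely. -/

namespace P230
open MeasureTheory Metric Finset Filter
open scoped ENNReal Pointwise

theorem UBd.pow_ge (n : ℕ) : (1 / 3 : ℝ) ≤ (1 - 1 / ((n : ℝ) + 1)) ^ n := by
  rcases Nat.eq_zero_or_pos n with h | h
  · subst h; norm_num
  · have hn : (0 : ℝ) < n := by exact_mod_cast h
    have e1 : (1 - 1 / ((n : ℝ) + 1)) = 1 / (1 + 1 / n) := by field_simp; ring
    rw [e1, div_pow, one_pow]
    have h2 : (1 + 1 / (n : ℝ)) ≤ Real.exp (1 / n) := by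
      have := Real.add_one_le_exp (1 / (n : ℝ)); linarith
    have h3 : (1 + 1 / (n : ℝ)) ^ n ≤ Real.exp 1 := by
      refine (pow_le_pow_left₀ (by positivity) h2 n).trans (le_of_eq ?_)
      rw [← Real.exp_nat_mul]
      congr 1
      field_simp
    have h4 : Real.exp 1 ≤ 3 := by
      have := Real.exp_one_lt_d9; linarith
    exact one_div_le_one_div_of_le (by positivity) (h3.trans h4)

/-- the set `y - η K` -/
def UBd.A {n : ℕ} (K : Set (E n)) (η : ℝ) (y : E n) : Set (E n) :=
  (fun v => -y + v) ⁻¹' ((-η) • K)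

theorem UBd.mem_A {n : ℕ} {K : Set (E n)} {η : ℝ} {y v : E n} :
    v ∈ UBd.A K η y ↔ ∃ k ∈ K, v = y - η • k := by
  unfold UBd.A
  rw [Set.mem_preimage, Set.mem_smul_set]
  constructor
  · rintro ⟨k, hk, h⟩
    refine ⟨k, hk, ?_⟩
    rw [neg_smul] at h
    have : v = y + (-y + v) := by abel
    rw [this, ← h]; abel
  · rintro ⟨k, hk, rfl⟩
    refine ⟨k, hk, ?_⟩
    rw [neg_smul]; abel

theorem UBd.vol_A {n : ℕ} (K : Set (E n)) {η : ℝ} (hη : 0 ≤ η) (y : E n) :
    volume (UBd.A K η y) = ENNReal.ofReal (η ^ n) * volume K := by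
  unfold UBd.A
  rw [measure_preimage_add, Measure.addHaar_smul]
  congr 2
  rw [finrank_euclideanSpace_fin, abs_pow, abs_neg, abs_of_nonneg hη]

theorem UBd.meas_A {n : ℕ} {K : Set (E n)} (hK : IsCompact K) (η : ℝ) (y : E n) :
    MeasurableSet (UBd.A K η y) := by
  unfold UBd.A
  exact (measurable_const_add (-y)) (hK.smul (-η)).measurableSet

/-- `0 ∈ K`, `-K ⊆ n K`.  With `η = 1/(n+1)`: `greedy_cover` for `(1-η)K` and the cube `Q_{R+d}`,
`N = ⌈3 n log (n+1) (2(R+2d))^n / vol K⌉`, uncovered volume `≤ (2(R+d))^n (n+1)^{-n}` since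
`(1-η)^n ≥ 1/e ≥ 1/3`; then a maximal family `Y ⊆ Q_R \ (X + K)` with disjoint sets `y - ηK`:
they are disjoint from `X + (1-η)K` and contained in `Q_{R+d}`, so
`#Y (n+1)^{-n} vol K ≤ (2(R+d))^n (n+1)^{-n}`.
Maximality: `z - ηK` meets `y - ηK`, so `z ∈ y + η(K - K) ⊆ y + K`. -/
theorem cover_cube {n : ℕ} (hn : 1 ≤ n) (K : Set (E n)) (hK : IsConvexBody K) (h0 : (0 : E n) ∈ K)
    (hsym : ∀ x ∈ K, -(1 / n : ℝ) • x ∈ K) (d : ℝ) (hd : 0 ≤ d) (hKd : ∀ x ∈ K, ‖x‖ ≤ d)
    (R : ℝ) (hR : 0 < R) :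
    ∃ Y : Finset (E n), cube n R ⊆ K + (Y : Set (E n)) ∧
      (Y.card : ℝ) * (volume K).toReal ≤
        (3 * n * Real.log (n + 1) + 1) * (2 * (R + 2 * d)) ^ n + (volume K).toReal := by
  classical
  obtain ⟨hconv, hcomp, hint⟩ := hK
  have hn1 : (1 : ℝ) ≤ n := by exact_mod_cast hn
  set η : ℝ := 1 / ((n : ℝ) + 1) with hη
  have hη0 : 0 < η := by positivity
  have hη1 : η < 1 := by
    rw [hη, div_lt_one (by positivity)]; linarith
  set V := (volume K).toReal with hV
  have hVtop : volume K ≠ ⊤ := hcomp.measure_lt_top.ne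
  have hVpos : 0 < V := ENNReal.toReal_pos (Measure.measure_pos_of_nonempty_interior volume hint).ne' hVtop
  have hlog : 0 ≤ Real.log ((n : ℝ) + 1) := Real.log_nonneg (by linarith)
  set N := ⌈3 * n * Real.log (n + 1) * (2 * (R + 2 * d)) ^ n / V⌉₊ with hN
  set K' : Set (E n) := (1 - η) • K with hK'
  have hK'm : MeasurableSet K' := (hcomp.smul (1 - η)).measurableSet
  have hK'd : ∀ x ∈ K', ‖x‖ ≤ d := by
    rintro x ⟨k, hk, rfl⟩
    show ‖(1 - η) • k‖ ≤ d
    rw [norm_smul, Real.norm_eq_abs, abs_of_nonneg (by linarith)]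
    have h1 := hKd k hk
    have h2 := norm_nonneg k
    nlinarith
  obtain ⟨X, hXc, hXv⟩ := greedy_cover K' hK'm d hd hK'd (R + d) (by linarith) N
  have hvK' : (volume K').toReal = (1 - η) ^ n * V := by
    rw [hK', Measure.addHaar_smul, finrank_euclideanSpace_fin, ENNReal.toReal_mul,
      ENNReal.toReal_ofReal (abs_nonneg _), abs_pow, abs_of_nonneg (by linarith)]
  have hNge : 3 * n * Real.log (n + 1) * (2 * (R + 2 * d)) ^ n / V ≤ N := Nat.le_ceil _
  have hNle : (N : ℝ) < 3 * n * Real.log (n + 1) * (2 * (R + 2 * d)) ^ n / V + 1 :=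
    Nat.ceil_lt_add_one (by positivity)
  have hRd : (0 : ℝ) < 2 * (R + 2 * d) := by linarith
  have hexp : Real.exp (-(N * (volume K').toReal / (2 * (R + d + d)) ^ n)) ≤ η ^ n := by
    have e1 : η ^ n = Real.exp (-(n * Real.log (n + 1))) := by
      rw [Real.exp_neg, Real.exp_nat_mul, Real.exp_log (by linarith), hη, div_pow, one_pow, one_div]
    rw [e1]
    refine Real.exp_le_exp.2 (neg_le_neg ?_)
    rw [hvK']
    have e2 : (2 * (R + d + d)) ^ n = (2 * (R + 2 * d)) ^ n := by congr 1; ring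
    rw [e2, le_div_iff₀ (by positivity)]
    have h3 := UBd.pow_ge n
    rw [← hη] at h3
    have h4 : 3 * n * Real.log (n + 1) * (2 * (R + 2 * d)) ^ n ≤ N * V := by
      rwa [div_le_iff₀ hVpos] at hNge
    have h5 : (N : ℝ) * V * (1 / 3) ≤ N * V * (1 - η) ^ n :=
      mul_le_mul_of_nonneg_left h3 (by positivity)
    nlinarith
  have hunc : volume (cube n (R + d) \ (K' + (X : Set (E n)))) ≤
      ENNReal.ofReal ((2 * (R + d)) ^ n * η ^ n) := by
    refine hXv.trans (ENNReal.ofReal_le_ofReal ?_)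
    exact mul_le_mul_of_nonneg_left hexp (by positivity)
  -- good families
  set Good : Finset (E n) → Prop := fun Y =>
    (∀ y ∈ Y, y ∈ cube n R ∧ y ∉ K + (X : Set (E n))) ∧
    ∀ y ∈ Y, ∀ y' ∈ Y, y ≠ y' → Disjoint (UBd.A K η y) (UBd.A K η y') with hGood
  have hsub : ∀ y, y ∈ cube n R → y ∉ K + (X : Set (E n)) →
      UBd.A K η y ⊆ cube n (R + d) \ (K' + (X : Set (E n))) := by
    intro y hy hyX v hv
    obtain ⟨k, hk, rfl⟩ := UBd.mem_A.1 hv
    refine ⟨fun i => ?_, fun hmem => hyX ?_⟩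
    · have h1 : (y - η • k) i = y i - η * k i := by simp
      rw [h1]
      have h2 : |k i| ≤ d := by
        have h := PiLp.norm_apply_le k i
        have h' : |k i| ≤ ‖k‖ := by simpa using h
        exact h'.trans (hKd k hk)
      calc |y i - η * k i| ≤ |y i| + |η * k i| := abs_sub _ _
        _ = |y i| + η * |k i| := by rw [abs_mul, abs_of_pos hη0]
        _ ≤ R + d := by
          have := hy i
          have h3 := abs_nonneg (k i)
          nlinarith
    · obtain ⟨k', hk', x, hx, hsum⟩ := Set.mem_add.1 hmem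
      obtain ⟨k'', hk'', rfl⟩ := hk'
      refine Set.mem_add.2 ⟨(1 - η) • k'' + η • k, ?_, x, hx, ?_⟩
      · exact hconv hk'' hk (by linarith) hη0.le (by ring)
      · have h4 : (1 - η) • k'' + x = y - η • k := hsum
        calc (1 - η) • k'' + η • k + x = ((1 - η) • k'' + x) + η • k := by abel
          _ = y := by rw [h4]; abel
  have hcard : ∀ Y, Good Y → (Y.card : ℝ) * V ≤ (2 * (R + d)) ^ n := by
    intro Y hY
    have h1 : ∑ y ∈ Y, volume (UBd.A K η y) ≤ ENNReal.ofReal ((2 * (R + d)) ^ n * η ^ n) := by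
      rw [← measure_biUnion_finset (fun y hy y' hy' hne => hY.2 y hy y' hy' hne)
        (fun y _ => UBd.meas_A hcomp η y)]
      refine le_trans (measure_mono ?_) hunc
      refine Set.iUnion₂_subset fun y hy => hsub y (hY.1 y hy).1 (hY.1 y hy).2
    simp only [UBd.vol_A K hη0.le] at h1
    rw [sum_const, nsmul_eq_mul] at h1
    have h2 := ENNReal.toReal_mono ENNReal.ofReal_ne_top h1
    rw [ENNReal.toReal_ofReal (by positivity), ENNReal.toReal_mul, ENNReal.toReal_mul,
      ENNReal.toReal_ofReal (by positivity), ENNReal.toReal_natCast] at h2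
    have h3 : (Y.card : ℝ) * V * η ^ n ≤ (2 * (R + d)) ^ n * η ^ n := by
      calc (Y.card : ℝ) * V * η ^ n = Y.card * (η ^ n * V) := by ring
        _ ≤ _ := h2
    exact le_of_mul_le_mul_right h3 (by positivity)
  -- maximal family
  set S : Set ℕ := {k | ∃ Y, Good Y ∧ Y.card = k} with hS
  have hSne : S.Nonempty := ⟨0, ∅, ⟨by simp, by simp⟩, rfl⟩
  have hSbdd : BddAbove S := by
    refine ⟨⌊(2 * (R + d)) ^ n / V⌋₊, ?_⟩
    rintro k ⟨Y, hY, rfl⟩
    refine Nat.le_floor ?_
    rw [le_div_iff₀ hVpos]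
    exact hcard Y hY
  obtain ⟨Y, hY, hYc⟩ := Nat.sSup_mem hSne hSbdd
  refine ⟨X ∪ Y, ?_, ?_⟩
  · intro z hz
    by_cases hzX : z ∈ K + (X : Set (E n))
    · obtain ⟨k, hk, x, hx, rfl⟩ := Set.mem_add.1 hzX
      exact Set.add_mem_add hk (by rw [coe_union]; exact Or.inl hx)
    · by_cases hex : ∃ y ∈ Y, ¬Disjoint (UBd.A K η z) (UBd.A K η y)
      · obtain ⟨y, hy, hnd⟩ := hex
        rw [Set.not_disjoint_iff] at hnd
        obtain ⟨v, hv1, hv2⟩ := hnd
        obtain ⟨k, hk, e1⟩ := UBd.mem_A.1 hv1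
        obtain ⟨k', hk', e2⟩ := UBd.mem_A.1 hv2
        have h1 := hsym k' hk'
        refine Set.mem_add.2 ⟨η • k + (1 - η) • (-(1 / n : ℝ) • k'), ?_, y, ?_, ?_⟩
        · exact hconv hk h1 hη0.le (by linarith) (by ring)
        · rw [coe_union]; exact Or.inr hy
        · have h2 : (1 - η) • (-(1 / n : ℝ) • k') = -(η • k') := by
            rw [smul_smul, ← neg_smul]
            congr 1
            rw [hη]; field_simp; ring
          rw [h2]
          have h3 : z - η • k = y - η • k' := e1.symm.trans e2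
          have h4 : z = (z - η • k) + η • k := by abel
          rw [h4, h3]; abel
      · push Not at hex
        exfalso
        have hzne : (UBd.A K η z).Nonempty := ⟨z - η • (0 : E n), UBd.mem_A.2 ⟨0, h0, rfl⟩⟩
        have hzY : z ∉ Y := by
          intro h
          have := hex z h
          rw [disjoint_self] at this
          exact hzne.ne_empty this
        have hgood : Good (insert z Y) := by
          refine ⟨?_, ?_⟩
          · intro y hy
            rw [mem_insert] at hy
            rcases hy with rfl | hy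
            · exact ⟨hz, hzX⟩
            · exact hY.1 y hy
          · intro y hy y' hy' hne
            rw [mem_insert] at hy hy'
            rcases hy with rfl | hy
            · rcases hy' with rfl | hy'
              · exact absurd rfl hne
              · exact hex y' hy'
            · rcases hy' with rfl | hy'
              · exact (hex y hy).symm
              · exact hY.2 y hy y' hy' hne
        have h5 : (insert z Y).card ≤ sSup S := le_csSup hSbdd ⟨_, hgood, rfl⟩
        rw [card_insert_of_notMem hzY, hYc] at h5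
        omega
  · have h1 : ((X ∪ Y).card : ℝ) ≤ N + Y.card := by
      have := (card_union_le X Y).trans (Nat.add_le_add_right hXc _)
      exact_mod_cast this
    have h2 := hcard Y hY
    have h3 : (N : ℝ) * V ≤ 3 * n * Real.log (n + 1) * (2 * (R + 2 * d)) ^ n + V := by
      have h4 : (N : ℝ) * V ≤ (3 * n * Real.log (n + 1) * (2 * (R + 2 * d)) ^ n / V + 1) * V :=
        mul_le_mul_of_nonneg_right hNle.le hVpos.le
      refine h4.trans (le_of_eq ?_)
      field_simp
    have h5 : (2 * (R + d)) ^ n ≤ (2 * (R + 2 * d)) ^ n :=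
      pow_le_pow_left₀ (by positivity) (by linarith) n
    have h6 : ((X ∪ Y).card : ℝ) * V ≤ (N + Y.card) * V := mul_le_mul_of_nonneg_right h1 hVpos.le
    linarith [h6, h2, h3, h5]

end P230
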