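import Vale.Agent.H14.CD.UBa
import Vale.Agent.H14.CD.UBc
import Vale.Agent.H14.CD.UBd

/-! Row UB5: the upper bound `θ_T(K) ≤ 3 n log (n+1) + 1`. -/

namespace P230
open MeasureTheory Metric Finset Filter
open scoped ENNReal Pointwise

theorem UBe.tendsto (n : ℕ) (hn : 1 ≤ n) (c d V : ℝ) :
    Tendsto (fun R : ℝ => (c * (2 * (R + 2 * d)) ^ n + V) / (2 * R) ^ n) atTop (nhds c) := by
  have h1 : Tendsto (fun R : ℝ => c * (1 + 2 * d * R⁻¹) ^ n + V * (2⁻¹ * R⁻¹) ^ n) atTop
      (nhds (c * (1 + 2 * d * 0) ^ n + V * (2⁻¹ * 0) ^ n)) := by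
    have h0 := tendsto_inv_atTop_zero (𝕜 := ℝ)
    refine (Tendsto.const_mul c (Tendsto.pow (tendsto_const_nhds.add (h0.const_mul _)) n)).add
      (Tendsto.const_mul V (Tendsto.pow (h0.const_mul _) n))
  have e1 : c * (1 + 2 * d * 0) ^ n + V * (2⁻¹ * 0) ^ n = c := by
    rw [mul_zero, mul_zero, add_zero, one_pow, zero_pow (by omega)]; ring
  rw [e1] at h1
  refine h1.congr' ?_
  filter_upwards [eventually_gt_atTop 0] with R hR
  rw [add_div, mul_div_assoc, ← div_pow, div_eq_mul_inv V, ← inv_pow, mul_inv]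
  congr 3
  field_simp

/-- translate by `exists_center`, `cover_cube`, `thetaT_le_of_cube`, `R → ∞`. -/
theorem thetaT_le {n : ℕ} (hn : 1 ≤ n) (K : Set (E n)) (hK : IsConvexBody K) :
    thetaT K ≤ ENNReal.ofReal (3 * n * Real.log (n + 1) + 1) := by
  classical
  obtain ⟨v, hv, hsymv⟩ := exists_center hn K hK
  obtain ⟨hconv, hcomp, hint⟩ := id hK
  set K0 : Set (E n) := (fun x => v + x) ⁻¹' K with hK0
  have hvol : volume K0 = volume K := measure_preimage_add volume v K
  have hhomeo : K0 = (Homeomorph.addLeft v) ⁻¹' K := rfl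
  have hK0b : IsConvexBody K0 := by
    refine ⟨?_, ?_, ?_⟩
    · intro x hx y hy a b ha hb hab
      have h1 := hconv hx hy ha hb hab
      show v + (a • x + b • y) ∈ K
      have e : a • (v + x) + b • (v + y) = v + (a • x + b • y) := by
        have : v = (a + b) • v := by rw [hab, one_smul]
        conv_rhs => rw [this]
        rw [add_smul, smul_add, smul_add]; abel
      rw [← e]; exact h1
    · rw [hhomeo]; exact (Homeomorph.isCompact_preimage _).2 hcomp
    · rw [hhomeo, ← Homeomorph.preimage_interior]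
      obtain ⟨x, hx⟩ := hint
      exact ⟨-v + x, by simpa using hx⟩
  have h0 : (0 : E n) ∈ K0 := by
    show v + 0 ∈ K
    rwa [add_zero]
  have hsym : ∀ x ∈ K0, -(1 / n : ℝ) • x ∈ K0 := by
    intro x hx
    have h1 := hsymv (v + x) hx
    show v + -(1 / n : ℝ) • x ∈ K
    have e : v - (1 / n : ℝ) • (v + x - v) = v + -(1 / n : ℝ) • x := by
      rw [add_sub_cancel_left, neg_smul]; abel
    rwa [e] at h1
  obtain ⟨d0, hd0⟩ := hK0b.2.1.isBounded.exists_norm_le
  set d := max d0 0 with hd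
  have hdn : 0 ≤ d := le_max_right _ _
  have hKd : ∀ x ∈ K0, ‖x‖ ≤ d := fun x hx => (hd0 x hx).trans (le_max_left _ _)
  set V := (volume K).toReal with hV
  have hVtop : volume K ≠ ⊤ := hcomp.measure_lt_top.ne
  have hV0 : 0 ≤ V := ENNReal.toReal_nonneg
  have hVe : volume K = ENNReal.ofReal V := (ENNReal.ofReal_toReal hVtop).symm
  set c := 3 * n * Real.log (n + 1) + 1 with hc
  have key : ∀ R : ℝ, 0 < R →
      thetaT K ≤ ENNReal.ofReal ((c * (2 * (R + 2 * d)) ^ n + V) / (2 * R) ^ n) := by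
    intro R hR
    obtain ⟨Y, hYc, hYn⟩ := cover_cube hn K0 hK0b h0 hsym d hdn hKd R hR
    rw [hvol] at hYn
    set Y' : Finset (E n) := Y.image (fun y => -v + y) with hY'
    have hcov : cube n R ⊆ K + (Y' : Set (E n)) := by
      intro x hx
      obtain ⟨k, hk, y, hy, rfl⟩ := Set.mem_add.1 (hYc hx)
      refine Set.mem_add.2 ⟨v + k, hk, -v + y, ?_, by abel⟩
      rw [hY', coe_image]
      exact ⟨y, hy, rfl⟩
    have h1 := thetaT_le_of_cube hn K hcomp.isBounded R hR Y' hcov
    refine h1.trans ?_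
    rw [hVe, ← ENNReal.ofReal_natCast, ← ENNReal.ofReal_div_of_pos (by positivity),
      ← ENNReal.ofReal_mul hV0]
    refine ENNReal.ofReal_le_ofReal ?_
    rw [← mul_div_assoc]
    refine div_le_div_of_nonneg_right ?_ (by positivity)
    have h2 : (Y'.card : ℝ) ≤ Y.card := by exact_mod_cast card_image_le
    calc V * (Y'.card : ℝ) ≤ V * Y.card := mul_le_mul_of_nonneg_left h2 hV0
      _ = Y.card * V := mul_comm _ _
      _ ≤ _ := hYn
  refine ge_of_tendsto (ENNReal.tendsto_ofReal (UBe.tendsto n hn c d V)) ?_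
  filter_upwards [eventually_gt_atTop 0] with R hR using key R hR

end P230
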