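import Vale.Agent.H14.CD.Main
import Vale.Agent.H14.CD.Lat
import Vale.Agent.H14.CD.UBe

/-! Final forms of the main theorem. -/

namespace P230
open MeasureTheory Filter
open scoped ENNReal Pointwise

theorem final_two_sided : ∃ c C : ℝ, 0 < c ∧ 0 < C ∧ ∀ᶠ n : ℕ in atTop,
    1 ≤ n ∧ (∃ K : Set (E n), IsConvexBody K ∧
      ENNReal.ofReal (c * (n * Real.log n)) ≤ thetaT K) ∧
    ∀ K : Set (E n), IsConvexBody K → thetaT K ≤ ENNReal.ofReal (C * (n * Real.log n)) := by
  obtain ⟨c, hc, h⟩ := main_theorem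
  refine ⟨c, 10, hc, by norm_num, ?_⟩
  filter_upwards [h, eventually_ge_atTop 3] with n hn hn3
  have hn1 : 1 ≤ n := by omega
  have hn3' : (3 : ℝ) ≤ n := by exact_mod_cast hn3
  refine ⟨hn1, ?_, ?_⟩
  · obtain ⟨K, hK, hle⟩ := hn
    refine ⟨K, hK, ?_⟩
    have h1 : (c * (n * Real.log n)) = c * n * Real.log n := by ring
    rw [h1]
    exact hle
  · intro K hK
    refine (thetaT_le hn1 K hK).trans (ENNReal.ofReal_le_ofReal ?_)
    have hl1 : 1 ≤ Real.log n := by
      rw [Real.le_log_iff_exp_le (by linarith)]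
      exact (lt_trans Real.exp_one_lt_d9 (by norm_num)).le.trans hn3'
    have hl2 : Real.log (n + 1) ≤ 2 * Real.log n := by
      have h2 : Real.log (n + 1) ≤ Real.log ((n : ℝ) ^ 2) := by
        apply Real.log_le_log (by linarith)
        nlinarith
      rw [Real.log_pow] at h2
      exact_mod_cast h2
    have h3 : (1 : ℝ) ≤ n * Real.log n := by nlinarith
    have h4 : 3 * n * Real.log (n + 1) ≤ 3 * n * (2 * Real.log n) := by gcongr
    nlinarith

theorem final_no_linear : ¬ ∃ C : ℝ, ∀ n : ℕ, 1 ≤ n → ∀ K : Set (E n), IsConvexBody K →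
    thetaT K ≤ ENNReal.ofReal (C * n) := by
  rintro ⟨C, hC⟩
  obtain ⟨c, hc, h⟩ := main_theorem
  have hlog : ∀ᶠ n : ℕ in atTop, |C| / c < Real.log n :=
    (Real.tendsto_log_atTop.comp tendsto_natCast_atTop_atTop).eventually_gt_atTop _
  obtain ⟨n, hn, hln, hn1⟩ := (h.and (hlog.and (eventually_ge_atTop 1))).exists
  obtain ⟨K, hK, hle⟩ := hn
  have h1 : ENNReal.ofReal (c * n * Real.log n) ≤ ENNReal.ofReal (C * n) :=
    le_trans hle (hC n hn1 K hK)
  have hn0 : (0 : ℝ) < n := by exact_mod_cast hn1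
  have hl0 : 0 < Real.log n := lt_of_le_of_lt (by positivity) hln
  have h2 : C * n < c * n * Real.log n := by
    rw [div_lt_iff₀ hc] at hln
    have h3 : C ≤ |C| := le_abs_self C
    nlinarith
  have h4 : 0 < c * n * Real.log n := by positivity
  exact absurd h1 (not_le.2 ((ENNReal.ofReal_lt_ofReal_iff h4).2 h2))

/-- `K + X = ℝ^n` -/
theorem covers_iff {n : ℕ} (K X : Set (E n)) :
    (∀ z, ∃ x ∈ K, ∃ y ∈ X, x + y = z) ↔ K + X = Set.univ := by
  rw [Set.eq_univ_iff_forall]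
  exact forall_congr' fun z => Set.mem_add.symm

theorem thetaT_covers {n : ℕ} (K : Set (E n)) :
    ⨅ (X : Set (E n)) (_ : LocFinite X) (_ : ∀ z, ∃ x ∈ K, ∃ y ∈ X, x + y = z),
      volume K * upperDensity X = thetaT K := by
  unfold thetaT
  refine iInf_congr fun X => iInf_congr fun _ => ?_
  exact iInf_congr_Prop (covers_iff K X) fun _ => rfl

theorem thetaL_covers {n : ℕ} (K : Set (E n)) :
    thetaL K ≤ ⨅ (Λ : Submodule ℤ (E n))
      (_ : DiscreteTopology Λ ∧ Submodule.span ℝ (Λ : Set (E n)) = ⊤)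
      (_ : ∀ z, ∃ x ∈ K, ∃ y ∈ (Λ : Set (E n)), x + y = z),
      volume K / ENNReal.ofReal (ZLattice.covolume Λ) := by
  unfold thetaL
  refine le_iInf fun Λ => le_iInf fun h => le_iInf fun hc => ?_
  have h1 := h.1
  have h2 : IsZLattice ℝ Λ := ⟨h.2⟩
  refine iInf_le_of_le Λ (iInf_le_of_le h.1 (iInf_le_of_le h2 ?_))
  exact iInf_le_of_le ((covers_iff K Λ).1 hc) le_rfl

end P230
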