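import Vale.Agent.H14.CD.Defs

/-! Row A0: the integral of the depth function. -/

namespace P230
open MeasureTheory Metric Finset Filter
open scoped ENNReal

theorem measurable_FF (n : ℕ) : Measurable (FF n) := by
  unfold FF
  refine Measurable.add ?_ ?_
  · refine Finset.measurable_sum _ fun k _ => ?_
    exact measurable_one.indicator isClosed_closedBall.measurableSet
  · refine Measurable.const_mul ?_ _
    exact measurable_one.indicator isClosed_closedBall.measurableSet

theorem FF_supp (n : ℕ) (v : E n) (hn : 2 ≤ n) (hv : 3 / 2 < ‖v‖) : FF n v = 0 := by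
  have hn' : (2 : ℝ) ≤ n := by exact_mod_cast hn
  have hdl : dl n ≤ 1 / 4 := by
    unfold dl
    apply one_div_le_one_div_of_le (by norm_num)
    nlinarith
  have key : ∀ t : ℝ, 0 ≤ t → v ∉ closedBall (0 : E n) (1 + 2 * dl n - t) := by
    intro t ht h
    rw [mem_closedBall_zero_iff] at h
    linarith
  unfold FF
  rw [Set.indicator_of_notMem (key _ (by positivity))]
  rw [Finset.sum_eq_zero]
  · simp
  · intro k _
    exact Set.indicator_of_notMem (key _ (by positivity)) _

theorem vol_closedBall_le (n : ℕ) (s : ℝ) :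
    volume (closedBall (0 : E n) (1 + s))
      ≤ ENNReal.ofReal (Real.exp (n * s)) * volume (closedBall (0 : E n) 1) := by
  by_cases h : 0 ≤ 1 + s
  · rw [Measure.addHaar_closedBall' _ _ h]
    gcongr
    rw [finrank_euclideanSpace_fin, mul_comm, Real.exp_mul, Real.rpow_natCast]
    gcongr
    linarith [Real.add_one_le_exp s]
  · rw [closedBall_eq_empty.mpr (by linarith)]
    simp

/-- `vol((1+2δ-k/n)B) ≤ e^{2δn-k} vol B`, `Σ e^{-k} ≤ 1.6`, `n^3 e^{-(kk n)} ≤ 1`. -/
theorem int_FF_le : ∀ᶠ n : ℕ in atTop,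
    ∫⁻ v, FF n v ≤ 6 * volume (closedBall (0 : E n) 1) := by
  filter_upwards [eventually_ge_atTop 4] with n hn
  have hn' : (4 : ℝ) ≤ n := by exact_mod_cast hn
  have hn0 : (0 : ℝ) < n := by linarith
  unfold FF
  rw [lintegral_add_left]
  swap
  · refine Finset.measurable_sum _ fun k _ => ?_
    exact measurable_one.indicator isClosed_closedBall.measurableSet
  rw [lintegral_finsetSum]
  swap
  · intro k _
    exact measurable_one.indicator isClosed_closedBall.measurableSet
  rw [lintegral_const_mul]
  swap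
  · exact measurable_one.indicator isClosed_closedBall.measurableSet
  have hind : ∀ t : ℝ, ∫⁻ v, (closedBall (0 : E n) (1 + 2 * dl n - t)).indicator 1 v
      ≤ ENNReal.ofReal (Real.exp (n * (2 * dl n - t))) * volume (closedBall (0 : E n) 1) := by
    intro t
    rw [lintegral_indicator_one isClosed_closedBall.measurableSet]
    have := vol_closedBall_le n (2 * dl n - t)
    rwa [show 1 + (2 * dl n - t) = 1 + 2 * dl n - t by ring] at this
  have hexp : ∀ k : ℕ, Real.exp (n * (2 * dl n - (k : ℝ) / n)) ≤ 2 * (1 / 2) ^ k := by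
    intro k
    have h1 : n * (2 * dl n - (k : ℝ) / n) = 2 / n + (k : ℝ) * (-1) := by
      unfold dl
      field_simp
      ring
    rw [h1, Real.exp_add]
    have h2 : Real.exp (2 / n) ≤ 2 := by
      have h3 : (2 : ℝ) / n ≤ 1 / 2 := by
        rw [div_le_div_iff₀ hn0 (by norm_num)]
        linarith
      have h4 : Real.exp (1 / 2) ≤ 2 := by
        have h5 : Real.exp (1 / 2) * Real.exp (1 / 2) = Real.exp 1 := by
          rw [← Real.exp_add]
          norm_num
        have h6 := Real.exp_one_lt_d9
        nlinarith [Real.exp_pos (1 / 2)]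
      exact le_trans (Real.exp_le_exp.mpr h3) h4
    have h7 : Real.exp ((k : ℝ) * (-1)) ≤ (1 / 2) ^ k := by
      rw [mul_comm, Real.exp_mul, Real.rpow_natCast]
      gcongr
      have h8 : Real.exp (-1) * Real.exp 1 = 1 := by
        rw [← Real.exp_add]
        norm_num
      have h9 := Real.exp_one_gt_d9
      nlinarith [Real.exp_pos (-1)]
    have := Real.exp_pos ((k : ℝ) * (-1))
    have := Real.exp_pos ((2 : ℝ) / n)
    nlinarith
  have hk : (n : ℝ) ^ 3 * Real.exp (n * (2 * dl n - ((kk n : ℝ) + 1) / n)) ≤ 2 := by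
    have h1 : n * (2 * dl n - ((kk n : ℝ) + 1) / n) = 2 / n - 1 + (- (kk n : ℝ)) := by
      unfold dl
      field_simp
      ring
    rw [h1, Real.exp_add]
    have h2 : Real.exp (2 / n - 1) ≤ 1 := by
      rw [Real.exp_le_one_iff]
      have h3 : (2 : ℝ) / n ≤ 1 / 2 := by
        rw [div_le_div_iff₀ hn0 (by norm_num)]
        linarith
      linarith
    have h3 : Real.exp (-(kk n : ℝ)) ≤ ((n : ℝ) ^ 3)⁻¹ := by
      have h4 : 3 * Real.log n ≤ kk n := Nat.le_ceil _
      calc Real.exp (-(kk n : ℝ)) ≤ Real.exp (-(3 * Real.log n)) := by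
            apply Real.exp_le_exp.mpr; linarith
        _ = ((n : ℝ) ^ 3)⁻¹ := by
            rw [Real.exp_neg]
            congr 1
            rw [mul_comm, Real.exp_mul, Real.exp_log hn0]
            norm_cast
    have h5 : (n : ℝ) ^ 3 * (Real.exp (2 / n - 1) * Real.exp (-(kk n : ℝ)))
        ≤ (n : ℝ) ^ 3 * (1 * ((n : ℝ) ^ 3)⁻¹) := by
      gcongr
    rw [one_mul, mul_inv_cancel₀ (by positivity)] at h5
    linarith
  have hsum : ∑ k ∈ range (kk n + 1),
      ∫⁻ v, (closedBall (0 : E n) (1 + 2 * dl n - k / n)).indicator 1 v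
      ≤ ENNReal.ofReal 4 * volume (closedBall (0 : E n) 1) := by
    calc ∑ k ∈ range (kk n + 1),
      ∫⁻ v, (closedBall (0 : E n) (1 + 2 * dl n - k / n)).indicator 1 v
        ≤ ∑ k ∈ range (kk n + 1), ENNReal.ofReal (2 * (1 / 2) ^ k)
          * volume (closedBall (0 : E n) 1) := by
          refine Finset.sum_le_sum fun k _ => (hind _).trans ?_
          gcongr
          exact hexp k
      _ = ENNReal.ofReal (∑ k ∈ range (kk n + 1), 2 * (1 / 2) ^ k)
          * volume (closedBall (0 : E n) 1) := by
          rw [← Finset.sum_mul, ENNReal.ofReal_sum_of_nonneg]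
          intro k _
          positivity
      _ ≤ _ := by
          gcongr
          rw [← Finset.mul_sum]
          have := sum_geometric_two_le (kk n + 1)
          linarith
  have hlast : (n : ℝ≥0∞) ^ 3 *
      ∫⁻ v, (closedBall (0 : E n) (1 + 2 * dl n - ((kk n : ℝ) + 1) / n)).indicator 1 v
      ≤ ENNReal.ofReal 2 * volume (closedBall (0 : E n) 1) := by
    calc (n : ℝ≥0∞) ^ 3 *
      ∫⁻ v, (closedBall (0 : E n) (1 + 2 * dl n - ((kk n : ℝ) + 1) / n)).indicator 1 v
        ≤ (n : ℝ≥0∞) ^ 3 * (ENNReal.ofReal (Real.exp (n * (2 * dl n - ((kk n : ℝ) + 1) / n)))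
          * volume (closedBall (0 : E n) 1)) := by
          gcongr
          exact hind _
      _ = ENNReal.ofReal ((n : ℝ) ^ 3 * Real.exp (n * (2 * dl n - ((kk n : ℝ) + 1) / n)))
          * volume (closedBall (0 : E n) 1) := by
          rw [← mul_assoc, ENNReal.ofReal_mul (by positivity), ENNReal.ofReal_pow (by positivity),
            ENNReal.ofReal_natCast]
      _ ≤ _ := by
          gcongr
  calc _ ≤ ENNReal.ofReal 4 * volume (closedBall (0 : E n) 1)
        + ENNReal.ofReal 2 * volume (closedBall (0 : E n) 1) := add_le_add hsum hlast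
    _ = _ := by
      rw [← add_mul, ← ENNReal.ofReal_add (by norm_num) (by norm_num)]
      norm_num

theorem int_FF_pos (n : ℕ) (hn : 1 ≤ n) : ∫⁻ v, FF n v ≠ 0 := by
  have hdl : 0 ≤ dl n := by unfold dl; positivity
  have h1 : volume (closedBall (0 : E n) (1 + 2 * dl n)) ≤ ∫⁻ v, FF n v := by
    rw [← lintegral_indicator_one isClosed_closedBall.measurableSet]
    refine lintegral_mono fun v => ?_
    unfold FF
    have h2 : (closedBall (0 : E n) (1 + 2 * dl n)).indicator (1 : E n → ℝ≥0∞) v
        ≤ ∑ k ∈ range (kk n + 1),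
          (closedBall (0 : E n) (1 + 2 * dl n - k / n)).indicator (1 : E n → ℝ≥0∞) v := by
      have h3 := Finset.single_le_sum (s := range (kk n + 1))
        (f := fun k : ℕ => (closedBall (0 : E n) (1 + 2 * dl n - k / n)).indicator
          (1 : E n → ℝ≥0∞) v) (fun _ _ => zero_le) (Finset.mem_range.mpr (Nat.succ_pos _))
      simpa using h3
    exact h2.trans le_self_add
  have h2 : 0 < volume (closedBall (0 : E n) (1 + 2 * dl n)) :=
    measure_closedBall_pos _ _ (by linarith)
  exact (lt_of_lt_of_le h2 h1).ne'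

end P230
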