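import Vale.Agent.H14.CD.Defs

/-! Row C3: an explicit finite net, and counting small subsets. -/

namespace P230
open Finset

/-- grid `n^{-3} ℤ^n` -/
theorem exists_net (n : ℕ) (hn : 1 ≤ n) :
    ∃ N : Finset (E n), (N.card : ℝ) ≤ (5 * (n : ℝ) ^ 3) ^ n ∧
      ∀ x : E n, ‖x‖ ≤ 6 / 5 → ∃ y ∈ N, ‖x - y‖ ≤ dl n := by
  classical
  have hn1 : (1 : ℝ) ≤ n := by exact_mod_cast hn
  have hn3 : (1 : ℝ) ≤ (n : ℝ) ^ 3 := one_le_pow₀ hn1
  have hn30 : (0 : ℝ) < (n : ℝ) ^ 3 := by linarith
  set a : ℤ := ⌈6 / 5 * (n : ℝ) ^ 3⌉ with ha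
  set b : ℤ := ⌊6 / 5 * (n : ℝ) ^ 3⌋ with hb
  have ha1 : (a : ℝ) < 6 / 5 * (n : ℝ) ^ 3 + 1 := Int.ceil_lt_add_one _
  have hb1 : (b : ℝ) ≤ 6 / 5 * (n : ℝ) ^ 3 := Int.floor_le _
  have ha0 : 0 ≤ a := by rw [ha]; positivity
  have hb0 : 0 ≤ b := by rw [hb]; exact Int.floor_nonneg.2 (by positivity)
  set G : (Fin n → ℤ) → E n := fun k => WithLp.toLp 2 (fun i => (k i : ℝ) / (n : ℝ) ^ 3) with hG
  refine ⟨(Fintype.piFinset (fun _ : Fin n => Finset.Icc (-a) b)).image G, ?_, ?_⟩
  · have h1 : (((Fintype.piFinset (fun _ : Fin n => Finset.Icc (-a) b)).image G).card : ℝ)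
        ≤ ((Fintype.piFinset (fun _ : Fin n => Finset.Icc (-a) b)).card : ℝ) := by
      exact_mod_cast card_image_le
    refine h1.trans ?_
    rw [Fintype.card_piFinset, prod_const, card_univ, Fintype.card_fin, Int.card_Icc]
    push_cast
    refine pow_le_pow_left₀ (by positivity) ?_ n
    have h2 : (((b + 1 - -a).toNat : ℕ) : ℝ) = (b : ℝ) + 1 + a := by
      have h3 : ((b + 1 - -a).toNat : ℤ) = b + 1 - -a := Int.toNat_of_nonneg (by omega)
      have h4 : (((b + 1 - -a).toNat : ℕ) : ℝ) = (((b + 1 - -a).toNat : ℤ) : ℝ) := by push_cast; rfl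
      rw [h4, h3]; push_cast; ring
    rw [h2]
    linarith
  · intro x hx
    set k : Fin n → ℤ := fun i => ⌊x i * (n : ℝ) ^ 3⌋ with hk
    have hxi : ∀ i, |x i| ≤ 6 / 5 := fun i => by
      have := EuclideanSpace.norm_eq x
      refine le_trans ?_ hx
      have h := PiLp.norm_apply_le x i
      simpa using h
    refine ⟨G k, mem_image_of_mem _ ?_, ?_⟩
    · rw [Fintype.mem_piFinset]
      intro i
      rw [Finset.mem_Icc]
      have h1 := abs_le.1 (hxi i)
      constructor
      · rw [hk]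
        simp only
        rw [Int.le_floor]
        push_cast
        have h2 : 6 / 5 * (n : ℝ) ^ 3 ≤ a := Int.le_ceil _
        nlinarith
      · rw [hk]
        simp only
        refine Int.floor_le_floor ?_
        nlinarith
    · have h1 : ∀ i, |(x - G k) i| ≤ 1 / (n : ℝ) ^ 3 := by
        intro i
        have e1 : (x - G k) i = (x i * (n : ℝ) ^ 3 - k i) / (n : ℝ) ^ 3 := by
          rw [hG]
          simp only [PiLp.sub_apply]
          field_simp
        rw [e1, abs_div, abs_of_pos hn30]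
        refine div_le_div_of_nonneg_right ?_ hn30.le
        rw [hk]
        simp only
        rw [abs_le]
        constructor
        · linarith [Int.floor_le (x i * (n : ℝ) ^ 3)]
        · linarith [Int.lt_floor_add_one (x i * (n : ℝ) ^ 3)]
      rw [EuclideanSpace.norm_eq]
      have h2 : ∑ i, ‖(x - G k) i‖ ^ 2 ≤ n * (1 / (n : ℝ) ^ 3) ^ 2 := by
        have : ∀ i ∈ (univ : Finset (Fin n)), ‖(x - G k) i‖ ^ 2 ≤ (1 / (n : ℝ) ^ 3) ^ 2 := by
          intro i _
          rw [Real.norm_eq_abs]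
          exact pow_le_pow_left₀ (abs_nonneg _) (h1 i) 2
        refine (sum_le_sum this).trans ?_
        rw [sum_const, card_univ, Fintype.card_fin, nsmul_eq_mul]
      refine (Real.sqrt_le_sqrt h2).trans ?_
      unfold dl
      rw [Real.sqrt_le_left (by positivity)]
      have h3 : (n : ℝ) * (1 / (n : ℝ) ^ 3) ^ 2 = (1 / (n : ℝ) ^ 2) ^ 2 * (1 / n) := by
        field_simp
      rw [h3]
      have h4 : (1 : ℝ) / n ≤ 1 := by
        rw [div_le_one (by linarith)]; exact hn1
      exact mul_le_of_le_one_right (by positivity) h4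

theorem card_small_subsets {α : Type*} [DecidableEq α] (N : Finset α) (k : ℕ) :
    (N.powerset.filter (fun S => S.card ≤ k)).card ≤ (N.card + 1) ^ k := by
  induction k with
  | zero =>
    simp only [pow_zero]
    refine card_le_one.2 ?_
    intro S hS T hT
    rw [mem_filter] at hS hT
    rw [card_eq_zero.1 (Nat.le_zero.1 hS.2), card_eq_zero.1 (Nat.le_zero.1 hT.2)]
  | succ k ih =>
    have h1 : N.powerset.filter (fun S => S.card ≤ k + 1) ⊆
        (insertNone N ×ˢ N.powerset.filter (fun S => S.card ≤ k)).image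
          (fun q => q.1.elim q.2 (fun a => insert a q.2)) := by
      intro S hS
      rw [mem_filter, mem_powerset] at hS
      rw [mem_image]
      by_cases h : S.card ≤ k
      · exact ⟨(none, S), mem_product.2 ⟨by simp, by simp [hS.1, h]⟩, rfl⟩
      · have hne : S.Nonempty := by
          rw [← card_pos]; omega
        obtain ⟨a, ha⟩ := hne
        refine ⟨(some a, S.erase a), mem_product.2 ⟨by simp [hS.1 ha], ?_⟩, ?_⟩
        · simp only [mem_filter, mem_powerset]
          refine ⟨(erase_subset _ _).trans hS.1, ?_⟩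
          rw [card_erase_of_mem ha]; omega
        · simp [insert_erase ha]
    refine (card_le_card h1).trans (card_image_le.trans ?_)
    rw [card_product, card_insertNone, pow_succ, mul_comm]
    exact Nat.mul_le_mul_right _ ih

end P230
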