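import Vale.Agent.H14.CD.Trans
import Vale.Agent.H14.CD.Net

/-! Row A3: rounding to the net. -/

namespace P230
open MeasureTheory Metric Finset Filter
open scoped ENNReal

/-- one indicator moves to the larger ball -/
lemma round_ind {n : ℕ} (w x p q : E n) (ρ : ℝ) (h : ‖(p - w) - q‖ ≤ dl n)
    (hx : ‖x - q‖ ≤ 1 + dl n - ρ) :
    w + x - p ∈ closedBall (0 : E n) (1 + 2 * dl n - ρ) := by
  rw [mem_closedBall_zero_iff]
  have e : w + x - p = (x - q) - ((p - w) - q) := by abel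
  rw [e]
  have := norm_sub_le (x - q) ((p - w) - q)
  linarith

open Classical in
lemma round_term {n : ℕ} (w x p q : E n) (h : ‖(p - w) - q‖ ≤ dl n) :
    (kd n (x - q) : ℝ≥0∞) + (n : ℝ≥0∞) ^ 3 *
      (if ‖x - q‖ ≤ 1 + dl n - ((kk n : ℝ) + 1) / n then 1 else 0) ≤ FF n (w + x - p) := by
  unfold FF kd
  rw [Finset.card_filter]
  push_cast
  apply add_le_add
  · apply Finset.sum_le_sum
    intro k _
    split_ifs with hk
    · rw [Set.indicator_of_mem (round_ind w x p q _ h hk)]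
      simp
    · simp
  · split_ifs with hk
    · rw [Set.indicator_of_mem (round_ind w x p q _ h hk)]
      simp
    · simp

open Classical in
lemma round_W {n : ℕ} (S : Finset (E n)) (x : E n) :
    (W n S x : ℝ≥0∞) = ∑ q ∈ S, ((kd n (x - q) : ℝ≥0∞) + (n : ℝ≥0∞) ^ 3 *
      (if ‖x - q‖ ≤ 1 + dl n - ((kk n : ℝ) + 1) / n then 1 else 0)) := by
  unfold W
  rw [Finset.sum_add_distrib, ← Finset.mul_sum, Finset.card_filter]
  push_cast
  rfl

theorem exists_S : ∀ᶠ n : ℕ in atTop, ∀ N : Finset (E n),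
    (∀ x : E n, ‖x‖ ≤ 6 / 5 → ∃ y ∈ N, ‖x - y‖ ≤ dl n) → ∀ X : Set (E n), LocFinite X →
    upperDensity X * volume (closedBall (0 : E n) 1) < ENNReal.ofReal (lam n) →
    ∃ (w : E n) (S : Finset (E n)), S ⊆ N ∧ (S.card : ℝ) ≤ 4 * lam n * (6 / 5) ^ n ∧ Adm n S ∧
      ∀ p ∈ X, ‖p - w‖ ≤ 6 / 5 → ∃ q ∈ S, ‖(p - w) - q‖ ≤ dl n := by
  classical
  filter_upwards [good_translate, eventually_ge_atTop 1] with n hn hn1 N hN X hX hdens
  obtain ⟨w, hw1, hw2⟩ := hn X hX hdens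
  have hfin : (X ∩ closedBall w (6 / 5)).Finite := hX _ isBounded_closedBall
  -- the rounding map
  have hch : ∀ p : E n, ∃ q : E n, ‖p - w‖ ≤ 6 / 5 → q ∈ N ∧ ‖(p - w) - q‖ ≤ dl n := by
    intro p
    by_cases hp : ‖p - w‖ ≤ 6 / 5
    · obtain ⟨y, hy, hy'⟩ := hN (p - w) hp
      exact ⟨y, fun _ => ⟨hy, hy'⟩⟩
    · exact ⟨0, fun h => (hp h).elim⟩
  choose qf hqf using hch
  set P : Finset (E n) := hfin.toFinset with hP
  have hPmem : ∀ p, p ∈ P ↔ p ∈ X ∧ ‖p - w‖ ≤ 6 / 5 := by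
    intro p
    rw [hP, Set.Finite.mem_toFinset, Set.mem_inter_iff, mem_closedBall, dist_eq_norm]
  set S : Finset (E n) := P.image qf with hS
  have hback : ∀ q : E n, ∃ p : E n, q ∈ S → p ∈ P ∧ qf p = q := by
    intro q
    by_cases hq : q ∈ S
    · obtain ⟨p, hp, hp'⟩ := Finset.mem_image.1 hq
      exact ⟨p, fun _ => ⟨hp, hp'⟩⟩
    · exact ⟨0, fun h => (hq h).elim⟩
  choose pc hpc using hback
  have hlam : 0 ≤ lam n := by
    unfold lam
    have : 0 ≤ Real.log n := Real.log_natCast_nonneg n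
    positivity
  refine ⟨w, S, ?_, ?_, ?_, ?_⟩
  · intro q hq
    obtain ⟨p, hp, rfl⟩ := Finset.mem_image.1 hq
    exact (hqf p ((hPmem p).1 hp).2).1
  · have h1 : (S.card : ℝ) ≤ P.card := by exact_mod_cast Finset.card_image_le
    refine h1.trans ?_
    have h2 : (X ∩ closedBall w (6 / 5)).encard = P.card := by
      rw [hP, ← Set.encard_coe_eq_coe_finsetCard, Set.Finite.coe_toFinset]
    rw [h2] at hw1
    have h3 : (((P.card : ℕ∞) : ℝ≥0∞)) = ENNReal.ofReal (P.card : ℝ) := by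
      rw [ENNReal.ofReal_natCast]
      rfl
    rw [h3] at hw1
    exact (ENNReal.ofReal_le_ofReal_iff (by positivity)).1 hw1
  · unfold Adm
    refine le_trans ?_ hw2
    apply lintegral_mono
    intro z
    apply lintegral_mono
    intro x
    show (W n S x : ℝ≥0∞) ≤ ∑' p : X, FF n (w + x - p)
    rw [round_W]
    have h1 : ∑ q ∈ S, ((kd n (x - q) : ℝ≥0∞) + (n : ℝ≥0∞) ^ 3 *
        (if ‖x - q‖ ≤ 1 + dl n - ((kk n : ℝ) + 1) / n then 1 else 0))
        ≤ ∑ q ∈ S, FF n (w + x - pc q) := by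
      apply Finset.sum_le_sum
      intro q hq
      obtain ⟨hp1, hp2⟩ := hpc q hq
      have := (hqf (pc q) ((hPmem _).1 hp1).2).2
      rw [hp2] at this
      exact round_term w x (pc q) q this
    refine h1.trans ?_
    have hinj : Set.InjOn pc S := by
      intro q hq q' hq' he
      rw [← (hpc q hq).2, ← (hpc q' hq').2, he]
    have h2 : ∑ q ∈ S, FF n (w + x - pc q) = ∑ p ∈ S.image pc, FF n (w + x - p) := by
      rw [Finset.sum_image hinj]
    rw [h2, tsum_subtype X (fun p => FF n (w + x - p))]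
    have h3 : ∑ p ∈ S.image pc, FF n (w + x - p)
        = ∑ p ∈ S.image pc, X.indicator (fun p => FF n (w + x - p)) p := by
      apply Finset.sum_congr rfl
      intro p hp
      obtain ⟨q, hq, rfl⟩ := Finset.mem_image.1 hp
      rw [Set.indicator_of_mem ((hPmem _).1 (hpc q hq).1).1]
    rw [h3]
    exact ENNReal.sum_le_tsum _
  · intro p hp hpw
    exact ⟨qf p, Finset.mem_image.2 ⟨p, (hPmem p).2 ⟨hp, hpw⟩, rfl⟩, (hqf p hpw).2⟩

end P230
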