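import Vale.Agent.H14.CD.CapM1
import Vale.Agent.H14.CD.CapM2
import Vale.Agent.H14.CD.CapM3
import Vale.Agent.H14.CD.Cells

/-! Row G3: existence of a system of normals (assembly of `exists_cells` and `capM1..3`). -/

namespace P230
open MeasureTheory Metric Finset Filter
open scoped RealInnerProductSpace ENNReal

theorem SysB_cap_eq {n : ℕ} (y : E n) (t : ℝ) :
    {x : E n | t < ⟪y, x⟫} ∩ closedBall 0 1 = cap y t := by
  ext x
  simp only [Set.mem_inter_iff, Set.mem_setOf_eq, mem_closedBall, dist_zero_right, cap]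
  exact and_comm

theorem SysB_inner_sub {n : ℕ} (y x z : E n) {δ b : ℝ} (hy : ‖y‖ ≤ b) (hb : 0 ≤ b)
    (h : ‖x - z‖ ≤ δ) : ⟪y, z⟫ - b * δ ≤ ⟪y, x⟫ := by
  have h1 : ⟪y, x⟫ = ⟪y, z⟫ + ⟪y, x - z⟫ := by
    rw [inner_sub_right]; ring
  have h2 : |⟪y, x - z⟫| ≤ ‖y‖ * ‖x - z‖ := abs_real_inner_le_norm _ _
  have h3 : ‖y‖ * ‖x - z‖ ≤ b * δ := mul_le_mul hy h (norm_nonneg _) hb
  have h4 := neg_abs_le ⟪y, x - z⟫
  linarith

/-- take `exists_cells` with `δ = dl n` and `m c = v c / vol (cap u aa)` -/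
theorem exists_sys : ∀ᶠ n : ℕ in atTop,
    ∃ (ι : Type) (_ : Fintype ι) (_ : DecidableEq ι) (g : ι → E n) (m : ι → ℝ), Sys n g m := by
  filter_upwards [capM1, capM2, capM3, eventually_ge_atTop 1] with n hM1 hM2 hM3 hn
  classical
  have hnR : (1:ℝ) ≤ n := by exact_mod_cast hn
  have hdl : 0 < dl n := by unfold dl; positivity
  have hdl1 : dl n ≤ 1 := by
    unfold dl
    rw [div_le_one (by positivity)]
    exact one_le_pow₀ hnR
  obtain ⟨ι, i1, i2, g, v, hg, hv, h1, h2⟩ := exists_cells n (dl n) hdl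
  obtain ⟨u, hu⟩ : ∃ u : E n, ‖u‖ = 1 :=
    ⟨EuclideanSpace.single (⟨0, hn⟩ : Fin n) (1 : ℝ), by simp⟩
  set Vu : ℝ := (volume (cap u aa)).toReal with hVu
  have hVtop : volume (cap u aa) ≠ ⊤ := (volume_cap_lt_top u aa).ne
  have hVpos : 0 < Vu := by
    refine ENNReal.toReal_pos ?_ hVtop
    exact (volume_cap_pos u hu aa (by unfold aa; norm_num)).ne'
  have hVeq : volume (cap u aa) = ENNReal.ofReal Vu := (ENNReal.ofReal_toReal hVtop).symm
  refine ⟨ι, i1, i2, g, fun c => v c / Vu, ?_⟩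
  refine ⟨hg, fun c => div_nonneg (hv c) hVpos.le, ?_, ?_, ?_⟩
  · intro y hy
    have hP := h2 {x | aa < ⟪y, x⟫} {x | aa - dl n < ⟪y, x⟫} (by
      intro x z _ hz _ hxz
      have := SysB_inner_sub y x z (b := 1) hy zero_le_one hxz
      have hz' : aa < ⟪y, z⟫ := hz
      show aa - dl n < ⟪y, x⟫
      linarith)
    rw [SysB_cap_eq] at hP
    have hle := hP.trans (hM1 u y hu hy)
    rw [hVeq] at hle
    have h3 : (2 : ℝ≥0∞) * ENNReal.ofReal Vu = ENNReal.ofReal (2 * Vu) := by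
      rw [ENNReal.ofReal_mul (by norm_num)]
      norm_num
    rw [h3, ENNReal.ofReal_le_ofReal_iff (by positivity)] at hle
    rw [← Finset.sum_div, div_le_iff₀ hVpos]
    refine le_trans (le_of_eq ?_) hle
    refine Finset.sum_congr ?_ (fun _ _ => rfl)
    ext c
    simp
  · intro k r y hk hr0 hr hy1 hy2
    have hP := h1 {x | aa + dl n + r < ⟪y, x⟫} {x | aa + dl n + r + 2 * dl n < ⟪y, x⟫} (by
      intro x z hx _ _ hxz
      have hxz' : ‖z - x‖ ≤ dl n := by rwa [norm_sub_rev]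
      have := SysB_inner_sub y z x (b := 2) hy2 (by norm_num) hxz'
      have hx' : aa + dl n + r + 2 * dl n < ⟪y, x⟫ := hx
      show aa + dl n + r < ⟪y, z⟫
      linarith)
    rw [SysB_cap_eq] at hP
    have hle := (hM2 u y k r hu hk hr0 hr hy1 hy2).trans hP
    rw [hVeq, ← ENNReal.ofReal_mul (Real.exp_pos _).le] at hle
    have hsum : 0 ≤ ∑ c with g c ∈ {x | aa + dl n + r < ⟪y, x⟫}, v c :=
      Finset.sum_nonneg (fun c _ => hv c)
    rw [ENNReal.ofReal_le_ofReal_iff hsum] at hle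
    rw [← Finset.sum_div, le_div_iff₀ hVpos]
    refine hle.trans (le_of_eq ?_)
    refine Finset.sum_congr ?_ (fun _ _ => rfl)
    ext c
    simp
  · intro y y' hy hy' hyy
    have hyb : ‖(1 / 2 : ℝ) • (y + y')‖ ≤ 2 := by
      rw [norm_smul]
      have h4 := norm_add_le y y'
      have h5 : ‖(1 / 2 : ℝ)‖ = 1 / 2 := by norm_num
      rw [h5]
      linarith
    have hP := h2 {x | aa < ⟪y, x⟫ ∧ aa < ⟪y', x⟫}
      {x | aa - 2 * dl n < ⟪(1 / 2 : ℝ) • (y + y'), x⟫} (by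
      intro x z _ hz _ hxz
      have := SysB_inner_sub ((1 / 2 : ℝ) • (y + y')) x z (b := 2) hyb (by norm_num) hxz
      obtain ⟨hz1, hz2⟩ : aa < ⟪y, z⟫ ∧ aa < ⟪y', z⟫ := hz
      have h6 : ⟪(1 / 2 : ℝ) • (y + y'), z⟫ = (⟪y, z⟫ + ⟪y', z⟫) / 2 := by
        rw [real_inner_smul_left, inner_add_left]
        ring
      show aa - 2 * dl n < ⟪(1 / 2 : ℝ) • (y + y'), x⟫
      linarith)
    rw [SysB_cap_eq] at hP
    have hle := hP.trans (hM3 u y y' hu hy hy' hyy)
    rw [hVeq, ← ENNReal.ofReal_mul (by positivity), ENNReal.ofReal_le_ofReal_iff (by positivity)]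
      at hle
    rw [← Finset.sum_div, div_le_iff₀ hVpos]
    refine le_trans (le_of_eq ?_) hle
    refine Finset.sum_congr ?_ (fun _ _ => rfl)
    ext c
    simp

end P230
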