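import Vale.Agent.H14.CD.BernC

/-! Row F1: a good `ω` with large volume; the body is a convex body. -/

namespace P230
open MeasureTheory Metric Finset Filter
open scoped RealInnerProductSpace ENNReal

theorem Vol.isClosed_body {n : ℕ} {ι : Type} [Fintype ι] (g : ι → E n) (ω : Finset ι) :
    IsClosed (body g ω) := by
  have h : body g ω = closedBall (0 : E n) 1 ∩ ⋂ c ∈ ω, {y : E n | ⟪y, g c⟫ ≤ aa} := by
    ext y
    simp [body]
  rw [h]
  apply isClosed_closedBall.inter
  apply isClosed_biInter
  intro c _
  exact isClosed_le (by fun_prop) continuous_const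

theorem Vol.body_subset {n : ℕ} {ι : Type} [Fintype ι] (g : ι → E n) (ω : Finset ι) :
    body g ω ⊆ closedBall (0 : E n) 1 := by
  intro y hy
  simpa using hy.1

theorem body_convexBody {n : ℕ} {ι : Type} [Fintype ι] (g : ι → E n) (hg : ∀ c, ‖g c‖ ≤ 1)
    (ω : Finset ι) : IsConvexBody (body g ω) := by
  refine ⟨?_, ?_, ?_⟩
  · have h : body g ω = closedBall (0 : E n) 1 ∩ ⋂ c ∈ ω, {y : E n | ⟪y, g c⟫ ≤ aa} := by
      ext y
      simp [body]
    rw [h]
    apply (convex_closedBall _ _).inter
    apply convex_iInter₂
    intro c _ x hx y hy a b ha hb hab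
    simp only [Set.mem_ofPred_eq] at hx hy ⊢
    rw [inner_add_left, real_inner_smul_left, real_inner_smul_left]
    calc a * ⟪x, g c⟫ + b * ⟪y, g c⟫ ≤ a * aa + b * aa := by
          gcongr
      _ = aa := by rw [← add_mul, hab, one_mul]
  · exact (isCompact_closedBall (0 : E n) 1).of_isClosed_subset (Vol.isClosed_body g ω)
      (Vol.body_subset g ω)
  · have h : ball (0 : E n) aa ⊆ body g ω := by
      intro y hy
      have hy' : ‖y‖ < aa := by simpa using hy
      have haa : aa < 1 := by unfold aa; norm_num
      refine ⟨by linarith, fun c _ => ?_⟩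
      calc ⟪y, g c⟫ ≤ ‖y‖ * ‖g c‖ := real_inner_le_norm _ _
        _ ≤ ‖y‖ * 1 := by
          apply mul_le_mul_of_nonneg_left (hg c) (norm_nonneg _)
        _ ≤ aa := by linarith
    have h2 : ball (0 : E n) aa ⊆ interior (body g ω) := interior_maximal h isOpen_ball
    refine ⟨0, h2 (mem_ball_self ?_)⟩
    unfold aa; norm_num

/-- `E vol (body) ≥ e^{-2} vol B > (1/20 + 1/20) vol B` -/
theorem exists_omega {n : ℕ} {ι : Type} [Fintype ι] [DecidableEq ι] (g : ι → E n) (m : ι → ℝ)
    (hS : Sys n g m) (Bad : Finset ι → Prop) (hBad : Pr (pm m) Bad ≤ 1 / 20) :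
    ∃ ω : Finset ι, ¬ Bad ω ∧
      ENNReal.ofReal (1 / 20) * volume (closedBall (0 : E n) 1) ≤ volume (body g ω) := by
  classical
  by_contra hcon
  push Not at hcon
  have h0 : ∀ c, 0 ≤ pm m c := pm_nonneg m hS.nonneg
  have h1 : ∀ c, pm m c ≤ 1 := pm_le_one m
  have hVpos : 0 < volume.real (closedBall (0 : E n) 1) := by
    rw [measureReal_def]
    apply ENNReal.toReal_pos
    · exact (measure_closedBall_pos _ _ one_pos).ne'
    · exact measure_closedBall_lt_top.ne
  set V : ℝ := volume.real (closedBall (0 : E n) 1) with hV
  have hfin : ∀ ω : Finset ι, volume (body g ω) ≠ ⊤ := fun ω =>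
    ne_top_of_le_ne_top measure_closedBall_lt_top.ne (measure_mono (Vol.body_subset g ω))
  -- upper bound
  have hup : ∑ ω : Finset ι, wt (pm m) ω * volume.real (body g ω) ≤ V / 10 := by
    have hA : ∀ ω : Finset ι, wt (pm m) ω * volume.real (body g ω)
        ≤ (if Bad ω then wt (pm m) ω else 0) * V + wt (pm m) ω * (V / 20) := by
      intro ω
      have hw := wt_nonneg (pm m) h0 h1 ω
      by_cases hb : Bad ω
      · rw [if_pos hb]
        have h3 : volume.real (body g ω) ≤ V :=
          measureReal_mono (Vol.body_subset g ω) measure_closedBall_lt_top.ne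
        have h4 : wt (pm m) ω * volume.real (body g ω) ≤ wt (pm m) ω * V :=
          mul_le_mul_of_nonneg_left h3 hw
        have h5 : 0 ≤ wt (pm m) ω * (V / 20) := by positivity
        linarith
      · rw [if_neg hb, zero_mul, zero_add]
        apply mul_le_mul_of_nonneg_left _ hw
        have h3 := (hcon ω hb).le
        have h4 := ENNReal.toReal_mono (ENNReal.mul_ne_top ENNReal.ofReal_ne_top
          measure_closedBall_lt_top.ne) h3
        rw [ENNReal.toReal_mul, ENNReal.toReal_ofReal (by norm_num)] at h4
        calc volume.real (body g ω) ≤ 1 / 20 * (volume (closedBall (0 : E n) 1)).toReal := h4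
          _ = V / 20 := by rw [hV, measureReal_def]; ring
    calc ∑ ω : Finset ι, wt (pm m) ω * volume.real (body g ω)
        ≤ ∑ ω : Finset ι, ((if Bad ω then wt (pm m) ω else 0) * V + wt (pm m) ω * (V / 20)) :=
          Finset.sum_le_sum fun ω _ => hA ω
      _ = Pr (pm m) Bad * V + V / 20 := by
          rw [Finset.sum_add_distrib, ← Finset.sum_mul, ← Finset.sum_mul, sum_wt, one_mul]
          congr 2
      _ ≤ 1 / 20 * V + V / 20 := by
          have := mul_le_mul_of_nonneg_right hBad hVpos.le
          linarith
      _ = V / 10 := by ring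
  -- lower bound
  have hlow : Real.exp (-2) * V ≤ ∑ ω : Finset ι, wt (pm m) ω * volume.real (body g ω) := by
    have hmeas : ∀ ω : Finset ι, MeasurableSet (body g ω) := fun ω =>
      (Vol.isClosed_body g ω).measurableSet
    have hint : ∀ ω : Finset ι, ∫ y in closedBall (0 : E n) 1, wt (pm m) ω *
        (body g ω).indicator (fun _ => (1 : ℝ)) y = wt (pm m) ω * volume.real (body g ω) := by
      intro ω
      rw [integral_const_mul, integral_indicator (hmeas ω)]
      congr 1
      rw [setIntegral_const, smul_eq_mul, mul_one, measureReal_restrict_apply (hmeas ω)]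
      congr 1
      exact Set.inter_eq_left.2 (Vol.body_subset g ω)
    have hI : ∀ ω : Finset ι, Integrable (fun y => wt (pm m) ω *
        (body g ω).indicator (fun _ => (1 : ℝ)) y) (volume.restrict (closedBall (0 : E n) 1)) := by
      intro ω
      apply Integrable.const_mul
      apply (integrable_indicator_iff (hmeas ω)).2
      exact integrableOn_const
        (ne_top_of_le_ne_top (hfin ω) (Measure.restrict_apply_le _ _)) enorm_ne_top
    calc Real.exp (-2) * V = ∫ _y in closedBall (0 : E n) 1, Real.exp (-2) := by
          rw [setIntegral_const, smul_eq_mul, mul_comm]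
      _ ≤ ∫ y in closedBall (0 : E n) 1, ∑ ω : Finset ι, wt (pm m) ω *
            (body g ω).indicator (fun _ => (1 : ℝ)) y := by
          apply setIntegral_mono_on
          · exact integrableOn_const measure_closedBall_lt_top.ne enorm_ne_top
          · exact integrable_finsetSum _ fun ω _ => hI ω
          · exact measurableSet_closedBall
          · intro y hy
            have hy1 : ‖y‖ ≤ 1 := by simpa using hy
            have hPr : ∑ ω : Finset ι, wt (pm m) ω * (body g ω).indicator (fun _ => (1 : ℝ)) y
                = Pr (pm m) (fun ω => ∀ c ∈ ω, c ∉ univ.filter (fun c => aa < ⟪y, g c⟫)) := by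
              unfold Pr
              apply Finset.sum_congr rfl
              intro ω _
              by_cases hb : y ∈ body g ω
              · rw [Set.indicator_of_mem hb, mul_one, if_pos]
                intro c hc
                rw [Finset.mem_filter, not_and]
                intro _
                exact not_lt.2 (hb.2 c hc)
              · rw [Set.indicator_of_notMem hb, mul_zero, if_neg]
                intro hc
                apply hb
                refine ⟨hy1, fun c hcω => ?_⟩
                have := hc c hcω
                rw [Finset.mem_filter, not_and] at this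
                exact not_lt.1 (this (Finset.mem_univ c))
            rw [hPr, Pr_not_hit]
            apply Real.exp_le_exp.2
            have := hS.M1 y hy1
            rw [neg_le_neg_iff]
            convert this
      _ = ∑ ω : Finset ι, wt (pm m) ω * volume.real (body g ω) := by
          rw [integral_finsetSum _ fun ω _ => hI ω]
          exact Finset.sum_congr rfl fun ω _ => hint ω
  have hexp : (1 : ℝ) / 10 < Real.exp (-2) := by
    have h5 : Real.exp 1 < 3 := lt_trans Real.exp_one_lt_d9 (by norm_num)
    have h6 : Real.exp 2 < 9 := by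
      have : Real.exp 2 = Real.exp 1 * Real.exp 1 := by rw [← Real.exp_add]; norm_num
      rw [this]
      nlinarith [Real.exp_pos 1]
    rw [Real.exp_neg]
    rw [div_lt_iff₀ (by norm_num), ← div_eq_inv_mul, lt_div_iff₀ (Real.exp_pos 2)]
    linarith
  nlinarith

end P230
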