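import Vale.Agent.H14.CD.Core
import Vale.Agent.H14.CD.Vol
import Vale.Agent.H14.CD.Round
import Vale.Agent.H14.CD.SysB

/-! Row F2: main theorem. -/

namespace P230
open MeasureTheory Metric Finset Filter
open scoped RealInnerProductSpace ENNReal Pointwise

/-- deterministic step: a body which is not bad does not admit sparse coverings -/
theorem Main.not_cover {n : ℕ} {ι : Type} [Fintype ι] (g : ι → E n) (hg : ∀ c, ‖g c‖ ≤ 1)
    (ω : Finset ι) (X : Set (E n)) (w : E n) (S : Finset (E n))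
    (hS : ∀ p ∈ X, ‖p - w‖ ≤ 6 / 5 → ∃ q ∈ S, ‖(p - w) - q‖ ≤ dl n) (z : E n)
    (hz : z ∈ ball (0 : E n) (1 / 10)) (hU : Unc g S z ω) :
    body g ω + X ≠ Set.univ := by
  intro hcov
  obtain ⟨x, hx, hxp⟩ := hU
  have hmem : w + x ∈ body g ω + X := by rw [hcov]; trivial
  obtain ⟨y, hy, p, hp, hyp⟩ := Set.mem_add.1 hmem
  have hxn : ‖x‖ ≤ 11 / 100 := by
    have h1 : ‖z‖ < 1 / 10 := by simpa using hz
    have h2 : ‖x - z‖ < 1 / 100 := by simpa [dist_eq_norm] using hx
    calc ‖x‖ = ‖z + (x - z)‖ := by congr 1; abel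
      _ ≤ ‖z‖ + ‖x - z‖ := norm_add_le _ _
      _ ≤ 11 / 100 := by linarith
  have hpx : p - w = x - y := by
    have : y + p = w + x := hyp
    have h3 : p = w + x - y := by rw [← this]; abel
    rw [h3]; abel
  have hpn : ‖p - w‖ ≤ 6 / 5 := by
    rw [hpx]
    calc ‖x - y‖ ≤ ‖x‖ + ‖y‖ := norm_sub_le _ _
      _ ≤ 6 / 5 := by linarith [hy.1]
  obtain ⟨q, hq, hq2⟩ := hS p hp hpn
  have hyq : x - q = y + ((p - w) - q) := by rw [hpx]; abel
  have hnear : q ∈ near n S x := by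
    unfold near
    rw [Finset.mem_filter]
    refine ⟨hq, ?_⟩
    rw [hyq]
    calc ‖y + ((p - w) - q)‖ ≤ ‖y‖ + ‖(p - w) - q‖ := norm_add_le _ _
      _ ≤ 1 + dl n := by linarith [hy.1]
  obtain ⟨c, hc, hc2⟩ := hxp q hnear
  have h4 := hy.2 c hc
  rw [hyq, inner_add_left] at hc2
  have h5 : ⟪(p - w) - q, g c⟫ ≤ dl n := by
    calc ⟪(p - w) - q, g c⟫ ≤ ‖(p - w) - q‖ * ‖g c‖ := real_inner_le_norm _ _
      _ ≤ dl n * 1 := by
        apply mul_le_mul hq2 (hg c) (norm_nonneg _)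
        exact le_trans (norm_nonneg _) hq2
      _ = dl n := mul_one _
  linarith

theorem main_theorem : ∃ c : ℝ, 0 < c ∧ ∀ᶠ n : ℕ in atTop, ∃ K : Set (E n),
    IsConvexBody K ∧ ENNReal.ofReal (c * n * Real.log n) ≤ thetaT K := by
  classical
  refine ⟨1 / 20 * (1 / 10 ^ 9), by norm_num, ?_⟩
  filter_upwards [exists_sys, core_bound, exists_S, num_U, num_misc, eventually_ge_atTop 2]
    with n hsys hcore hS hU hmisc hn
  obtain ⟨ι, hι, hdec, g, m, hsys⟩ := hsys
  obtain ⟨N, hNc, hN⟩ := exists_net n (by omega)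
  obtain ⟨-, hlam, -, -⟩ := hmisc
  set k := ⌊4 * lam n * (6 / 5) ^ n⌋₊ with hk
  set 𝒮 := (N.powerset.filter (fun S => S.card ≤ k)).filter (fun S => Adm n S) with h𝒮
  have h0 : ∀ c, 0 ≤ pm m c := pm_nonneg m hsys.nonneg
  have h1 : ∀ c, pm m c ≤ 1 := pm_le_one m
  set Bad : Finset ι → Prop := fun ω => ∃ S ∈ 𝒮, ∀ z ∈ ball (0 : E n) (1 / 10), ¬ Unc g S z ω
    with hBad
  have hPB : Pr (pm m) Bad ≤ 1 / 20 := by
    calc Pr (pm m) Bad
        ≤ ∑ S ∈ 𝒮, Pr (pm m) (fun ω => ∀ z ∈ ball (0 : E n) (1 / 10), ¬ Unc g S z ω) :=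
          Pr_union (pm m) h0 h1 𝒮 _
      _ ≤ ∑ _S ∈ 𝒮, Real.exp (-(128 / 100 : ℝ) ^ n) := by
          apply Finset.sum_le_sum
          intro S hSm
          rw [h𝒮, Finset.mem_filter, Finset.mem_filter] at hSm
          apply hcore ι hι hdec g m hsys S _ hSm.2
          have h2 : (S.card : ℝ) ≤ k := by exact_mod_cast hSm.1.2
          exact h2.trans (Nat.floor_le (by positivity))
      _ = 𝒮.card * Real.exp (-(128 / 100 : ℝ) ^ n) := by
          rw [Finset.sum_const, nsmul_eq_mul]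
      _ ≤ ((5 * (n : ℝ) ^ 3) ^ n + 1) ^ k * Real.exp (-(128 / 100 : ℝ) ^ n) := by
          apply mul_le_mul_of_nonneg_right _ (Real.exp_pos _).le
          have h2 : 𝒮.card ≤ (N.card + 1) ^ k :=
            (Finset.card_filter_le _ _).trans (card_small_subsets N k)
          have h3 : (𝒮.card : ℝ) ≤ ((N.card : ℝ) + 1) ^ k := by exact_mod_cast h2
          refine h3.trans ?_
          apply pow_le_pow_left₀ (by positivity)
          linarith
      _ ≤ 1 / 20 := hU
  obtain ⟨ω, hω, hvol⟩ := exists_omega g m hsys Bad hPB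
  refine ⟨body g ω, body_convexBody g hsys.norm_le ω, ?_⟩
  unfold thetaT
  refine le_iInf fun X => le_iInf fun hX => le_iInf fun hcov => ?_
  by_contra hlt
  rw [not_le] at hlt
  have hVpos : 0 < volume (closedBall (0 : E n) 1) :=
    lt_of_lt_of_le (measure_ball_pos volume _ one_pos) (measure_mono ball_subset_closedBall)
  have hdens : upperDensity X * volume (closedBall (0 : E n) 1) < ENNReal.ofReal (lam n) := by
    have h20 : ENNReal.ofReal (1 / 20) ≠ 0 := by
      rw [Ne, ENNReal.ofReal_eq_zero, not_le]; norm_num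
    have h20t : ENNReal.ofReal (1 / 20) ≠ ⊤ := ENNReal.ofReal_ne_top
    have h2 : ENNReal.ofReal (1 / 20) * (upperDensity X * volume (closedBall (0 : E n) 1))
        < ENNReal.ofReal (1 / 20) * ENNReal.ofReal (lam n) := by
      calc ENNReal.ofReal (1 / 20) * (upperDensity X * volume (closedBall (0 : E n) 1))
          = (ENNReal.ofReal (1 / 20) * volume (closedBall (0 : E n) 1)) * upperDensity X := by
            ring
        _ ≤ volume (body g ω) * upperDensity X := by gcongr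
        _ < ENNReal.ofReal (1 / 20 * (1 / 10 ^ 9) * n * Real.log n) := hlt
        _ = ENNReal.ofReal (1 / 20) * ENNReal.ofReal (lam n) := by
            rw [← ENNReal.ofReal_mul (by norm_num)]
            congr 1
            unfold lam
            ring
    exact (ENNReal.mul_lt_mul_iff_right h20 h20t).1 h2
  obtain ⟨w, S, hSN, hSc, hSA, hSp⟩ := hS N hN X hX hdens
  have hSm : S ∈ 𝒮 := by
    rw [h𝒮, Finset.mem_filter, Finset.mem_filter, Finset.mem_powerset]
    exact ⟨⟨hSN, Nat.le_floor hSc⟩, hSA⟩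
  have hex : ∃ z ∈ ball (0 : E n) (1 / 10), Unc g S z ω := by
    by_contra hne
    push Not at hne
    exact hω ⟨S, hSm, hne⟩
  obtain ⟨z, hz, hUz⟩ := hex
  exact Main.not_cover g hsys.norm_le ω X w S hSp z hz hUz hcov

end P230
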