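import Vale.Agent.H14.CD.Avg
import Vale.Agent.H14.CD.IntFF

/-! Row A2: a good translate of `X`. -/

namespace P230
open MeasureTheory Metric Finset Filter
open scoped ENNReal

theorem setLIntegral_ball_shift {n : ℕ} (z : E n) (r : ℝ) (f : E n → ℝ≥0∞) :
    ∫⁻ x in ball z r, f x = ∫⁻ y in ball (0 : E n) r, f (z + y) := by
  rw [← lintegral_indicator measurableSet_ball, ← lintegral_indicator measurableSet_ball,
    ← lintegral_add_left_eq_self _ z]
  congr 1
  ext y
  by_cases h : y ∈ ball (0 : E n) r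
  · have h' : z + y ∈ ball z r := by simpa [mem_ball_iff_norm] using h
    rw [Set.indicator_of_mem h, Set.indicator_of_mem h']
  · have h' : z + y ∉ ball z r := by simpa [mem_ball_iff_norm] using h
    rw [Set.indicator_of_notMem h, Set.indicator_of_notMem h']

theorem LocFinite.countable {n : ℕ} {X : Set (E n)} (hX : LocFinite X) : X.Countable := by
  have h : X = ⋃ k : ℕ, X ∩ closedBall (0 : E n) k := by
    rw [← Set.inter_iUnion, iUnion_closedBall_nat, Set.inter_univ]
  rw [h]
  exact Set.countable_iUnion fun k => (hX _ isBounded_closedBall).countable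

/-- the averaged depth -/
noncomputable def GG (n : ℕ) (v : E n) : ℝ≥0∞ :=
  ∫⁻ z in ball (0 : E n) (1 / 10), ∫⁻ y in ball (0 : E n) (1 / 100), FF n (v + (z + y))

theorem measurable_FF_shift (n : ℕ) :
    Measurable (fun q : (E n × E n) × E n => FF n (q.1.1 + (q.1.2 + q.2))) :=
  (measurable_FF n).comp (by fun_prop)

theorem measurable_GG_inner (n : ℕ) :
    Measurable (fun q : E n × E n => ∫⁻ y in ball (0 : E n) (1 / 100), FF n (q.1 + (q.2 + y))) :=
  (measurable_FF_shift n).lintegral_prod_right'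

theorem measurable_GG (n : ℕ) : Measurable (GG n) :=
  (measurable_GG_inner n).lintegral_prod_right'

theorem lintegral_GG (n : ℕ) : ∫⁻ v, GG n v
    = volume (ball (0 : E n) (1 / 10)) * volume (ball (0 : E n) (1 / 100)) * ∫⁻ v, FF n v := by
  unfold GG
  rw [lintegral_lintegral_swap]
  swap
  · exact (measurable_GG_inner n).aemeasurable
  have h : ∀ z : E n, ∫⁻ v : E n, ∫⁻ y in ball (0 : E n) (1 / 100), FF n (v + (z + y))
      = volume (ball (0 : E n) (1 / 100)) * ∫⁻ v, FF n v := by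
    intro z
    rw [lintegral_lintegral_swap]
    swap
    · refine Measurable.aemeasurable ?_
      exact (measurable_FF n).comp (by fun_prop)
    have h2 : ∀ y : E n, ∫⁻ v : E n, FF n (v + (z + y)) = ∫⁻ v, FF n v := by
      intro y
      exact lintegral_add_right_eq_self _ _
    simp_rw [h2]
    rw [setLIntegral_const, mul_comm]
  simp_rw [h]
  rw [setLIntegral_const]
  ring

theorem GG_supp (n : ℕ) (hn : 2 ≤ n) (v : E n) (hv : 2 < ‖v‖) : GG n v = 0 := by
  unfold GG
  have h : ∀ z ∈ ball (0 : E n) (1 / 10), ∫⁻ y in ball (0 : E n) (1 / 100), FF n (v + (z + y))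
      = 0 := by
    intro z hz
    rw [setLIntegral_congr_fun (g := fun _ => 0) measurableSet_ball]
    · simp
    · intro y hy
      rw [mem_ball_zero_iff] at hz hy
      refine FF_supp n _ hn ?_
      have h1 : ‖z + y‖ ≤ ‖z‖ + ‖y‖ := norm_add_le _ _
      have h2 : ‖v‖ ≤ ‖v + (z + y)‖ + ‖z + y‖ := by
        have := norm_sub_le (v + (z + y)) (z + y)
        simpa using this
      linarith
  rw [setLIntegral_congr_fun (g := fun _ => 0) measurableSet_ball h]
  simp

theorem encard_eq_tsum {n : ℕ} (X : Set (E n)) (w : E n) (r : ℝ) :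
    ((X ∩ closedBall w r).encard : ℝ≥0∞)
        = ∑' p : X, (closedBall (0 : E n) r).indicator (1 : E n → ℝ≥0∞) (w - p) := by
  have h2 : ∀ p : X, (closedBall (0 : E n) r).indicator (1 : E n → ℝ≥0∞) (w - p)
      = (closedBall w r).indicator (1 : E n → ℝ≥0∞) (p : E n) := by
    intro p
    by_cases hp : (p : E n) ∈ closedBall w r
    · rw [Set.indicator_of_mem hp, Set.indicator_of_mem]
      · simp
      · rw [mem_closedBall_zero_iff, ← dist_eq_norm, dist_comm]
        exact hp
    · rw [Set.indicator_of_notMem hp, Set.indicator_of_notMem]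
      rw [mem_closedBall_zero_iff, ← dist_eq_norm, dist_comm]
      exact hp
  simp_rw [h2]
  rw [tsum_subtype X (fun p => (closedBall w r).indicator (1 : E n → ℝ≥0∞) p)]
  rw [Set.indicator_indicator]
  have h3 := tsum_subtype (X ∩ closedBall w r) (fun _ : E n => (1 : ℝ≥0∞))
  have h4 : ∑' _ : ↥(X ∩ closedBall w r), (1 : ℝ≥0∞)
      = ((X ∩ closedBall w r).encard : ℝ≥0∞) := by
    rw [ENNReal.tsum_set_one]
  rw [← h4, h3]
  rfl

theorem measurable_inner2 (n : ℕ) (v : E n) :
    Measurable fun z : E n => ∫⁻ y in ball (0 : E n) (1 / 100), FF n (v + (z + y)) := by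
  have h : Measurable (fun q : E n × E n => FF n (v + (q.1 + q.2))) :=
    (measurable_FF n).comp (by fun_prop)
  exact h.lintegral_prod_right'

theorem swap_tsum_GG {n : ℕ} (X : Set (E n)) (hX : X.Countable) (w : E n) :
    ∫⁻ z in ball (0 : E n) (1 / 10), ∫⁻ x in ball z (1 / 100), ∑' p : X, FF n (w + x - p)
      = ∑' p : X, GG n (w - p) := by
  have : Countable X := hX.to_subtype
  have hin : ∀ z : E n, ∫⁻ x in ball z (1 / 100), ∑' p : X, FF n (w + x - p)
      = ∑' p : X, ∫⁻ y in ball (0 : E n) (1 / 100), FF n ((w - p) + (z + y)) := by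
    intro z
    rw [setLIntegral_ball_shift, ← lintegral_tsum]
    · refine lintegral_congr fun y => ?_
      refine tsum_congr fun p => ?_
      congr 1
      abel
    · intro p
      refine Measurable.aemeasurable ?_
      exact (measurable_FF n).comp (by fun_prop)
  simp_rw [hin]
  rw [lintegral_tsum]
  · rfl
  · intro p
    exact (measurable_inner2 n (w - (p : E n))).aemeasurable

/-- the averaging function -/
noncomputable def PP (n : ℕ) (v : E n) : ℝ≥0∞ :=
  (volume (ball (0 : E n) (1 / 10)) * volume (ball (0 : E n) (1 / 100)) * ∫⁻ v, FF n v)⁻¹ * GG n v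
    + (volume (closedBall (0 : E n) (6 / 5)))⁻¹ * (closedBall (0 : E n) (6 / 5)).indicator 1 v

theorem measurable_PP (n : ℕ) : Measurable (PP n) := by
  refine Measurable.add ((measurable_GG n).const_mul _) ?_
  exact (measurable_one.indicator isClosed_closedBall.measurableSet).const_mul _

theorem VVI_ne (n : ℕ) (hn : 1 ≤ n) (hIt : ∫⁻ v, FF n v ≠ ⊤) :
    volume (ball (0 : E n) (1 / 10)) * volume (ball (0 : E n) (1 / 100)) * ∫⁻ v, FF n v ≠ 0 ∧
    volume (ball (0 : E n) (1 / 10)) * volume (ball (0 : E n) (1 / 100)) * ∫⁻ v, FF n v ≠ ⊤ := by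
  have hV10 : volume (ball (0 : E n) (1 / 10)) ≠ 0 := (measure_ball_pos _ _ (by norm_num)).ne'
  have hV1t : volume (ball (0 : E n) (1 / 10)) ≠ ⊤ := measure_ball_lt_top.ne
  have hV20 : volume (ball (0 : E n) (1 / 100)) ≠ 0 := (measure_ball_pos _ _ (by norm_num)).ne'
  have hV2t : volume (ball (0 : E n) (1 / 100)) ≠ ⊤ := measure_ball_lt_top.ne
  exact ⟨mul_ne_zero (mul_ne_zero hV10 hV20) (int_FF_pos n hn),
    ENNReal.mul_ne_top (ENNReal.mul_ne_top hV1t hV2t) hIt⟩

theorem lintegral_PP (n : ℕ) (hn : 1 ≤ n) (hIt : ∫⁻ v, FF n v ≠ ⊤) : ∫⁻ v, PP n v = 2 := by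
  obtain ⟨h0, ht⟩ := VVI_ne n hn hIt
  have hV30 : volume (closedBall (0 : E n) (6 / 5)) ≠ 0 :=
    (measure_closedBall_pos _ _ (by norm_num)).ne'
  have hV3t : volume (closedBall (0 : E n) (6 / 5)) ≠ ⊤ := measure_closedBall_lt_top.ne
  unfold PP
  rw [lintegral_add_left ((measurable_GG n).const_mul _),
    lintegral_const_mul _ (measurable_GG n), lintegral_GG,
    lintegral_const_mul _ (measurable_one.indicator isClosed_closedBall.measurableSet),
    lintegral_indicator_one isClosed_closedBall.measurableSet,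
    ENNReal.inv_mul_cancel h0 ht, ENNReal.inv_mul_cancel hV30 hV3t]
  norm_num

theorem PP_supp (n : ℕ) (hn : 2 ≤ n) (v : E n) (hv : 2 < ‖v‖) : PP n v = 0 := by
  have h1 : v ∉ closedBall (0 : E n) (6 / 5) := by
    rw [mem_closedBall_zero_iff]
    linarith
  unfold PP
  rw [Set.indicator_of_notMem h1, GG_supp n hn v hv]
  simp

theorem PP_first {n : ℕ} (hn : 1 ≤ n) (hIt : ∫⁻ v, FF n v ≠ ⊤) (X : Set (E n)) (w : E n)
    (B : ℝ≥0∞) (hw : ∑' p : X, PP n (w - p) ≤ B) :
    ∑' p : X, GG n (w - p)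
      ≤ (volume (ball (0 : E n) (1 / 10)) * volume (ball (0 : E n) (1 / 100))
        * ∫⁻ v, FF n v) * B := by
  obtain ⟨h0, ht⟩ := VVI_ne n hn hIt
  rw [← ENNReal.inv_mul_le_iff h0 ht, ← ENNReal.tsum_mul_left]
  refine le_trans ?_ hw
  refine ENNReal.tsum_le_tsum fun p => ?_
  unfold PP
  exact le_self_add

theorem PP_second {n : ℕ} (X : Set (E n)) (w : E n)
    (B : ℝ≥0∞) (hw : ∑' p : X, PP n (w - p) ≤ B) :
    ((X ∩ closedBall w (6 / 5)).encard : ℝ≥0∞)
      ≤ volume (closedBall (0 : E n) (6 / 5)) * B := by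
  have hV30 : volume (closedBall (0 : E n) (6 / 5)) ≠ 0 :=
    (measure_closedBall_pos _ _ (by norm_num)).ne'
  have hV3t : volume (closedBall (0 : E n) (6 / 5)) ≠ ⊤ := measure_closedBall_lt_top.ne
  rw [encard_eq_tsum, ← ENNReal.inv_mul_le_iff hV30 hV3t, ← ENNReal.tsum_mul_left]
  refine le_trans ?_ hw
  refine ENNReal.tsum_le_tsum fun p => ?_
  unfold PP
  exact le_add_self

/-- Apply `averaging` with
`Ψ v = (∫_{z ∈ B(0,1/10)} ∫_{x ∈ B(z,1/100)} FF (v + x)) / (vol B(0,1/10) vol B(0,1/100) ∫FF)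
  + 1_{closedBall 0 (6/5)} v / vol(closedBall 0 (6/5))`, `∫ Ψ = 2`, `D = lam n / vol B`. -/
theorem good_translate : ∀ᶠ n : ℕ in atTop, ∀ X : Set (E n), LocFinite X →
    upperDensity X * volume (closedBall (0 : E n) 1) < ENNReal.ofReal (lam n) →
    ∃ w : E n, ((X ∩ closedBall w (6 / 5)).encard : ℝ≥0∞)
        ≤ ENNReal.ofReal (4 * lam n * (6 / 5) ^ n) ∧
      ∫⁻ z in ball (0 : E n) (1 / 10), ∫⁻ x in ball z (1 / 100), ∑' p : X, FF n (w + x - p)
        ≤ ENNReal.ofReal (24 * lam n) * volume (ball (0 : E n) (1 / 10))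
            * volume (ball (0 : E n) (1 / 100)) := by
  filter_upwards [int_FF_le, eventually_ge_atTop 3] with n hI hn
  intro X hX hdens
  have hn' : (3 : ℝ) ≤ n := by exact_mod_cast hn
  have hVB0 : volume (closedBall (0 : E n) 1) ≠ 0 := (measure_closedBall_pos _ _ (by norm_num)).ne'
  have hVBt : volume (closedBall (0 : E n) 1) ≠ ⊤ := measure_closedBall_lt_top.ne
  have hlam : 0 < lam n := by
    unfold lam
    have : 0 < Real.log n := Real.log_pos (by linarith)
    positivity
  have hIt : ∫⁻ v, FF n v ≠ ⊤ := ne_top_of_le_ne_top (ENNReal.mul_ne_top (by simp) hVBt) hI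
  have hVBpos : 0 < (volume (closedBall (0 : E n) 1)).toReal := ENNReal.toReal_pos hVB0 hVBt
  obtain ⟨D, hD⟩ : ∃ D, D = lam n / (volume (closedBall (0 : E n) 1)).toReal := ⟨_, rfl⟩
  have hDpos : 0 < D := by rw [hD]; positivity
  have hDVB : ENNReal.ofReal D * volume (closedBall (0 : E n) 1) = ENNReal.ofReal (lam n) := by
    rw [hD, ENNReal.ofReal_div_of_pos hVBpos, ENNReal.ofReal_toReal hVBt,
      ENNReal.div_mul_cancel hVB0 hVBt]
  have hDens : upperDensity X < ENNReal.ofReal D := by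
    rw [hD, ENNReal.ofReal_div_of_pos hVBpos, ENNReal.ofReal_toReal hVBt]
    rw [ENNReal.lt_div_iff_mul_lt (Or.inl hVB0) (Or.inl hVBt)]
    exact hdens
  obtain ⟨w, hw⟩ := averaging (by omega) X hX D hDpos hDens (PP n) (measurable_PP n)
    (PP_supp n (by omega)) (by rw [lintegral_PP n (by omega) hIt]; norm_num)
    (by rw [lintegral_PP n (by omega) hIt]; norm_num)
  rw [lintegral_PP n (by omega) hIt] at hw
  refine ⟨w, ?_, ?_⟩
  · refine (PP_second X w _ hw).trans (le_of_eq ?_)
    rw [Measure.addHaar_closedBall' _ _ (by norm_num), finrank_euclideanSpace_fin,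
      ENNReal.ofReal_mul (by positivity), ENNReal.ofReal_mul (by norm_num), ← hDVB]
    rw [show ENNReal.ofReal 4 = 4 by norm_num]
    ring
  · rw [swap_tsum_GG X hX.countable]
    calc ∑' p : X, GG n (w - p) ≤ _ := PP_first (by omega) hIt X w _ hw
      _ ≤ (volume (ball (0 : E n) (1 / 10)) * volume (ball (0 : E n) (1 / 100))
          * (6 * volume (closedBall (0 : E n) 1))) * (2 * ENNReal.ofReal D * 2) := by gcongr
      _ = 24 * (ENNReal.ofReal D * volume (closedBall (0 : E n) 1))
          * volume (ball (0 : E n) (1 / 10)) * volume (ball (0 : E n) (1 / 100)) := by ring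
      _ = _ := by
        rw [hDVB, ENNReal.ofReal_mul (by norm_num)]
        rw [show ENNReal.ofReal 24 = 24 by norm_num]

end P230
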