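import Vale.Agent.H14.CD.Defs

/-! Row UB1: a finite covering of a cube gives a covering of space. -/

namespace P230
open MeasureTheory Metric Finset Filter
open scoped ENNReal Pointwise

/-- the point `2 R z + y` -/
noncomputable def UBa.pt {n : ℕ} (R : ℝ) (z : Fin n → ℤ) (y : E n) : E n :=
  WithLp.toLp 2 (fun i => 2 * R * (z i : ℝ) + y i)

/-- the periodic set of centres -/
def UBa.X {n : ℕ} (R : ℝ) (Y : Finset (E n)) : Set (E n) :=
  {x | ∃ z : Fin n → ℤ, ∃ y ∈ Y, x = UBa.pt R z y}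

theorem UBa.bound {n : ℕ} (Y : Finset (E n)) :
    ∃ c : ℝ, 0 ≤ c ∧ ∀ y ∈ Y, ∀ i, |y i| ≤ c := by
  refine ⟨∑ y ∈ Y, ‖y‖, sum_nonneg fun y _ => norm_nonneg y, fun y hy i => ?_⟩
  have h1 : |y i| ≤ ‖y‖ := by
    have h := PiLp.norm_apply_le y i
    simpa using h
  exact h1.trans (single_le_sum (f := fun y : E n => ‖y‖) (fun y _ => norm_nonneg y) hy)

theorem UBa.subset {n : ℕ} {R : ℝ} (hR : 0 < R) (Y : Finset (E n)) {c : ℝ}
    (hc : ∀ y ∈ Y, ∀ i, |y i| ≤ c) (T : ℝ) [DecidableEq (E n)] :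
    UBa.X R Y ∩ cube n T ⊆
      (((Y ×ˢ Fintype.piFinset (fun _ : Fin n => Finset.Icc (-⌊(T + c) / (2 * R)⌋)
        ⌊(T + c) / (2 * R)⌋)).image (fun q => UBa.pt R q.2 q.1) : Finset (E n)) : Set (E n)) := by
  rintro x ⟨⟨z, y, hy, rfl⟩, hx⟩
  rw [Finset.mem_coe, mem_image]
  refine ⟨(y, z), mem_product.2 ⟨hy, ?_⟩, rfl⟩
  rw [Fintype.mem_piFinset]
  intro i
  rw [Finset.mem_Icc]
  have h1 : |2 * R * (z i : ℝ) + y i| ≤ T := hx i
  have h2 := hc y hy i
  rw [abs_le] at h1 h2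
  have hR2 : 0 < 2 * R := by linarith
  constructor
  · have h3 : -(z i) ≤ ⌊(T + c) / (2 * R)⌋ := by
      rw [Int.le_floor, le_div_iff₀ hR2]
      push_cast
      nlinarith
    show -⌊(T + c) / (2 * R)⌋ ≤ z i
    omega
  · show z i ≤ ⌊(T + c) / (2 * R)⌋
    rw [Int.le_floor, le_div_iff₀ hR2]
    nlinarith

theorem UBa.card_le {n : ℕ} {R : ℝ} (hR : 0 < R) (Y : Finset (E n)) {c : ℝ} (hc0 : 0 ≤ c)
    (hc : ∀ y ∈ Y, ∀ i, |y i| ≤ c) {T : ℝ} (hT : 0 ≤ T) :
    ((UBa.X R Y ∩ cube n T).encard : ℝ≥0∞) ≤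
      ENNReal.ofReal (Y.card * ((T + c) / R + 1) ^ n) := by
  classical
  have h1 := Set.encard_le_encard (UBa.subset hR Y hc T)
  rw [Set.encard_coe_eq_coe_finsetCard] at h1
  set k : ℤ := ⌊(T + c) / (2 * R)⌋ with hk
  have hk0 : 0 ≤ k := Int.floor_nonneg.2 (by positivity)
  have hk1 : (k : ℝ) ≤ (T + c) / (2 * R) := Int.floor_le _
  have h2 : ((Y ×ˢ Fintype.piFinset (fun _ : Fin n => Finset.Icc (-k) k)).image
      (fun q => UBa.pt R q.2 q.1)).card ≤ Y.card * ((2 * k + 1).toNat) ^ n := by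
    refine card_image_le.trans (le_of_eq ?_)
    rw [card_product, Fintype.card_piFinset, prod_const, card_univ, Fintype.card_fin, Int.card_Icc]
    congr 3
    ring
  have h3 : ((UBa.X R Y ∩ cube n T).encard : ℝ≥0∞) ≤
      ((Y.card * ((2 * k + 1).toNat) ^ n : ℕ) : ℝ≥0∞) := by
    have h4 : (UBa.X R Y ∩ cube n T).encard ≤ ((Y.card * ((2 * k + 1).toNat) ^ n : ℕ) : ℕ∞) :=
      h1.trans (by exact_mod_cast h2)
    exact_mod_cast h4
  refine h3.trans ?_
  rw [← ENNReal.ofReal_natCast]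
  refine ENNReal.ofReal_le_ofReal ?_
  push_cast
  have h5 : (((2 * k + 1).toNat : ℕ) : ℝ) = 2 * (k : ℝ) + 1 := by
    have h6 : ((2 * k + 1).toNat : ℤ) = 2 * k + 1 := Int.toNat_of_nonneg (by omega)
    have h7 : (((2 * k + 1).toNat : ℕ) : ℝ) = (((2 * k + 1).toNat : ℤ) : ℝ) := by push_cast; rfl
    rw [h7, h6]; push_cast; ring
  rw [h5]
  have h8 : 2 * (k : ℝ) + 1 ≤ (T + c) / R + 1 := by
    have h9 : (T + c) / (2 * R) = (T + c) / R / 2 := by field_simp
    rw [h9] at hk1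
    linarith
  have h10 : (0 : ℝ) ≤ k := by exact_mod_cast hk0
  gcongr

/-- If finitely many translates of `K` cover the cube `Q_R`, tile the space with cubes `2 R z + Q_R`
(`z ∈ ℤ^n`) and repeat the covering in each of them: `X = {2 R z + x : z ∈ ℤ^n, x ∈ Y}`,
`#(X ∩ Q_T) ≤ #Y (T/R + C)^n`. -/
theorem thetaT_le_of_cube {n : ℕ} (hn : 1 ≤ n) (K : Set (E n)) (hK : Bornology.IsBounded K)
    (R : ℝ) (hR : 0 < R) (Y : Finset (E n)) (hY : cube n R ⊆ K + (Y : Set (E n))) :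
    thetaT K ≤ volume K * ((Y.card : ℝ≥0∞) / ENNReal.ofReal ((2 * R) ^ n)) := by
  classical
  obtain ⟨c, hc0, hc⟩ := UBa.bound Y
  have hfin : LocFinite (UBa.X R Y) := by
    intro B hB
    obtain ⟨T, hT⟩ := hB.subset_closedBall (0 : E n)
    refine ((Finset.finite_toSet _).subset (UBa.subset hR Y hc T)).subset ?_
    rintro x ⟨hx, hxB⟩
    refine ⟨hx, fun i => ?_⟩
    have h1 := hT hxB
    rw [mem_closedBall_zero_iff] at h1
    have h2 : |x i| ≤ ‖x‖ := by
      have h := PiLp.norm_apply_le x i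
      simpa using h
    exact h2.trans h1
  have hcov : K + UBa.X R Y = Set.univ := by
    rw [Set.eq_univ_iff_forall]
    intro x
    set z : Fin n → ℤ := fun i => round (x i / (2 * R)) with hz
    have hR2 : 0 < 2 * R := by linarith
    set x' : E n := WithLp.toLp 2 (fun i => x i - 2 * R * (z i : ℝ)) with hx'
    have h1 : x' ∈ cube n R := by
      intro i
      show |x i - 2 * R * (z i : ℝ)| ≤ R
      have h2 := abs_sub_round (x i / (2 * R))
      have h3 : x i - 2 * R * (z i : ℝ) = 2 * R * (x i / (2 * R) - round (x i / (2 * R))) := by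
        rw [hz]; field_simp
      rw [h3, abs_mul, abs_of_pos hR2]
      nlinarith
    obtain ⟨k, hk, y, hy, hky⟩ := Set.mem_add.1 (hY h1)
    refine Set.mem_add.2 ⟨k, hk, UBa.pt R z y, ⟨z, y, hy, rfl⟩, ?_⟩
    ext i
    have h4 := congrArg (fun v : E n => v i) hky
    simp only [PiLp.add_apply] at h4 ⊢
    have h5 : (UBa.pt R z y) i = 2 * R * (z i : ℝ) + y i := rfl
    have h6 : x' i = x i - 2 * R * (z i : ℝ) := rfl
    rw [h5]
    rw [h6] at h4
    linarith
  refine (iInf₂_le (UBa.X R Y) hfin).trans ((iInf_le _ hcov).trans ?_)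
  gcongr
  unfold upperDensity
  have hlim : Tendsto (fun T : ℝ => ENNReal.ofReal (Y.card * (((T + c) / R + 1) / (2 * T)) ^ n))
      atTop (nhds (ENNReal.ofReal (Y.card * (1 / (2 * R)) ^ n))) := by
    refine ENNReal.tendsto_ofReal (Tendsto.const_mul _ (Tendsto.pow ?_ n))
    have h1 : Tendsto (fun T : ℝ => 1 / (2 * R) + (c / R + 1) / 2 * T⁻¹) atTop
        (nhds (1 / (2 * R) + (c / R + 1) / 2 * 0)) :=
      tendsto_const_nhds.add (tendsto_const_nhds.mul tendsto_inv_atTop_zero)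
    rw [mul_zero, add_zero] at h1
    refine h1.congr' ?_
    filter_upwards [eventually_gt_atTop 0] with T hT
    field_simp
    ring
  have hle : limsup (fun T : ℝ => ((UBa.X R Y ∩ cube n T).encard : ℝ≥0∞) /
      ENNReal.ofReal ((2 * T) ^ n)) atTop ≤
      limsup (fun T : ℝ => ENNReal.ofReal (Y.card * (((T + c) / R + 1) / (2 * T)) ^ n)) atTop := by
    refine limsup_le_limsup ?_
    filter_upwards [eventually_gt_atTop 0] with T hT
    have h1 := UBa.card_le hR Y hc0 hc hT.le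
    refine (ENNReal.div_le_div_right h1 _).trans (le_of_eq ?_)
    rw [← ENNReal.ofReal_div_of_pos (by positivity)]
    congr 1
    rw [div_pow, mul_div_assoc]
  refine hle.trans (le_of_eq ?_)
  rw [hlim.limsup_eq, one_div, inv_pow, ← div_eq_mul_inv,
    ENNReal.ofReal_div_of_pos (by positivity), ENNReal.ofReal_natCast]

end P230
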