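import Vale.Agent.H14.CD.Avg

/-! Row UB2: greedy covering of most of a cube. -/

namespace P230
open MeasureTheory Metric Finset Filter
open scoped ENNReal Pointwise

theorem UBb.fubini {n : ℕ} (U K : Set (E n)) (hU : MeasurableSet U) (hK : MeasurableSet K) :
    ∫⁻ x : E n, volume (U ∩ {y | y - x ∈ K}) = volume U * volume K := by
  have h1 : ∀ x : E n, volume (U ∩ {y | y - x ∈ K})
      = ∫⁻ y : E n, U.indicator (fun _ => (1 : ℝ≥0∞)) y * K.indicator (fun _ => 1) (y - x) := by
    intro x
    have hm : MeasurableSet (U ∩ {y | y - x ∈ K}) :=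
      hU.inter (measurable_id.sub_const x hK)
    rw [← lintegral_indicator_one hm]
    apply lintegral_congr
    intro y
    by_cases hy1 : y ∈ U <;> by_cases hy2 : y - x ∈ K <;> simp [Set.indicator, hy1, hy2]
  simp_rw [h1]
  rw [lintegral_lintegral_swap]
  · have h2 : ∀ y : E n, ∫⁻ x : E n, U.indicator (fun _ => (1 : ℝ≥0∞)) y
        * K.indicator (fun _ => 1) (y - x) = U.indicator (fun _ => (1 : ℝ≥0∞)) y * volume K := by
      intro y
      rw [lintegral_const_mul]
      · congr 1
        rw [lintegral_sub_left_eq_self (fun x => K.indicator (fun _ => (1 : ℝ≥0∞)) x) y]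
        rw [lintegral_indicator_const hK, one_mul]
      · exact (measurable_const.indicator hK).comp (measurable_const.sub measurable_id)
    simp_rw [h2]
    rw [lintegral_mul_const _ (measurable_const.indicator hU), lintegral_indicator_const hU,
      one_mul]
  · apply Measurable.aemeasurable
    apply Measurable.mul
    · exact (measurable_const.indicator hU).comp measurable_snd
    · exact (measurable_const.indicator hK).comp (measurable_snd.sub measurable_fst)

theorem UBb.norm_coord {n : ℕ} (x : E n) (i : Fin n) : |x i| ≤ ‖x‖ := by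
  rw [← Real.norm_eq_abs]
  exact PiLp.norm_apply_le x i

theorem UBb.step {n : ℕ} (K : Set (E n)) (hK : MeasurableSet K) (d : ℝ) (hd : 0 ≤ d)
    (hKd : ∀ x ∈ K, ‖x‖ ≤ d) (R : ℝ) (hR : 0 < R) (U : Set (E n)) (hU : MeasurableSet U)
    (hUR : U ⊆ cube n R) :
    ∃ x : E n, volume U * volume K / ENNReal.ofReal ((2 * (R + d)) ^ n)
      ≤ volume (U ∩ {y | y - x ∈ K}) := by
  have hvol : volume (cube n (R + d)) = ENNReal.ofReal ((2 * (R + d)) ^ n) :=
    avg_cube_volume (R + d) (by linarith)
  have hpos : 0 < (2 * (R + d)) ^ n := by positivity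
  have h0 : volume (cube n (R + d)) ≠ 0 := by
    rw [hvol, ne_eq, ENNReal.ofReal_eq_zero, not_le]
    exact hpos
  have htop : volume (cube n (R + d)) ≠ ⊤ := by
    rw [hvol]; exact ENNReal.ofReal_ne_top
  have hUfin : volume U ≠ ⊤ := by
    apply ne_top_of_le_ne_top _ (measure_mono hUR)
    rw [avg_cube_volume R hR.le]
    exact ENNReal.ofReal_ne_top
  have hI : ∫⁻ x in cube n (R + d), volume (U ∩ {y | y - x ∈ K}) = volume U * volume K := by
    rw [← UBb.fubini U K hU hK, ← lintegral_indicator (avg_cube_measurable _)]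
    apply lintegral_congr
    intro x
    by_cases hx : x ∈ cube n (R + d)
    · rw [Set.indicator_of_mem hx]
    · rw [Set.indicator_of_notMem hx]
      symm
      have : U ∩ {y | y - x ∈ K} = ∅ := by
        ext y
        simp only [Set.mem_inter_iff, Set.mem_ofPred_eq, Set.mem_empty_iff_false, iff_false,
          not_and]
        intro hy hyx
        apply hx
        intro i
        have h1 : |y i| ≤ R := hUR hy i
        have h2 : |(y - x) i| ≤ d := (UBb.norm_coord _ i).trans (hKd _ hyx)
        have h3 : x i = y i - (y - x) i := by simp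
        rw [h3]
        calc |y i - (y - x) i| ≤ |y i| + |(y - x) i| := abs_sub _ _
          _ ≤ R + d := by linarith
      rw [this, measure_empty]
  have hfin : ∫⁻ x in cube n (R + d), volume (U ∩ {y | y - x ∈ K}) ≠ ⊤ := by
    apply ne_top_of_le_ne_top (ENNReal.mul_ne_top hUfin htop)
    calc ∫⁻ x in cube n (R + d), volume (U ∩ {y | y - x ∈ K})
        ≤ ∫⁻ _x in cube n (R + d), volume U := by
          apply lintegral_mono
          intro x
          exact measure_mono Set.inter_subset_left
      _ = volume U * volume (cube n (R + d)) := by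
          rw [setLIntegral_const]
  obtain ⟨x, -, hx⟩ := exists_setLAverage_le h0 (avg_cube_measurable _).nullMeasurableSet hfin
  refine ⟨x, ?_⟩
  rw [setLAverage_eq, hI, hvol] at hx
  exact hx

theorem UBb.meas_cover {n : ℕ} (K : Set (E n)) (hK : MeasurableSet K) (X : Finset (E n)) :
    MeasurableSet (K + (X : Set (E n))) := by
  have h : K + (X : Set (E n)) = ⋃ x ∈ X, {y | y - x ∈ K} := by
    ext y
    simp only [Set.mem_add, Finset.mem_coe, Set.mem_iUnion, Set.mem_ofPred_eq, exists_prop]
    constructor
    · rintro ⟨k, hk, x, hx, rfl⟩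
      exact ⟨x, hx, by simpa using hk⟩
    · rintro ⟨x, hx, hy⟩
      exact ⟨y - x, hy, x, hx, by simp⟩
  rw [h]
  exact Finset.measurableSet_biUnion _ fun x _ => measurable_id.sub_const x hK

/-- `N` translates (centres in `Q_{R+d}`) leave uncovered at most
`(2R)^n (1 - vol K / (2(R+d))^n)^N ≤ (2R)^n exp (- N vol K / (2(R+d))^n)` of `Q_R`.
Averaging: for measurable `U ⊆ Q_R`, `∫_{x ∈ Q_{R+d}} vol (U ∩ (x + K)) = vol U vol K`. -/
theorem greedy_cover {n : ℕ} (K : Set (E n)) (hK : MeasurableSet K) (d : ℝ) (hd : 0 ≤ d)
    (hKd : ∀ x ∈ K, ‖x‖ ≤ d) (R : ℝ) (hR : 0 < R) (N : ℕ) :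
    ∃ X : Finset (E n), X.card ≤ N ∧
      volume (cube n R \ (K + (X : Set (E n)))) ≤
        ENNReal.ofReal ((2 * R) ^ n * Real.exp (-(N * (volume K).toReal / (2 * (R + d)) ^ n))) := by
  classical
  induction N with
  | zero =>
    refine ⟨∅, by simp, ?_⟩
    simp [avg_cube_volume R hR.le]
  | succ N ih =>
    obtain ⟨X, hXc, hX⟩ := ih
    set U : Set (E n) := cube n R \ (K + (X : Set (E n))) with hUdef
    have hU : MeasurableSet U := (avg_cube_measurable R).diff (UBb.meas_cover K hK X)
    obtain ⟨x, hx⟩ := UBb.step K hK d hd hKd R hR U hU Set.sdiff_subset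
    refine ⟨insert x X, (Finset.card_insert_le _ _).trans (by omega), ?_⟩
    have hpos : 0 < (2 * (R + d)) ^ n := by positivity
    have hUfin : volume U ≠ ⊤ := by
      apply ne_top_of_le_ne_top _ (measure_mono (Set.sdiff_subset : U ⊆ cube n R))
      rw [avg_cube_volume R hR.le]
      exact ENNReal.ofReal_ne_top
    have hKfin : volume K ≠ ⊤ := by
      apply ne_top_of_le_ne_top
        (measure_closedBall_lt_top (μ := (volume : Measure (E n))) (x := (0 : E n)) (r := d)).ne
      apply measure_mono
      intro y hy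
      simpa using hKd y hy
    set t : ℝ := (volume K).toReal / (2 * (R + d)) ^ n with ht
    have ht0 : 0 ≤ t := by positivity
    have hsub : cube n R \ (K + ((insert x X : Finset (E n)) : Set (E n)))
        ⊆ U \ (U ∩ {y | y - x ∈ K}) := by
      intro y hy
      obtain ⟨hy1, hy2⟩ := hy
      refine ⟨⟨hy1, fun h => hy2 ?_⟩, fun h => hy2 ?_⟩
      · exact Set.add_subset_add_left (by simp) h
      · refine Set.mem_add.2 ⟨y - x, h.2, x, by simp, by simp⟩
    have hmeas2 : MeasurableSet (U ∩ {y | y - x ∈ K}) :=
      hU.inter (measurable_id.sub_const x hK)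
    have h1 : volume (cube n R \ (K + ((insert x X : Finset (E n)) : Set (E n))))
        ≤ volume U - volume (U ∩ {y | y - x ∈ K}) := by
      refine (measure_mono hsub).trans (le_of_eq ?_)
      exact measure_sdiff Set.inter_subset_left hmeas2.nullMeasurableSet
        (ne_top_of_le_ne_top hUfin (measure_mono Set.inter_subset_left))
    have h2 : volume U - volume (U ∩ {y | y - x ∈ K})
        ≤ ENNReal.ofReal ((volume U).toReal * (1 - t)) := by
      have h3 : ENNReal.ofReal ((volume U).toReal * t) ≤ volume (U ∩ {y | y - x ∈ K}) := by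
        refine le_trans (le_of_eq ?_) hx
        rw [ht, ← mul_div_assoc, ENNReal.ofReal_div_of_pos hpos,
          ENNReal.ofReal_mul ENNReal.toReal_nonneg, ENNReal.ofReal_toReal hUfin,
          ENNReal.ofReal_toReal hKfin]
      calc volume U - volume (U ∩ {y | y - x ∈ K})
          ≤ ENNReal.ofReal (volume U).toReal - ENNReal.ofReal ((volume U).toReal * t) := by
            rw [ENNReal.ofReal_toReal hUfin]
            exact tsub_le_tsub_left h3 _
        _ = ENNReal.ofReal ((volume U).toReal * (1 - t)) := by
            rw [← ENNReal.ofReal_sub _ (by positivity)]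
            congr 1
            ring
    refine (h1.trans h2).trans (ENNReal.ofReal_le_ofReal ?_)
    have h4 : (volume U).toReal ≤ (2 * R) ^ n * Real.exp (-(N * (volume K).toReal / (2 * (R + d)) ^ n)) := by
      apply ENNReal.toReal_le_of_le_ofReal (by positivity) hX
    have h5 : 1 - t ≤ Real.exp (-t) := by
      have := Real.add_one_le_exp (-t)
      linarith
    calc (volume U).toReal * (1 - t) ≤ (volume U).toReal * Real.exp (-t) :=
          mul_le_mul_of_nonneg_left h5 ENNReal.toReal_nonneg
      _ ≤ ((2 * R) ^ n * Real.exp (-(N * (volume K).toReal / (2 * (R + d)) ^ n)))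
            * Real.exp (-t) := mul_le_mul_of_nonneg_right h4 (Real.exp_pos _).le
      _ = _ := by
          rw [mul_assoc, ← Real.exp_add]
          congr 2
          rw [ht]
          push_cast
          ring

end P230
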