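import Vale.Agent.H14.CD.Depth

/-! Row P1: mass of the sets `Zs` and `Zb`. -/

namespace P230
open MeasureTheory Metric Finset Filter
open scoped RealInnerProductSpace ENNReal

theorem ZMass.num (a b e : ℝ) (he : 0 < e) (hb : 0 < b) :
    ∀ᶠ n : ℕ in atTop, a * Real.log n + a ≤ b * (n : ℝ) ^ e := by
  have h1 : Tendsto (fun n : ℕ => (n : ℝ)) atTop atTop := tendsto_natCast_atTop_atTop
  have h2 : (fun x : ℝ => Real.log x) =o[atTop] fun x : ℝ => x ^ e :=
    isLittleO_log_rpow_atTop he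
  have h3 := (h2.def (show 0 < b / (2 * (|a| + 1)) by positivity))
  have h4 : Tendsto (fun x : ℝ => x ^ e) atTop atTop := tendsto_rpow_atTop he
  have h5 := h4.eventually (eventually_ge_atTop (2 * |a| / b))
  have h6 := (h1.eventually h3).and ((h1.eventually h5).and (eventually_ge_atTop 1))
  filter_upwards [h6] with n hn
  obtain ⟨g1, g2, g3⟩ := hn
  have hn1 : (1 : ℝ) ≤ n := by exact_mod_cast g3
  have hlog : 0 ≤ Real.log n := Real.log_nonneg hn1
  have hpow : 0 ≤ (n : ℝ) ^ e := Real.rpow_nonneg (by linarith) _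
  rw [Real.norm_of_nonneg hlog, Real.norm_of_nonneg hpow] at g1
  have k1 : a * Real.log n ≤ b / 2 * (n : ℝ) ^ e := by
    calc a * Real.log n ≤ |a| * Real.log n := mul_le_mul_of_nonneg_right (le_abs_self a) hlog
      _ ≤ (|a| + 1) * Real.log n := by nlinarith
      _ ≤ (|a| + 1) * (b / (2 * (|a| + 1)) * (n : ℝ) ^ e) := by
          apply mul_le_mul_of_nonneg_left g1 (by positivity)
      _ = b / 2 * (n : ℝ) ^ e := by
          have : |a| + 1 ≠ 0 := by positivity
          field_simp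
  have k2 : a ≤ b / 2 * (n : ℝ) ^ e := by
    have : 2 * |a| / b * b ≤ (n : ℝ) ^ e * b := mul_le_mul_of_nonneg_right g2 hb.le
    rw [div_mul_cancel₀ _ hb.ne'] at this
    have := le_abs_self a
    linarith
  linarith

/-- polynomial factors against a stretched exponential -/
theorem ZMass.num2 : ∀ᶠ n : ℕ in atTop,
    96 * lam n * (2 * Real.exp (-(n * r1 n ^ 2 / 8))) ≤
      1 / 2 * Real.exp (-(C0 * (4 * Real.log n + 1))) := by
  have h1 := ZMass.num (4 * C0 + 4) (1 / 8) (1 / 4) (by norm_num) (by norm_num)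
  filter_upwards [h1, eventually_ge_atTop 2] with n hn hn2
  have hn1 : (2 : ℝ) ≤ n := by exact_mod_cast hn2
  have hn0 : (0 : ℝ) < n := by linarith
  have hlog : 0 ≤ Real.log n := Real.log_nonneg (by linarith)
  have hlogn : Real.log n ≤ n := (Real.log_le_sub_one_of_pos hn0).trans (by linarith)
  have e1 : (n : ℝ) * r1 n ^ 2 = (n : ℝ) ^ (1 / 4 : ℝ) := by
    unfold r1
    rw [← Real.rpow_natCast, ← Real.rpow_mul hn0.le]
    nth_rewrite 1 [← Real.rpow_one (n : ℝ)]
    rw [← Real.rpow_add hn0]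
    norm_num
  rw [e1]
  have h2 : 96 * lam n * 2 * 2 ≤ Real.exp (2 * Real.log n) := by
    have : Real.exp (2 * Real.log n) = n ^ 2 := by
      rw [show 2 * Real.log n = Real.log n + Real.log n by ring, Real.exp_add,
        Real.exp_log hn0]; ring
    rw [this]
    unfold lam
    nlinarith
  have h3 : Real.exp (2 * Real.log n) * Real.exp (-((n : ℝ) ^ (1 / 4 : ℝ) / 8))
      ≤ Real.exp (-(C0 * (4 * Real.log n + 1))) := by
    rw [← Real.exp_add]
    apply Real.exp_le_exp.2
    have hC : (0 : ℝ) < C0 := by unfold C0; norm_num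
    nlinarith
  have h4 := mul_le_mul_of_nonneg_right h2
    (Real.exp_pos (-((n : ℝ) ^ (1 / 4 : ℝ) / 8))).le
  linarith

theorem ZMass.biUnion {ι α : Type*} [DecidableEq ι] (s : Finset α) (t : α → Finset ι)
    (m : ι → ℝ) (hm : ∀ c, 0 ≤ m c) :
    ∑ c ∈ s.biUnion t, m c ≤ ∑ p ∈ s, ∑ c ∈ t p, m c := by
  classical
  induction s using Finset.induction_on with
  | empty => simp
  | insert a s ha ih =>
    rw [Finset.biUnion_insert, Finset.sum_insert ha]
    have h1 := Finset.sum_union_inter (s₁ := t a) (s₂ := s.biUnion t) (f := m)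
    have h0 : 0 ≤ ∑ c ∈ t a ∩ s.biUnion t, m c := Finset.sum_nonneg fun c _ => hm c
    linarith

/-- from (M2) with `r = 0`, `k = kd`, minus (M3) over `p' ∈ R`: `96 lam n * 2 exp(-n r1^2/8)` is
at most half of `exp(-C0 (4 log n + 1))` for large `n` -/
theorem Zs_mass : ∀ᶠ n : ℕ in atTop, ∀ (ι : Type) (_ : Fintype ι) (g : ι → E n)
    (m : ι → ℝ), Sys n g m → ∀ (S : Finset (E n)) (x : E n), (W n S x : ℝ) ≤ 96 * lam n →
    ∀ R ⊆ near n S x, ∀ p ∈ R,
      Real.exp (-(C0 * ((kd n (x - p) : ℝ) + 1) + 1)) ≤ ∑ c ∈ Zs g x R p, m c := by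
  classical
  filter_upwards [W_spec, ZMass.num2, eventually_ge_atTop 2] with n hW hnum hn2
  intro ι _ g m hS S x hWx R hR p hp
  have hn1 : (2 : ℝ) ≤ n := by exact_mod_cast hn2
  have hn0 : (0 : ℝ) < n := by linarith
  obtain ⟨w1, w2, w3, w4⟩ := hW S x hWx
  have hpn := hR hp
  obtain ⟨k1, k2, k3⟩ := w1 p hpn
  have hdl : dl n ≤ 1 := by
    unfold dl
    rw [div_le_one (by positivity)]
    nlinarith
  have hdl0 : 0 ≤ dl n := by unfold dl; positivity
  have hnorm : ∀ q ∈ near n S x, ‖x - q‖ ≤ 1 + dl n := fun q hq => (Finset.mem_filter.1 hq).2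
  have hr1 : 0 ≤ r1 n := by unfold r1; positivity
  have hk4 : (kd n (x - p) : ℝ) ≤ 4 * Real.log n := by
    have : (kd n (x - p) : ℝ) ≤ kk n + 1 := by exact_mod_cast k2
    linarith
  -- (M2)
  have hM2 := hS.M2 (kd n (x - p)) 0 (x - p) hk4 le_rfl hr1 k3
    ((hnorm p hpn).trans (by linarith))
  rw [mul_zero, add_zero, add_zero] at hM2
  -- removal
  set A : Finset ι := univ.filter (fun c => aa + dl n < ⟪x - p, g c⟫) with hA
  set T : Finset ι := (R.filter (fun p' => r1 n < ‖p - p'‖)).biUnion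
    (fun p' => univ.filter (fun c => aa < ⟪x - p, g c⟫ ∧ aa < ⟪x - p', g c⟫)) with hT
  have hsub : A ⊆ Zs g x R p ∪ T := by
    intro c hc
    rw [hA, Finset.mem_filter] at hc
    by_cases h : ∀ p' ∈ R, r1 n < ‖p - p'‖ → ⟪x - p', g c⟫ ≤ aa + dl n
    · apply Finset.mem_union_left
      unfold Zs
      rw [Finset.mem_filter]
      exact ⟨Finset.mem_univ _, hc.2, h⟩
    · push Not at h
      obtain ⟨p', hp', h1, h2⟩ := h
      apply Finset.mem_union_right
      rw [hT, Finset.mem_biUnion]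
      refine ⟨p', Finset.mem_filter.2 ⟨hp', h1⟩, Finset.mem_filter.2 ⟨Finset.mem_univ _, ?_, ?_⟩⟩
      · linarith [hc.2]
      · linarith
  have hTm : ∑ c ∈ T, m c ≤ 96 * lam n * (2 * Real.exp (-(n * r1 n ^ 2 / 8))) := by
    calc ∑ c ∈ T, m c
        ≤ ∑ p' ∈ R.filter (fun p' => r1 n < ‖p - p'‖),
            ∑ c ∈ univ.filter (fun c => aa < ⟪x - p, g c⟫ ∧ aa < ⟪x - p', g c⟫), m c :=
          ZMass.biUnion _ _ _ hS.nonneg
      _ ≤ ∑ _p' ∈ R.filter (fun p' => r1 n < ‖p - p'‖),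
            2 * Real.exp (-(n * r1 n ^ 2 / 8)) := by
          apply Finset.sum_le_sum
          intro p' hp'
          rw [Finset.mem_filter] at hp'
          have hd : x - p - (x - p') = p' - p := by abel
          have hnn : ‖x - p - (x - p')‖ = ‖p - p'‖ := by rw [hd, norm_sub_rev]
          have h3 := hS.M3 (x - p) (x - p') (hnorm p hpn) (hnorm p' (hR hp'.1))
            (by rw [hnn]; exact hp'.2.le)
          refine h3.trans ?_
          rw [hnn]
          have : r1 n ^ 2 ≤ ‖p - p'‖ ^ 2 := by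
            apply pow_le_pow_left₀ hr1 hp'.2.le
          have h4 : -(n * ‖p - p'‖ ^ 2 / 8) ≤ -(n * r1 n ^ 2 / 8) := by
            have := mul_le_mul_of_nonneg_left this hn0.le
            linarith
          have := Real.exp_le_exp.2 h4
          linarith
      _ = ((R.filter (fun p' => r1 n < ‖p - p'‖)).card : ℝ)
            * (2 * Real.exp (-(n * r1 n ^ 2 / 8))) := by
          rw [Finset.sum_const, nsmul_eq_mul]
      _ ≤ 96 * lam n * (2 * Real.exp (-(n * r1 n ^ 2 / 8))) := by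
          apply mul_le_mul_of_nonneg_right _ (by positivity)
          refine le_trans ?_ w3
          exact_mod_cast (Finset.card_le_card (Finset.filter_subset _ _)).trans
            (Finset.card_le_card hR)
  have hsum : ∑ c ∈ A, m c ≤ ∑ c ∈ Zs g x R p, m c + ∑ c ∈ T, m c := by
    calc ∑ c ∈ A, m c ≤ ∑ c ∈ Zs g x R p ∪ T, m c :=
          Finset.sum_le_sum_of_subset_of_nonneg hsub fun c _ _ => hS.nonneg c
      _ ≤ ∑ c ∈ Zs g x R p, m c + ∑ c ∈ T, m c := by
          have := Finset.sum_union_inter (s₁ := Zs g x R p) (s₂ := T) (f := m)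
          have h0 : 0 ≤ ∑ c ∈ Zs g x R p ∩ T, m c := Finset.sum_nonneg fun c _ => hS.nonneg c
          linarith
  have hexp : Real.exp (-(C0 * (4 * Real.log n + 1)))
      ≤ Real.exp (-(C0 * ((kd n (x - p) : ℝ) + 1))) := by
    apply Real.exp_le_exp.2
    have hC : (0 : ℝ) < C0 := by unfold C0; norm_num
    nlinarith
  have hfin : Real.exp (-(C0 * ((kd n (x - p) : ℝ) + 1) + 1))
      ≤ 1 / 2 * Real.exp (-(C0 * ((kd n (x - p) : ℝ) + 1))) := by
    rw [neg_add, Real.exp_add, mul_comm]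
    apply mul_le_mul_of_nonneg_right _ (Real.exp_pos _).le
    rw [Real.exp_neg, inv_eq_one_div]
    apply one_div_le_one_div_of_le (by norm_num)
    have := Real.add_one_le_exp (1 : ℝ)
    linarith
  have hM2' : Real.exp (-(C0 * ((kd n (x - p) : ℝ) + 1))) ≤ ∑ c ∈ A, m c := by
    refine le_trans (le_of_eq ?_) (hM2.trans (le_of_eq ?_))
    · congr 3
    · rfl
  linarith

theorem Zb_mass : ∀ᶠ n : ℕ in atTop, ∀ (ι : Type) (_ : Fintype ι) (g : ι → E n)
    (m : ι → ℝ), Sys n g m → ∀ (S : Finset (E n)) (x : E n), (W n S x : ℝ) ≤ 96 * lam n →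
    ∀ q ∈ near n S x,
      Real.exp (-(C0 * (4 * Real.log n + 1 + n * r1 n))) ≤ ∑ c ∈ Zb g x q, m c := by
  classical
  filter_upwards [W_spec, eventually_ge_atTop 2] with n hW hn2
  intro ι _ g m hS S x hWx q hq
  have hn1 : (2 : ℝ) ≤ n := by exact_mod_cast hn2
  have hn0 : (0 : ℝ) < n := by linarith
  obtain ⟨w1, w2, w3, w4⟩ := hW S x hWx
  obtain ⟨k1, k2, k3⟩ := w1 q hq
  have hdl : dl n ≤ 1 := by
    unfold dl
    rw [div_le_one (by positivity)]
    nlinarith
  have hr1 : 0 ≤ r1 n := by unfold r1; positivity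
  have hk4 : (kd n (x - q) : ℝ) ≤ 4 * Real.log n := by
    have : (kd n (x - q) : ℝ) ≤ kk n + 1 := by exact_mod_cast k2
    linarith
  have hqn : ‖x - q‖ ≤ 1 + dl n := (Finset.mem_filter.1 hq).2
  have hM2 := hS.M2 (kd n (x - q)) (r1 n) (x - q) hk4 hr1 le_rfl k3 (hqn.trans (by linarith))
  refine le_trans ?_ (hM2.trans (le_of_eq ?_))
  · apply Real.exp_le_exp.2
    have hC : (0 : ℝ) < C0 := by unfold C0; norm_num
    nlinarith
  · rfl

end P230
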